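import Vale.Agent.P171.Model

open MeasureTheory Filter Topology
open scoped ENNReal

namespace Vale.Agent.P171

section General

variable {E : Type} [MeasurableSpace E]

lemma cI_mono_set (m : Measure E) (ι : Type) [Fintype ι] {B B' : Set E} (h : B ⊆ B')
    (w : E → E → ℝ) : cI m ι B w ≤ cI m ι B' w := by
  unfold cI
  exact lintegral_mono_set fun x hx i => h (hx i)

lemma gG_mono_set (m : Measure E) {B B' : Set E} (h : B ⊆ B') (z : ℝ≥0∞) (w : E → E → ℝ) :
    gG m B z w ≤ gG m B' z w := by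
  unfold gG
  exact ENNReal.tsum_le_tsum fun N => mul_le_mul_right (cI_mono_set m _ h w) _

lemma cI_mono_kern (m : Measure E) (ι : Type) [Fintype ι] {B : Set E} (hB : MeasurableSet B)
    {w w' : E → E → ℝ}
    (h : ∀ x : ι → E, (∀ i, x i ∈ B) → ∑ i, ∑ j, w (x i) (x j) ≤ ∑ i, ∑ j, w' (x i) (x j)) :
    cI m ι B w ≤ cI m ι B w' := by
  unfold cI
  refine setLIntegral_mono' (measurableSet_allIn hB) fun x hx => ?_
  unfold bw
  exact ENNReal.ofReal_le_ofReal (Real.exp_le_exp.2 (h x hx))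

lemma gG_mono_kern (m : Measure E) {B : Set E} (hB : MeasurableSet B) (z : ℝ≥0∞)
    {w w' : E → E → ℝ}
    (h : ∀ (N : ℕ) (x : Fin N → E), (∀ i, x i ∈ B) →
      ∑ i, ∑ j, w (x i) (x j) ≤ ∑ i, ∑ j, w' (x i) (x j)) :
    gG m B z w ≤ gG m B z w' := by
  unfold gG
  exact ENNReal.tsum_le_tsum fun N => mul_le_mul_right (cI_mono_kern m _ hB (h N)) _

lemma pi_allIn (m : Measure E) [SigmaFinite m] (ι : Type) [Fintype ι] (B : Set E) :
    (Measure.pi fun _ : ι => m) {x : ι → E | ∀ i, x i ∈ B} = m B ^ Fintype.card ι := by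
  have : {x : ι → E | ∀ i, x i ∈ B} = Set.pi Set.univ (fun _ => B) := by
    ext x; simp
  rw [this, Measure.pi_pi]
  simp

/-- upper bound on an integral by a bound on the exponent -/
lemma cI_le (m : Measure E) [SigmaFinite m] (ι : Type) [Fintype ι] {B : Set E}
    (hB : MeasurableSet B) {w : E → E → ℝ} {c : ℝ}
    (h : ∀ x : ι → E, (∀ i, x i ∈ B) → ∑ i, ∑ j, w (x i) (x j) ≤ c) :
    cI m ι B w ≤ ENNReal.ofReal (Real.exp c) * m B ^ Fintype.card ι := by
  unfold cI
  calc ∫⁻ x in {x : ι → E | ∀ i, x i ∈ B}, bw w x ∂(Measure.pi fun _ : ι => m)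
      ≤ ∫⁻ x in {x : ι → E | ∀ i, x i ∈ B}, ENNReal.ofReal (Real.exp c)
          ∂(Measure.pi fun _ : ι => m) := by
        refine setLIntegral_mono' (measurableSet_allIn hB) fun x hx => ?_
        exact ENNReal.ofReal_le_ofReal (Real.exp_le_exp.2 (h x hx))
    _ = _ := by rw [setLIntegral_const, pi_allIn]

lemma tsum_exp (r : ℝ) (hr : 0 ≤ r) :
    ∑' N : ℕ, ENNReal.ofReal r ^ N * (N.factorial : ℝ≥0∞)⁻¹ = ENNReal.ofReal (Real.exp r) := by
  have h1 : ∀ N : ℕ, ENNReal.ofReal r ^ N * (N.factorial : ℝ≥0∞)⁻¹ =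
      ENNReal.ofReal (r ^ N / N.factorial) := by
    intro N
    rw [← ENNReal.ofReal_pow hr, ← ENNReal.ofReal_natCast,
      ← ENNReal.ofReal_inv_of_pos (by positivity), ← ENNReal.ofReal_mul (by positivity)]
    rfl
  simp_rw [h1]
  rw [← ENNReal.ofReal_tsum_of_nonneg]
  · congr 1
    rw [Real.exp_eq_exp_ℝ, NormedSpace.exp_eq_tsum_div]
  · intro N; positivity
  · exact Real.summable_pow_div_factorial r

/-- The grand canonical sum with nonpositive exponents is at most `exp (z |B|)`. -/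
lemma gG_le_exp (m : Measure E) [SigmaFinite m] {B : Set E} (hB : MeasurableSet B)
    {z v : ℝ} (hz : 0 ≤ z) (hv : 0 ≤ v) (hmB : m B ≤ ENNReal.ofReal v) {w : E → E → ℝ}
    (h : ∀ (N : ℕ) (x : Fin N → E), (∀ i, x i ∈ B) → ∑ i, ∑ j, w (x i) (x j) ≤ 0) :
    gG m B (ENNReal.ofReal z) w ≤ ENNReal.ofReal (Real.exp (z * v)) := by
  unfold gG
  rw [← tsum_exp (z * v) (by positivity)]
  refine ENNReal.tsum_le_tsum fun N => ?_
  have h1 : cI m (Fin N) B w ≤ ENNReal.ofReal v ^ N := by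
    refine (cI_le m (Fin N) hB (h N)).trans ?_
    simp only [Real.exp_zero, ENNReal.ofReal_one, one_mul, Fintype.card_fin]
    gcongr
  calc ENNReal.ofReal z ^ N * (N.factorial : ℝ≥0∞)⁻¹ * cI m (Fin N) B w
      ≤ ENNReal.ofReal z ^ N * (N.factorial : ℝ≥0∞)⁻¹ * ENNReal.ofReal v ^ N := by gcongr
    _ = _ := by rw [ENNReal.ofReal_mul hz, mul_pow]; ring

lemma one_le_gG (m : Measure E) [SigmaFinite m] (B : Set E) (z : ℝ≥0∞) (w : E → E → ℝ) :
    1 ≤ gG m B z w := by
  unfold gG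
  refine le_trans ?_ (ENNReal.le_tsum 0)
  simp [cI_empty_zero]

lemma gG_congr_kern (m : Measure E) {B : Set E} (hB : MeasurableSet B) (z : ℝ≥0∞)
    {w w' : E → E → ℝ} (h : ∀ x ∈ B, ∀ y ∈ B, w x y = w' x y) :
    gG m B z w = gG m B z w' := by
  apply le_antisymm
  · refine gG_mono_kern m hB z fun N x hx => le_of_eq ?_
    exact Finset.sum_congr rfl fun i _ => Finset.sum_congr rfl fun j _ => h _ (hx i) _ (hx j)
  · refine gG_mono_kern m hB z fun N x hx => le_of_eq ?_
    exact Finset.sum_congr rfl fun i _ => Finset.sum_congr rfl fun j _ => (h _ (hx i) _ (hx j)).symm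

end General

/-! ### Volume and translations in `E3` -/

lemma volume_pi_set (I : Fin 3 → Set ℝ) :
    volume {x : E3 | ∀ k, x k ∈ I k} = ∏ k, volume (I k) := by
  have h := (PiLp.volume_preserving_ofLp (Fin 3)).measure_preimage_emb
    (MeasurableEquiv.toLp 2 (Fin 3 → ℝ)).symm.measurableEmbedding (Set.pi Set.univ I)
  rw [volume_pi_pi] at h
  rw [← h]
  congr 1
  ext x
  simp

lemma measurable_coord (k : Fin 3) : Measurable fun x : E3 => x k := by
  fun_prop

lemma measurableSet_pi_set {I : Fin 3 → Set ℝ} (hI : ∀ k, MeasurableSet (I k)) :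
    MeasurableSet {x : E3 | ∀ k, x k ∈ I k} := by
  have : {x : E3 | ∀ k, x k ∈ I k} = ⋂ k, (fun x : E3 => x k) ⁻¹' I k := by
    ext x; simp
  rw [this]
  exact MeasurableSet.iInter fun k => measurable_coord k (hI k)

lemma measurableSet_box (L : ℝ) : MeasurableSet (box L) :=
  measurableSet_pi_set fun _ => measurableSet_Icc

lemma volume_box {L : ℝ} (hL : 0 ≤ L) : volume (box L) = ENNReal.ofReal (L ^ 3) := by
  unfold box
  rw [volume_pi_set fun _ => Set.Icc 0 L]
  simp [Real.volume_Icc, ENNReal.ofReal_pow hL]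

lemma cI_translate (s : E3) (ι : Type) [Fintype ι] {B : Set E3} (hB : MeasurableSet B)
    {w : E3 → E3 → ℝ} (hw : Measurable (Function.uncurry w))
    (hs : ∀ x y, w (x + s) (y + s) = w x y) :
    cI volume ι {x | x + s ∈ B} w = cI volume ι B w := by
  unfold cI
  have hB' : MeasurableSet {x | x + s ∈ B} := (measurable_add_const s) hB
  rw [← lintegral_indicator (measurableSet_allIn hB), ← lintegral_indicator (measurableSet_allIn hB')]
  rw [← lintegral_add_right_eq_self (Set.indicator {x : ι → E3 | ∀ i, x i ∈ B} (bw w))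
    (fun _ : ι => s)]
  refine lintegral_congr fun x => ?_
  by_cases hx : ∀ i, x i + s ∈ B
  · have hx' : (x + fun _ : ι => s) ∈ {x : ι → E3 | ∀ i, x i ∈ B} := hx
    rw [Set.indicator_of_mem (s := {x : ι → E3 | ∀ i, x i ∈ {x | x + s ∈ B}}) hx,
      Set.indicator_of_mem hx']
    unfold bw
    simp [hs]
  · have hx' : (x + fun _ : ι => s) ∉ {x : ι → E3 | ∀ i, x i ∈ B} := hx
    rw [Set.indicator_of_notMem (s := {x : ι → E3 | ∀ i, x i ∈ {x | x + s ∈ B}}) hx,
      Set.indicator_of_notMem hx']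

lemma gG_translate (s : E3) {B : Set E3} (hB : MeasurableSet B) (z : ℝ≥0∞)
    {w : E3 → E3 → ℝ} (hw : Measurable (Function.uncurry w))
    (hs : ∀ x y, w (x + s) (y + s) = w x y) :
    gG volume {x | x + s ∈ B} z w = gG volume B z w := by
  unfold gG
  simp_rw [cI_translate s _ hB hw hs]

end Vale.Agent.P171
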