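import Vale.Agent.P171.LP

open MeasureTheory Filter Topology
open scoped ENNReal

namespace Vale.Agent.P171

lemma wLP_sum (a : ℕ → ℝ) (l : ℕ) (u : ℝ) {N : ℕ} (x : Fin N → E3) :
    ∑ i, ∑ j, wLP a l u (x i) (x j) =
      ∑ i, ∑ j, kern a (x i) (x j) + eta a l * ∑ i, ∑ j, sameCell (x i) (x j) +
        u / 2 * ((N : ℝ) ^ 2 / (l : ℝ) ^ 3) := by
  unfold wLP
  simp_rw [Finset.sum_add_distrib, Finset.mul_sum]
  congr 1
  simp
  ring

lemma cell_term {a : ℕ → ℝ} (ha : Adm a) {l : ℕ} (hl : 0 < l) {u K : ℝ} (hu : 0 ≤ u)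
    (hK : 0 ≤ K) (hsmall : eta a l + u / 2 ≤ 1 / 2) (N : ℕ) :
    cI volume (Fin N) (cube0 l) (wLP a l u) ≤
      (if (N : ℝ) ^ 2 ≤ K * (l : ℝ) ^ 6 then
        ENNReal.ofReal (Real.exp (eta a l * (K * (l : ℝ) ^ 3) + u / 2 * ((N : ℝ) ^ 2 / (l : ℝ) ^ 3))) *
          cI volume (Fin N) (cube0 l) (kern a) else 0) +
      ENNReal.ofReal (Real.exp (-(K / 2 * (l : ℝ) ^ 3))) * ENNReal.ofReal ((l : ℝ) ^ 3) ^ N := by
  have hl' : (0 : ℝ) < l := by exact_mod_cast hl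
  have hη := eta_nonneg ha l
  set c : ℝ≥0∞ := if (N : ℝ) ^ 2 ≤ K * (l : ℝ) ^ 6 then
    ENNReal.ofReal (Real.exp (eta a l * (K * (l : ℝ) ^ 3) + u / 2 * ((N : ℝ) ^ 2 / (l : ℝ) ^ 3)))
    else 0 with hc
  have hpt : ∀ x ∈ {x : Fin N → E3 | ∀ i, x i ∈ cube0 l}, bw (wLP a l u) x ≤
      c * bw (kern a) x + ENNReal.ofReal (Real.exp (-(K / 2 * (l : ℝ) ^ 3))) := by
    intro x hx
    have hX1 := card_sq_le x l hl fun i k => ⟨(hx i k).1, (hx i k).2⟩
    rw [Fintype.card_fin] at hX1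
    have hS := superstable ha x
    set X := ∑ i, ∑ j, sameCell (x i) (x j) with hX
    set S := ∑ i, ∑ j, kern a (x i) (x j) with hSdef
    have hX0 : 0 ≤ X := Finset.sum_nonneg fun i _ => Finset.sum_nonneg fun j _ =>
      sameCell_nonneg _ _
    have hE : ∑ i, ∑ j, wLP a l u (x i) (x j) =
        S + eta a l * X + u / 2 * ((N : ℝ) ^ 2 / (l : ℝ) ^ 3) := wLP_sum a l u x
    by_cases hcase : X ≤ K * (l : ℝ) ^ 3
    · have hN : (N : ℝ) ^ 2 ≤ K * (l : ℝ) ^ 6 := by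
        have := hX1.trans hcase
        rw [div_le_iff₀ (by positivity)] at this
        calc (N : ℝ) ^ 2 ≤ K * (l : ℝ) ^ 3 * (l : ℝ) ^ 3 := this
          _ = K * (l : ℝ) ^ 6 := by ring
      have hc' : c = ENNReal.ofReal (Real.exp (eta a l * (K * (l : ℝ) ^ 3) +
          u / 2 * ((N : ℝ) ^ 2 / (l : ℝ) ^ 3))) := by rw [hc, if_pos hN]
      refine le_trans ?_ (le_add_of_nonneg_right bot_le)
      rw [hc']
      unfold bw
      rw [← ENNReal.ofReal_mul (Real.exp_nonneg _), ← Real.exp_add]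
      refine ENNReal.ofReal_le_ofReal (Real.exp_le_exp.2 ?_)
      rw [hE]
      have := mul_le_mul_of_nonneg_left hcase hη
      linarith
    · push Not at hcase
      refine le_trans ?_ (le_add_of_nonneg_left bot_le)
      unfold bw
      refine ENNReal.ofReal_le_ofReal (Real.exp_le_exp.2 ?_)
      rw [hE]
      have h1 : u / 2 * ((N : ℝ) ^ 2 / (l : ℝ) ^ 3) ≤ u / 2 * X :=
        mul_le_mul_of_nonneg_left hX1 (by positivity)
      have h2 : (eta a l + u / 2) * X ≤ 1 / 2 * X := mul_le_mul_of_nonneg_right hsmall hX0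
      nlinarith
  calc cI volume (Fin N) (cube0 l) (wLP a l u)
      ≤ ∫⁻ x in {x : Fin N → E3 | ∀ i, x i ∈ cube0 l}, (c * bw (kern a) x +
          ENNReal.ofReal (Real.exp (-(K / 2 * (l : ℝ) ^ 3)))) := by
        unfold cI
        exact setLIntegral_mono' (measurableSet_allIn (measurableSet_cube0 l)) hpt
    _ = c * cI volume (Fin N) (cube0 l) (kern a) +
        ENNReal.ofReal (Real.exp (-(K / 2 * (l : ℝ) ^ 3))) * ENNReal.ofReal ((l : ℝ) ^ 3) ^ N := by
        rw [lintegral_add_left ((measurable_bw (measurable_kern ha)).const_mul c),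
          lintegral_const_mul c (measurable_bw (measurable_kern ha)), setLIntegral_const]
        have := pi_allIn (volume : Measure E3) (Fin N) (cube0 l)
        rw [volume_cube0, Fintype.card_fin] at this
        rw [show (volume : Measure (Fin N → E3)) = Measure.pi fun _ => volume from rfl, this]
        rfl
    _ ≤ _ := by
        refine add_le_add ?_ le_rfl
        rw [hc]
        split_ifs <;> simp

lemma act_shift (μ h : ℝ) (N : ℕ) :
    act μ ^ N = ENNReal.ofReal (Real.exp (-(h * N))) * act (μ + h) ^ N := by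
  unfold act
  rw [← ENNReal.ofReal_pow (Real.exp_nonneg _), ← ENNReal.ofReal_pow (Real.exp_nonneg _),
    ← ENNReal.ofReal_mul (Real.exp_nonneg _), ← Real.exp_nat_mul, ← Real.exp_nat_mul,
    ← Real.exp_add]
  congr 2
  ring

lemma Xi_eq_ofReal {a : ℕ → ℝ} (ha : Adm a) (μ L : ℝ) :
    Xi a μ L = ENNReal.ofReal (Real.exp (Real.log (Xi a μ L).toReal)) := by
  rw [Real.exp_log (by linarith [one_le_Xi_toReal ha μ L]), ENNReal.ofReal_toReal (Xi_ne_top ha μ L)]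

lemma Xi_le_press {a : ℕ → ℝ} (ha : Adm a) (μ : ℝ) (l : ℕ) :
    Xi a μ l ≤ ENNReal.ofReal (Real.exp (((l : ℝ) + 2) ^ 3 * press a μ)) := by
  rw [Xi_eq_ofReal ha]
  exact ENNReal.ofReal_le_ofReal (Real.exp_le_exp.2 (logXi_le_press ha μ l))

lemma cube0_subset_box (l : ℕ) : cube0 l ⊆ box l := fun _ hx k => ⟨(hx k).1, (hx k).2.le⟩

/-- the exponent in the single cell estimate -/
noncomputable def Qexp (η K u ρ P h₀ l : ℝ) : ℝ :=
  l ^ 3 * (η * K + u / 2 * ρ ^ 2 + P) + ((l + 2) ^ 3 - l ^ 3) * (P + ρ * h₀)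

/-- bound of a single term of the grand canonical sum of the decoupled cell -/
lemma main_term {a : ℕ → ℝ} (ha : Adm a) {μ ρ h₀ u K : ℝ} (hρ : 0 ≤ ρ) (hu : 0 < u)
    (hK : 0 ≤ K) (hpress : ∀ h, 0 ≤ h → h ≤ h₀ → press a (μ + h) ≤ press a μ + ρ * h)
    (hKu : u * √K ≤ h₀) {l : ℕ} (hl : 0 < l) (N : ℕ) (hN : (N : ℝ) ^ 2 ≤ K * (l : ℝ) ^ 6) :
    act μ ^ N * (N.factorial : ℝ≥0∞)⁻¹ *
      (ENNReal.ofReal (Real.exp (eta a l * (K * (l : ℝ) ^ 3) + u / 2 * ((N : ℝ) ^ 2 / (l : ℝ) ^ 3))) *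
        cI volume (Fin N) (cube0 l) (kern a)) ≤
      ENNReal.ofReal (Real.exp (Qexp (eta a l) K u ρ (press a μ) h₀ l)) := by
  have hl' : (0 : ℝ) < l := by exact_mod_cast hl
  set h : ℝ := u * N / (l : ℝ) ^ 3 with hh
  have hh0 : 0 ≤ h := by positivity
  have hNle : (N : ℝ) ≤ √K * (l : ℝ) ^ 3 := by
    have h1 : √((N : ℝ) ^ 2) ≤ √(K * (l : ℝ) ^ 6) := Real.sqrt_le_sqrt hN
    rw [Real.sqrt_sq (by positivity), Real.sqrt_mul hK,
      show (l : ℝ) ^ 6 = ((l : ℝ) ^ 3) ^ 2 by ring, Real.sqrt_sq (by positivity)] at h1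
    exact h1
  have hhle : h ≤ h₀ := by
    refine le_trans ?_ hKu
    rw [hh, div_le_iff₀ (by positivity)]
    nlinarith
  have hXi : act (μ + h) ^ N * (N.factorial : ℝ≥0∞)⁻¹ * cI volume (Fin N) (cube0 l) (kern a) ≤
      ENNReal.ofReal (Real.exp (((l : ℝ) + 2) ^ 3 * press a (μ + h))) := by
    refine le_trans ?_ (Xi_le_press ha (μ + h) l)
    refine le_trans ?_ (gG_mono_set volume (cube0_subset_box l) (act (μ + h)) (kern a))
    unfold gG
    exact ENNReal.le_tsum N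
  calc act μ ^ N * (N.factorial : ℝ≥0∞)⁻¹ *
      (ENNReal.ofReal (Real.exp (eta a l * (K * (l : ℝ) ^ 3) + u / 2 * ((N : ℝ) ^ 2 / (l : ℝ) ^ 3))) *
        cI volume (Fin N) (cube0 l) (kern a))
      = ENNReal.ofReal (Real.exp (-(h * N))) * ENNReal.ofReal (Real.exp (eta a l *
          (K * (l : ℝ) ^ 3) + u / 2 * ((N : ℝ) ^ 2 / (l : ℝ) ^ 3))) *
        (act (μ + h) ^ N * (N.factorial : ℝ≥0∞)⁻¹ * cI volume (Fin N) (cube0 l) (kern a)) := by
        rw [act_shift μ h N]; ring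
    _ ≤ ENNReal.ofReal (Real.exp (-(h * N))) * ENNReal.ofReal (Real.exp (eta a l *
          (K * (l : ℝ) ^ 3) + u / 2 * ((N : ℝ) ^ 2 / (l : ℝ) ^ 3))) *
        ENNReal.ofReal (Real.exp (((l : ℝ) + 2) ^ 3 * press a (μ + h))) := by gcongr
    _ ≤ _ := by
        rw [← ENNReal.ofReal_mul (Real.exp_nonneg _), ← ENNReal.ofReal_mul (by positivity),
          ← Real.exp_add, ← Real.exp_add]
        refine ENNReal.ofReal_le_ofReal (Real.exp_le_exp.2 ?_)
        have h1 := hpress h hh0 hhle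
        have h2 : ((l : ℝ) + 2) ^ 3 * press a (μ + h) ≤ ((l : ℝ) + 2) ^ 3 * (press a μ + ρ * h) :=
          mul_le_mul_of_nonneg_left h1 (by positivity)
        have h3 : (0 : ℝ) ≤ ((l : ℝ) + 2) ^ 3 - (l : ℝ) ^ 3 := by
          have : (l : ℝ) ^ 3 ≤ ((l : ℝ) + 2) ^ 3 := by gcongr; linarith
          linarith
        have h4 : (((l : ℝ) + 2) ^ 3 - (l : ℝ) ^ 3) * (ρ * h) ≤
            (((l : ℝ) + 2) ^ 3 - (l : ℝ) ^ 3) * (ρ * h₀) :=
          mul_le_mul_of_nonneg_left (mul_le_mul_of_nonneg_left hhle hρ) h3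
        have h5 : (N : ℝ) = h * (l : ℝ) ^ 3 / u := by
          rw [hh]; field_simp
        have h6 : -(h * N) + u / 2 * ((N : ℝ) ^ 2 / (l : ℝ) ^ 3) = -(l : ℝ) ^ 3 * (h ^ 2 / (2 * u)) := by
          rw [h5]; field_simp; ring
        have h7 : -(h ^ 2 / (2 * u)) + ρ * h ≤ u / 2 * ρ ^ 2 := by
          have : u / 2 * ρ ^ 2 - (-(h ^ 2 / (2 * u)) + ρ * h) = (h - u * ρ) ^ 2 / (2 * u) := by
            field_simp; ring
          have h8 : 0 ≤ (h - u * ρ) ^ 2 / (2 * u) := by positivity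
          linarith
        have h9 : (l : ℝ) ^ 3 * (-(h ^ 2 / (2 * u)) + ρ * h) ≤ (l : ℝ) ^ 3 * (u / 2 * ρ ^ 2) :=
          mul_le_mul_of_nonneg_left h7 (by positivity)
        unfold Qexp
        nlinarith

/-- The single cell estimate. -/
lemma cell_estimate {a : ℕ → ℝ} (ha : Adm a) {μ ρ h₀ u K : ℝ} (hρ : 0 ≤ ρ) (hu : 0 < u)
    (hK : K = 2 * Real.exp (μ + ampA / 2)) (hh₀ : 0 ≤ h₀)
    (hpress : ∀ h, 0 ≤ h → h ≤ h₀ → press a (μ + h) ≤ press a μ + ρ * h)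
    (hKu : u * √K ≤ h₀) {l : ℕ} (hl : 0 < l) (hsmall : eta a l + u / 2 ≤ 1 / 2) :
    gG volume (cube0 l) (act μ) (wLP a l u) ≤
      ENNReal.ofReal ((√K * (l : ℝ) ^ 3 + 2) *
        Real.exp (Qexp (eta a l) K u ρ (press a μ) h₀ l)) := by
  have hK0 : 0 ≤ K := by rw [hK]; positivity
  have hl' : (0 : ℝ) < l := by exact_mod_cast hl
  set Q := Qexp (eta a l) K u ρ (press a μ) h₀ l with hQ
  have hQ0 : 0 ≤ Q := by
    rw [hQ]
    unfold Qexp
    have h1 := eta_nonneg ha l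
    have h2 := press_nonneg ha μ
    have h3 : (0 : ℝ) ≤ ((l : ℝ) + 2) ^ 3 - (l : ℝ) ^ 3 := by
      have : (l : ℝ) ^ 3 ≤ ((l : ℝ) + 2) ^ 3 := by gcongr; linarith
      linarith
    positivity
  unfold gG
  calc ∑' N : ℕ, act μ ^ N * (N.factorial : ℝ≥0∞)⁻¹ * cI volume (Fin N) (cube0 l) (wLP a l u)
      ≤ ∑' N : ℕ, ((if N ∈ Finset.range (⌊√K * (l : ℝ) ^ 3⌋₊ + 1) then
            ENNReal.ofReal (Real.exp Q) else 0) +
          ENNReal.ofReal (Real.exp (-(K / 2 * (l : ℝ) ^ 3))) *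
            (ENNReal.ofReal (Real.exp (μ + ampA / 2) * (l : ℝ) ^ 3) ^ N *
              (N.factorial : ℝ≥0∞)⁻¹)) := by
        refine ENNReal.tsum_le_tsum fun N => ?_
        refine (mul_le_mul_right (cell_term ha hl hu.le hK0 hsmall N) _).trans ?_
        rw [mul_add]
        refine add_le_add ?_ ?_
        · by_cases hN : (N : ℝ) ^ 2 ≤ K * (l : ℝ) ^ 6
          · rw [if_pos hN]
            have hNle : (N : ℝ) ≤ √K * (l : ℝ) ^ 3 := by
              have h1 : √((N : ℝ) ^ 2) ≤ √(K * (l : ℝ) ^ 6) := Real.sqrt_le_sqrt hN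
              rw [Real.sqrt_sq (by positivity), Real.sqrt_mul hK0,
                show (l : ℝ) ^ 6 = ((l : ℝ) ^ 3) ^ 2 by ring, Real.sqrt_sq (by positivity)] at h1
              exact h1
            rw [if_pos (by
              rw [Finset.mem_range, Nat.lt_succ_iff]
              exact Nat.le_floor hNle)]
            exact main_term ha hρ hu hK0 hpress hKu hl N hN
          · rw [if_neg hN, mul_zero]
            exact bot_le
        · unfold act
          rw [ENNReal.ofReal_mul (Real.exp_nonneg _), mul_pow]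
          apply le_of_eq
          ring
    _ = (⌊√K * (l : ℝ) ^ 3⌋₊ + 1 : ℕ) * ENNReal.ofReal (Real.exp Q) +
          ENNReal.ofReal (Real.exp (-(K / 2 * (l : ℝ) ^ 3))) *
            ENNReal.ofReal (Real.exp (Real.exp (μ + ampA / 2) * (l : ℝ) ^ 3)) := by
        rw [ENNReal.tsum_add, ENNReal.tsum_mul_left, tsum_exp _ (by positivity)]
        congr 1
        rw [tsum_eq_sum (s := Finset.range (⌊√K * (l : ℝ) ^ 3⌋₊ + 1))
          (fun N hN => by rw [if_neg hN])]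
        rw [Finset.sum_congr rfl fun N hN => if_pos hN, Finset.sum_const, Finset.card_range,
          nsmul_eq_mul]
    _ = ENNReal.ofReal (((⌊√K * (l : ℝ) ^ 3⌋₊ : ℝ) + 1) * Real.exp Q + 1) := by
        rw [← ENNReal.ofReal_mul (Real.exp_nonneg _), ← Real.exp_add, hK]
        rw [show -(2 * Real.exp (μ + ampA / 2) / 2 * (l : ℝ) ^ 3) +
          Real.exp (μ + ampA / 2) * (l : ℝ) ^ 3 = 0 by ring]
        rw [ENNReal.ofReal_add (by positivity) (by norm_num), ENNReal.ofReal_mul (by positivity)]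
        rw [Real.exp_zero]
        congr 2
        rw [← ENNReal.ofReal_natCast]
        push_cast
        rfl
    _ ≤ _ := by
        refine ENNReal.ofReal_le_ofReal ?_
        have h1 : (⌊√K * (l : ℝ) ^ 3⌋₊ : ℝ) ≤ √K * (l : ℝ) ^ 3 := Nat.floor_le (by positivity)
        have h2 : 1 ≤ Real.exp Q := Real.one_le_exp hQ0
        nlinarith

end Vale.Agent.P171
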