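import Vale.Agent.P171.Final

open MeasureTheory Filter Topology
open scoped ENNReal

namespace Vale.Agent.P171

lemma pot_bounded {a : ℕ → ℝ} (ha : Adm a) (d : ℝ) : |pot a d| ≤ ampA + aStar := by
  have h1 := attr_nonneg ha d
  have h2 := attr_le ha d
  have h3 : 0 < aStar := by unfold aStar; norm_num
  have h4 : 0 < ampA := by unfold ampA; linarith
  unfold pot
  rw [abs_le]
  split_ifs <;> constructor <;> linarith

lemma isPairPotential_pot {a : ℕ → ℝ} (ha : Adm a) : IsPairPotential (pot a) :=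
  ⟨measurable_pot ha, fun _ _ _ => ⟨ampA + aStar, fun r _ => pot_bounded ha r⟩⟩

/-- `∑_{i,j} g i j = 2 ∑_{i<j} g i j + ∑_i g i i` for symmetric `g`. -/
lemma sum_symm {N : ℕ} (g : Fin N → Fin N → ℝ) (hg : ∀ i j, g i j = g j i) :
    ∑ i, ∑ j, g i j = 2 * (∑ i : Fin N, ∑ j ∈ Finset.Ioi i, g i j) + ∑ i, g i i := by
  have h1 : ∀ i : Fin N, ∑ j, g i j =
      ∑ j ∈ Finset.Ioi i, g i j + ∑ j ∈ Finset.Iio i, g i j + g i i := by
    intro i
    have hu : (Finset.univ : Finset (Fin N)) = (Finset.Ioi i ∪ Finset.Iio i) ∪ {i} := by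
      ext j
      simp only [Finset.mem_univ, Finset.mem_union, Finset.mem_Ioi, Finset.mem_Iio,
        Finset.mem_singleton, true_iff]
      rcases lt_trichotomy i j with h | h | h
      · exact Or.inl (Or.inl h)
      · exact Or.inr h.symm
      · exact Or.inl (Or.inr h)
    rw [hu, Finset.sum_union, Finset.sum_union, Finset.sum_singleton]
    · rw [Finset.disjoint_left]
      intro j hj hj'
      exact absurd (Finset.mem_Ioi.1 hj) (not_lt.2 (Finset.mem_Iio.1 hj').le)
    · rw [Finset.disjoint_left]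
      intro j hj hj'
      rw [Finset.mem_singleton] at hj'
      subst hj'
      simp at hj
  have h2 : ∑ i : Fin N, ∑ j ∈ Finset.Iio i, g i j = ∑ i : Fin N, ∑ j ∈ Finset.Ioi i, g i j := by
    rw [Finset.sum_sigma', Finset.sum_sigma']
    refine Finset.sum_bij' (fun p _ => ⟨p.2, p.1⟩) (fun p _ => ⟨p.2, p.1⟩) ?_ ?_ ?_ ?_ ?_
    · rintro ⟨i, j⟩ h; simpa using h
    · rintro ⟨i, j⟩ h; simpa using h
    · rintro ⟨i, j⟩ _; rfl
    · rintro ⟨i, j⟩ _; rfl
    · rintro ⟨i, j⟩ _; exact hg i j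
  simp_rw [h1, Finset.sum_add_distrib]
  rw [h2]
  ring

lemma neg_pairEnergy (a : ℕ → ℝ) {N : ℕ} (x : Fin N → E3) :
    -pairEnergy (pot a) x = ∑ i, ∑ j, kern a (x i) (x j) + pot a 0 / 2 * N := by
  have h := sum_symm (fun i j => kern a (x i) (x j)) (fun i j => by
    unfold kern; rw [dist_comm])
  rw [h]
  unfold pairEnergy kern
  simp only [dist_self, Finset.sum_const, Finset.card_univ, Fintype.card_fin, nsmul_eq_mul,
    ← Finset.mul_sum]
  ring

lemma isStable_pot {a : ℕ → ℝ} (ha : Adm a) : IsStable (pot a) := by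
  refine ⟨pot a 0 / 2, fun N x _ => ?_⟩
  have h1 := neg_pairEnergy a x
  have h2 := kern_sum_nonpos ha x
  linarith

lemma isTempered_pot {a : ℕ → ℝ} (ha : Adm a) : IsTempered (pot a) := by
  refine ⟨1, 1, 2, by norm_num, by norm_num, by norm_num, fun r hr => ?_⟩
  have h1 := attr_nonneg ha r
  have h2 : (0 : ℝ) ≤ 1 * r ^ ((-3 : ℝ) - 1) := by
    have : (0 : ℝ) ≤ r := by linarith
    positivity
  refine le_trans ?_ h2
  unfold pot
  rw [if_neg (not_lt.2 hr)]
  linarith

lemma measurable_pairEnergy {a : ℕ → ℝ} (ha : Adm a) (N : ℕ) :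
    Measurable fun x : Fin N → E3 => pairEnergy (pot a) x := by
  unfold pairEnergy
  refine Finset.measurable_sum _ fun i _ => Finset.measurable_sum _ fun j _ => ?_
  exact (measurable_pot ha).comp ((measurable_pi_apply i).dist (measurable_pi_apply j))

lemma exp_energy_le {a : ℕ → ℝ} (ha : Adm a) {N : ℕ} (x : Fin N → E3) :
    Real.exp (-1 * pairEnergy (pot a) x) ≤ Real.exp (pot a 0 / 2 * N) := by
  refine Real.exp_le_exp.2 ?_
  have h1 := neg_pairEnergy a x
  have h2 := kern_sum_nonpos ha x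
  linarith

lemma volume_allIn_box {L : ℝ} (hL : 0 ≤ L) (N : ℕ) :
    volume {x : Fin N → E3 | ∀ i, x i ∈ box L} = ENNReal.ofReal (L ^ 3) ^ N := by
  have := pi_allIn (volume : Measure E3) (Fin N) (box L)
  rw [volume_box hL, Fintype.card_fin] at this
  exact this

lemma integrable_boltzmann {a : ℕ → ℝ} (ha : Adm a) {L : ℝ} (hL : 0 ≤ L) (N : ℕ) :
    IntegrableOn (fun x : Fin N → E3 => Real.exp (-1 * pairEnergy (pot a) x))
      {x | ∀ i, x i ∈ box L} := by
  refine Measure.integrableOn_of_bounded (M := Real.exp (pot a 0 / 2 * N)) ?_ ?_ ?_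
  · rw [volume_allIn_box hL]
    exact ENNReal.pow_ne_top ENNReal.ofReal_ne_top
  · exact (Real.measurable_exp.comp ((measurable_pairEnergy ha N).const_mul _)).aestronglyMeasurable
  · refine Eventually.of_forall fun x => ?_
    rw [Real.norm_of_nonneg (Real.exp_nonneg _)]
    exact exp_energy_le ha x

/-- each term of the real grand canonical sum is the corresponding term of `Xi` -/
lemma term_eq {a : ℕ → ℝ} (ha : Adm a) {L : ℝ} (hL : 0 ≤ L) {z : ℝ} (hz : 0 < z) (N : ℕ) :
    ENNReal.ofReal (z ^ N * canonicalZ (pot a) 1 L N) =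
      act (Real.log z - attr a 0 / 2) ^ N * (N.factorial : ℝ≥0∞)⁻¹ *
        cI volume (Fin N) (box L) (kern a) := by
  unfold canonicalZ
  have h1 : ENNReal.ofReal (∫ x in {x : Fin N → E3 | ∀ i, x i ∈ box L},
      Real.exp (-1 * pairEnergy (pot a) x)) =
      ∫⁻ x in {x : Fin N → E3 | ∀ i, x i ∈ box L},
        ENNReal.ofReal (Real.exp (-1 * pairEnergy (pot a) x)) :=
    ofReal_integral_eq_lintegral_ofReal (integrable_boltzmann ha hL N)
      (Eventually.of_forall fun x => Real.exp_nonneg _)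
  have h2 : ∀ x : Fin N → E3, ENNReal.ofReal (Real.exp (-1 * pairEnergy (pot a) x)) =
      ENNReal.ofReal (Real.exp (pot a 0 / 2 * N)) * bw (kern a) x := by
    intro x
    unfold bw
    rw [← ENNReal.ofReal_mul (Real.exp_nonneg _), ← Real.exp_add]
    congr 2
    rw [neg_one_mul, neg_pairEnergy]
    ring
  rw [ENNReal.ofReal_mul (by positivity), ENNReal.ofReal_mul (by positivity), h1]
  simp_rw [h2]
  rw [lintegral_const_mul _ (measurable_bw (measurable_kern ha)),
    ENNReal.ofReal_inv_of_pos (by positivity), ENNReal.ofReal_natCast]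
  have h3 : act (Real.log z - attr a 0 / 2) ^ N =
      ENNReal.ofReal (z ^ N) * ENNReal.ofReal (Real.exp (pot a 0 / 2 * N)) := by
    unfold act
    rw [← ENNReal.ofReal_pow (Real.exp_nonneg _), ← ENNReal.ofReal_mul (by positivity),
      ← Real.exp_nat_mul]
    congr 1
    have h4 : z ^ N = Real.exp (N * Real.log z) := by
      rw [Real.exp_nat_mul, Real.exp_log hz]
    rw [h4, ← Real.exp_add]
    congr 1
    unfold pot
    rw [if_pos (by norm_num)]
    ring
  rw [h3]
  unfold cI
  rw [show (volume : Measure (Fin N → E3)) = Measure.pi fun _ => volume from rfl]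
  ring

lemma canonicalZ_nonneg (φ : ℝ → ℝ) (β L : ℝ) (N : ℕ) : 0 ≤ canonicalZ φ β L N := by
  unfold canonicalZ
  refine mul_nonneg (by positivity) ?_
  exact integral_nonneg fun x => Real.exp_nonneg _

lemma grandZ_summable {a : ℕ → ℝ} (ha : Adm a) {L : ℝ} (hL : 0 ≤ L) {z : ℝ} (hz : 0 < z) :
    Summable fun N : ℕ => z ^ N * canonicalZ (pot a) 1 L N := by
  have h0 : ∀ N : ℕ, 0 ≤ z ^ N * canonicalZ (pot a) 1 L N := fun N =>
    mul_nonneg (by positivity) (canonicalZ_nonneg _ _ _ _)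
  have h1 : ∑' N : ℕ, ENNReal.ofReal (z ^ N * canonicalZ (pot a) 1 L N) ≠ ⊤ := by
    simp_rw [term_eq ha hL hz]
    exact Xi_ne_top ha (Real.log z - attr a 0 / 2) L
  have h2 := ENNReal.summable_toReal h1
  refine h2.congr fun N => ?_
  rw [ENNReal.toReal_ofReal (h0 N)]

lemma grandZ_eq {a : ℕ → ℝ} (ha : Adm a) {L : ℝ} (hL : 0 ≤ L) {z : ℝ} (hz : 0 < z) :
    grandZ (pot a) 1 z L = (Xi a (Real.log z - attr a 0 / 2) L).toReal := by
  have h0 : ∀ N : ℕ, 0 ≤ z ^ N * canonicalZ (pot a) 1 L N := fun N =>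
    mul_nonneg (by positivity) (canonicalZ_nonneg _ _ _ _)
  unfold Xi gG grandZ
  simp_rw [← term_eq ha hL hz]
  rw [← ENNReal.ofReal_tsum_of_nonneg h0 (grandZ_summable ha hL hz),
    ENNReal.toReal_ofReal (tsum_nonneg h0)]

theorem main : MainStatement := by
  obtain ⟨a, μ, ha, hnd⟩ := exists_corner
  refine ⟨pot a, isPairPotential_pot ha, isStable_pot ha, isTempered_pot ha, 1, one_pos, ?_, ?_⟩
  · intro L hL
    exact ⟨fun N => integrable_boltzmann ha hL.le N, fun z hz => grandZ_summable ha hL.le hz⟩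
  · refine ⟨fun z => press a (Real.log z - attr a 0 / 2), ?_, Real.exp (μ + attr a 0 / 2),
      Real.exp_pos _, ?_⟩
    · intro z hz
      refine (tendsto_press ha (Real.log z - attr a 0 / 2)).congr' ?_
      filter_upwards [eventually_ge_atTop 0] with L hL
      rw [grandZ_eq ha hL hz]
    · intro hd
      apply hnd
      have h1 : press a = (fun z => press a (Real.log z - attr a 0 / 2)) ∘
          fun ν => Real.exp (ν + attr a 0 / 2) := by
        funext ν
        simp
      rw [h1]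
      refine DifferentiableAt.comp μ hd ?_
      fun_prop

end Vale.Agent.P171
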