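import Vale.Agent.P171.Grid

open MeasureTheory Filter Topology
open scoped ENNReal

namespace Vale.Agent.P171

lemma sum_pair_eq {ι G : Type} [Fintype ι] [DecidableEq G] (f g : ι → G) (T : Finset G)
    (hf : ∀ i, f i ∈ T) :
    ∑ i, ∑ j, (if f i = g j then (1 : ℝ) else 0) =
      ∑ q ∈ T, (∑ i, (if f i = q then (1 : ℝ) else 0)) * (∑ j, (if g j = q then (1 : ℝ) else 0)) := by
  symm
  calc ∑ q ∈ T, (∑ i, (if f i = q then (1 : ℝ) else 0)) * (∑ j, (if g j = q then (1 : ℝ) else 0))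
      = ∑ q ∈ T, ∑ i, ∑ j, (if f i = q then (1 : ℝ) else 0) * (if g j = q then (1 : ℝ) else 0) := by
        simp_rw [Finset.sum_mul_sum]
    _ = ∑ i, ∑ q ∈ T, ∑ j, (if f i = q then (1 : ℝ) else 0) * (if g j = q then (1 : ℝ) else 0) :=
        Finset.sum_comm
    _ = ∑ i, ∑ j, ∑ q ∈ T, (if f i = q then (1 : ℝ) else 0) * (if g j = q then (1 : ℝ) else 0) :=
        Finset.sum_congr rfl fun i _ => Finset.sum_comm
    _ = ∑ i, ∑ j, (if f i = g j then (1 : ℝ) else 0) := by
        refine Finset.sum_congr rfl fun i _ => Finset.sum_congr rfl fun j _ => ?_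
        rw [Finset.sum_eq_single_of_mem (f i) (hf i)]
        · simp only [if_true, one_mul, eq_comm]
        · intro q _ hq
          rw [if_neg (Ne.symm hq), zero_mul]

lemma sum_pair_le {ι G : Type} [Fintype ι] [DecidableEq G] (f g : ι → G) :
    ∑ i, ∑ j, (if f i = g j then (1 : ℝ) else 0) ≤
      (∑ i, ∑ j, (if f i = f j then (1 : ℝ) else 0) +
        ∑ i, ∑ j, (if g i = g j then (1 : ℝ) else 0)) / 2 := by
  set T : Finset G := Finset.univ.image f ∪ Finset.univ.image g with hT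
  have hf : ∀ i, f i ∈ T := fun i => by simp [hT]
  have hg : ∀ i, g i ∈ T := fun i => by simp [hT]
  rw [sum_pair_eq f g T hf, sum_pair_eq f f T hf, sum_pair_eq g g T hg, ← Finset.sum_add_distrib,
    Finset.sum_div]
  refine Finset.sum_le_sum fun q _ => ?_
  nlinarith [sq_nonneg ((∑ i, (if f i = q then (1 : ℝ) else 0)) -
    (∑ j, (if g j = q then (1 : ℝ) else 0)))]

/-- A0: pair counting. -/
lemma pair_count {ι G : Type} [Fintype ι] [AddCommGroup G] [DecidableEq G] (κ : ι → G)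
    (V : Finset G) :
    ∑ i, ∑ j, (if κ i - κ j ∈ V then (1 : ℝ) else 0) ≤
      V.card * ∑ i, ∑ j, (if κ i = κ j then (1 : ℝ) else 0) := by
  have h1 : ∑ i, ∑ j, (if κ i - κ j ∈ V then (1 : ℝ) else 0) =
      ∑ v ∈ V, ∑ i, ∑ j, (if κ i = κ j + v then (1 : ℝ) else 0) := by
    symm
    calc ∑ v ∈ V, ∑ i, ∑ j, (if κ i = κ j + v then (1 : ℝ) else 0)
        = ∑ i, ∑ v ∈ V, ∑ j, (if κ i = κ j + v then (1 : ℝ) else 0) := Finset.sum_comm
      _ = ∑ i, ∑ j, ∑ v ∈ V, (if κ i = κ j + v then (1 : ℝ) else 0) :=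
          Finset.sum_congr rfl fun i _ => Finset.sum_comm
      _ = _ := by
          refine Finset.sum_congr rfl fun i _ => Finset.sum_congr rfl fun j _ => ?_
          have h2 : ∀ v, (κ i = κ j + v) ↔ (κ i - κ j = v) := fun v => by
            rw [sub_eq_iff_eq_add']
          simp_rw [h2]
          rw [Finset.sum_ite_eq]
  rw [h1, ← nsmul_eq_mul]
  refine Finset.sum_le_card_nsmul _ _ _ fun v _ => ?_
  have h3 := sum_pair_le κ (fun j => κ j + v)
  have h4 : ∑ i, ∑ j, (if κ i + v = κ j + v then (1 : ℝ) else 0) =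
      ∑ i, ∑ j, (if κ i = κ j then (1 : ℝ) else 0) := by
    simp_rw [add_left_inj]
  rw [h4] at h3
  linarith

lemma card_cube_Icc (m : ℕ) :
    ((Fintype.piFinset fun _ : Fin 3 => Finset.Icc (-(m : ℤ)) (m : ℤ)).card : ℝ) =
      (2 * (m : ℝ) + 1) ^ 3 := by
  rw [Fintype.card_piFinset]
  simp only [Int.card_Icc, Finset.prod_const, Finset.card_univ, Fintype.card_fin]
  have : ((m : ℤ) + 1 - -(m : ℤ)).toNat = 2 * m + 1 := by omega
  rw [this]
  push_cast
  ring

lemma sum_sameCell_eq {ι : Type} [Fintype ι] (x : ι → E3) :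
    ∑ i, ∑ j, sameCell (x i) (x j) =
      ∑ i, ∑ j, (if cellZ (x i) = cellZ (x j) then (1 : ℝ) else 0) := rfl

/-- A1: pairs at distance `< R`. -/
lemma near_count {ι : Type} [Fintype ι] (x : ι → E3) (R : ℕ) (hR : 1 ≤ R) :
    ∑ i, ∑ j, (if dist (x i) (x j) < R then (1 : ℝ) else 0) ≤
      27 * (R : ℝ) ^ 3 * ∑ i, ∑ j, sameCell (x i) (x j) := by
  have h1 := pair_count (fun i => cellZ (x i))
    (Fintype.piFinset fun _ : Fin 3 => Finset.Icc (-(R : ℤ)) (R : ℤ))
  rw [card_cube_Icc] at h1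
  have h2 : ∑ i, ∑ j, (if dist (x i) (x j) < R then (1 : ℝ) else 0) ≤
      ∑ i, ∑ j, (if cellZ (x i) - cellZ (x j) ∈
        (Fintype.piFinset fun _ : Fin 3 => Finset.Icc (-(R : ℤ)) (R : ℤ)) then (1 : ℝ) else 0) := by
    refine Finset.sum_le_sum fun i _ => Finset.sum_le_sum fun j _ => ?_
    by_cases h : dist (x i) (x j) < R
    · rw [if_pos h, if_pos]
      rw [Fintype.mem_piFinset]
      intro k
      rw [Finset.mem_Icc, Pi.sub_apply, ← abs_le]
      exact cell_diff_le h k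
    · rw [if_neg h]
      split_ifs <;> norm_num
  refine (h2.trans h1).trans ?_
  rw [sum_sameCell_eq]
  refine mul_le_mul_of_nonneg_right ?_ (Finset.sum_nonneg fun i _ => Finset.sum_nonneg fun j _ => by
    split_ifs <;> norm_num)
  have hR' : (1 : ℝ) ≤ R := by exact_mod_cast hR
  calc (2 * (R : ℝ) + 1) ^ 3 ≤ (3 * (R : ℝ)) ^ 3 := by gcongr; linarith
    _ = _ := by ring

lemma bigCell_diff_le {l : ℕ} (hl : 0 < l) (τ : Fin 3 → Fin l) {x y : E3} {R : ℕ}
    (h : dist x y < R) (k : Fin 3) :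
    |bigCell l τ x k - bigCell l τ y k| ≤ ((R / l + 1 : ℕ) : ℤ) := by
  have hl' : (0 : ℤ) < l := by exact_mod_cast hl
  have h1 := cell_diff_le h k
  unfold bigCell
  set t : ℤ := (((τ k : Fin l) : ℕ) : ℤ)
  set p := cellZ x k
  set q := cellZ y k
  rw [abs_le] at h1
  have key : ∀ p q : ℤ, p - q ≤ (R : ℤ) → (p + t) / (l : ℤ) - (q + t) / (l : ℤ) ≤ ((R / l + 1 : ℕ) : ℤ) := by
    intro p q hpq
    push_cast
    have e1 := Int.lt_ediv_add_one_mul_self (q + t) hl'
    have e2 := Int.lt_ediv_add_one_mul_self (R : ℤ) hl'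
    have e3 : p + t < ((q + t) / (l : ℤ) + (R : ℤ) / (l : ℤ) + 2) * (l : ℤ) := by linarith
    have e4 := Int.ediv_lt_of_lt_mul hl' e3
    omega
  rw [abs_le]
  constructor
  · have := key q p (by omega)
    omega
  · exact key p q (by omega)

/-- A2: pairs at distance `< R` versus pairs in the same big cube. -/
lemma near_count_big {ι : Type} [Fintype ι] (x : ι → E3) (R l : ℕ) (hl : 0 < l) (hR : l ≤ R)
    (τ : Fin 3 → Fin l) :
    ∑ i, ∑ j, (if dist (x i) (x j) < R then (1 : ℝ) else 0) ≤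
      125 * (R : ℝ) ^ 3 / (l : ℝ) ^ 3 *
        ∑ i, ∑ j, (if bigCell l τ (x i) = bigCell l τ (x j) then (1 : ℝ) else 0) := by
  have h1 := pair_count (fun i => bigCell l τ (x i))
    (Fintype.piFinset fun _ : Fin 3 => Finset.Icc (-((R / l + 1 : ℕ) : ℤ)) ((R / l + 1 : ℕ) : ℤ))
  rw [card_cube_Icc] at h1
  have h2 : ∑ i, ∑ j, (if dist (x i) (x j) < R then (1 : ℝ) else 0) ≤
      ∑ i, ∑ j, (if bigCell l τ (x i) - bigCell l τ (x j) ∈
        (Fintype.piFinset fun _ : Fin 3 => Finset.Icc (-((R / l + 1 : ℕ) : ℤ))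
          ((R / l + 1 : ℕ) : ℤ)) then (1 : ℝ) else 0) := by
    refine Finset.sum_le_sum fun i _ => Finset.sum_le_sum fun j _ => ?_
    by_cases h : dist (x i) (x j) < R
    · rw [if_pos h, if_pos]
      rw [Fintype.mem_piFinset]
      intro k
      rw [Finset.mem_Icc, Pi.sub_apply, ← abs_le]
      exact bigCell_diff_le hl τ h k
    · rw [if_neg h]
      split_ifs <;> norm_num
  refine (h2.trans h1).trans ?_
  refine mul_le_mul_of_nonneg_right ?_ (Finset.sum_nonneg fun i _ => Finset.sum_nonneg fun j _ => by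
    split_ifs <;> norm_num)
  have hl' : (0 : ℝ) < l := by exact_mod_cast hl
  have hR' : (l : ℝ) ≤ R := by exact_mod_cast hR
  have h3 : ((R / l : ℕ) : ℝ) ≤ (R : ℝ) / l := Nat.cast_div_le
  have h4 : 1 ≤ (R : ℝ) / l := by rw [le_div_iff₀ hl']; linarith
  push_cast
  calc (2 * (((R / l : ℕ) : ℝ) + 1) + 1) ^ 3 ≤ (5 * ((R : ℝ) / l)) ^ 3 := by
        gcongr
        linarith
    _ = _ := by field_simp; ring

lemma dist_lt_two_of_sameCell {x y : E3} (h : cellZ x = cellZ y) : dist x y < 2 := by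
  rw [EuclideanSpace.dist_eq, Real.sqrt_lt' (by norm_num)]
  have h1 : ∀ k, dist (x k) (y k) ^ 2 ≤ 1 := by
    intro k
    have h2 : ⌊x k⌋ = ⌊y k⌋ := congrFun h k
    have h3 : |x k - y k| < 1 := Int.abs_sub_lt_one_of_floor_eq_floor h2
    rw [Real.dist_eq, sq_le_one_iff_abs_le_one, abs_abs]
    exact h3.le
  rw [Fin.sum_univ_three]
  have a0 := h1 0
  have a1 := h1 1
  have a2 := h1 2
  norm_num
  linarith

lemma rad_pos' (n : ℕ) : 0 < rad n := by unfold rad; positivity

lemma rad_cast (n : ℕ) : rad n = ((6 * (n + 1) : ℕ) : ℝ) := by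
  unfold rad; push_cast; ring

lemma attr_term_nonneg' {a : ℕ → ℝ} (ha : Adm a) (d : ℝ) (n : ℕ) :
    0 ≤ a n * ((rad n) ^ 3)⁻¹ * (if d < rad n then 1 else 0) := by
  have := ha.nonneg n
  have := rad_pos' n
  split_ifs <;> positivity

lemma attr_summable' {a : ℕ → ℝ} (ha : Adm a) (d : ℝ) :
    Summable fun n => a n * ((rad n) ^ 3)⁻¹ * (if d < rad n then 1 else 0) := by
  refine Summable.of_nonneg_of_le (attr_term_nonneg' ha d) (fun n => ?_) ha.summable
  have h1 := ha.nonneg n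
  have h5 : 1 ≤ rad n := by
    unfold rad
    have : (0 : ℝ) ≤ n := n.cast_nonneg
    linarith
  have h2 : ((rad n) ^ 3)⁻¹ ≤ 1 := inv_le_one_of_one_le₀ (one_le_pow₀ h5)
  have h3 : 0 ≤ ((rad n) ^ 3)⁻¹ := by have := rad_pos' n; positivity
  split_ifs
  · nlinarith
  · simpa using h1

lemma near_rad_count {ι : Type} [Fintype ι] (x : ι → E3) (n : ℕ) :
    ∑ i, ∑ j, (if dist (x i) (x j) < rad n then (1 : ℝ) else 0) ≤
      27 * (rad n) ^ 3 * ∑ i, ∑ j, sameCell (x i) (x j) := by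
  have := near_count x (6 * (n + 1)) (by omega)
  rw [← rad_cast] at this
  exact this

lemma sameCell_sum_nonneg {ι : Type} [Fintype ι] (x : ι → E3) :
    0 ≤ ∑ i, ∑ j, sameCell (x i) (x j) :=
  Finset.sum_nonneg fun i _ => Finset.sum_nonneg fun j _ => by
    unfold sameCell; split_ifs <;> norm_num

/-- weighted sums of the attractive part -/
lemma attr_weighted {a : ℕ → ℝ} (ha : Adm a) {ι : Type} [Fintype ι] (x : ι → E3)
    (s : ι → ι → ℝ) (c : ℕ → ℝ) (hc : ∀ n, 0 ≤ c n)
    (hc1 : ∀ n, c n ≤ 1)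
    (hs : ∀ n i j, dist (x i) (x j) < rad n → s i j ≤ c n) :
    ∑ i, ∑ j, s i j * attr a (dist (x i) (x j)) ≤
      27 * (∑' n, a n * c n) * ∑ i, ∑ j, sameCell (x i) (x j) := by
  set X := ∑ i, ∑ j, sameCell (x i) (x j) with hX
  have hX0 : 0 ≤ X := sameCell_sum_nonneg x
  have hac : Summable fun n => a n * c n :=
    Summable.of_nonneg_of_le (fun n => mul_nonneg (ha.nonneg n) (hc n))
      (fun n => by nlinarith [ha.nonneg n, hc1 n, hc n]) ha.summable
  have h1 : ∑ i, ∑ j, s i j * attr a (dist (x i) (x j)) =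
      ∑' n, ∑ i, ∑ j, s i j * (a n * ((rad n) ^ 3)⁻¹ *
        (if dist (x i) (x j) < rad n then 1 else 0)) := by
    have hsum : ∀ i j, Summable fun n => s i j * (a n * ((rad n) ^ 3)⁻¹ *
        (if dist (x i) (x j) < rad n then 1 else 0)) := fun i j =>
      (attr_summable' ha (dist (x i) (x j))).mul_left _
    rw [Summable.tsum_finsetSum (fun i _ => summable_sum fun j _ => hsum i j)]
    refine Finset.sum_congr rfl fun i _ => ?_
    rw [Summable.tsum_finsetSum (fun j _ => hsum i j)]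
    refine Finset.sum_congr rfl fun j _ => ?_
    unfold attr
    rw [tsum_mul_left]
  have hsum' : Summable fun n => ∑ i, ∑ j, s i j * (a n * ((rad n) ^ 3)⁻¹ *
        (if dist (x i) (x j) < rad n then 1 else 0)) :=
    summable_sum fun i _ => summable_sum fun j _ =>
      (attr_summable' ha (dist (x i) (x j))).mul_left _
  rw [h1]
  have h2 : 27 * (∑' n, a n * c n) * X = ∑' n, 27 * (a n * c n) * X := by
    rw [tsum_mul_right, tsum_mul_left]
  rw [h2]
  refine hsum'.tsum_le_tsum (fun n => ?_) ((hac.mul_left 27).mul_right X)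
  have hr := rad_pos' n
  have han := ha.nonneg n
  calc ∑ i, ∑ j, s i j * (a n * ((rad n) ^ 3)⁻¹ * (if dist (x i) (x j) < rad n then 1 else 0))
      ≤ ∑ i, ∑ j, (a n * c n * ((rad n) ^ 3)⁻¹) *
          (if dist (x i) (x j) < rad n then (1 : ℝ) else 0) := by
        refine Finset.sum_le_sum fun i _ => Finset.sum_le_sum fun j _ => ?_
        by_cases h : dist (x i) (x j) < rad n
        · rw [if_pos h]
          have h3 := hs n i j h
          have h4 : 0 ≤ a n * ((rad n) ^ 3)⁻¹ := by positivity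
          nlinarith [mul_le_mul_of_nonneg_right h3 h4]
        · rw [if_neg h]; simp
    _ = (a n * c n * ((rad n) ^ 3)⁻¹) *
          ∑ i, ∑ j, (if dist (x i) (x j) < rad n then (1 : ℝ) else 0) := by
        simp_rw [Finset.mul_sum]
    _ ≤ (a n * c n * ((rad n) ^ 3)⁻¹) * (27 * (rad n) ^ 3 * X) := by
        refine mul_le_mul_of_nonneg_left (near_rad_count x n) ?_
        have := hc n
        positivity
    _ = 27 * (a n * c n) * X := by field_simp

/-- A3: superstability. -/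
lemma superstable {a : ℕ → ℝ} (ha : Adm a) {ι : Type} [Fintype ι] (x : ι → E3) :
    ∑ i, ∑ j, kern a (x i) (x j) ≤ - ∑ i, ∑ j, sameCell (x i) (x j) := by
  set X := ∑ i, ∑ j, sameCell (x i) (x j) with hX
  have hX0 : 0 ≤ X := sameCell_sum_nonneg x
  have h1 := attr_weighted ha x (fun _ _ => 1) (fun _ => 1) (fun _ => zero_le_one)
    (fun _ => le_refl _) (fun _ _ _ _ => le_refl _)
  simp only [one_mul, mul_one] at h1
  have h2 : 27 * (∑' n, a n) * X ≤ 27 * aStar * X := by
    have := ha.le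
    gcongr
  have h3 : X ≤ ∑ i, ∑ j, (if dist (x i) (x j) < 2 then (1 : ℝ) else 0) := by
    rw [hX]
    refine Finset.sum_le_sum fun i _ => Finset.sum_le_sum fun j _ => ?_
    unfold sameCell
    by_cases h : cellZ (x i) = cellZ (x j)
    · rw [if_pos h, if_pos (dist_lt_two_of_sameCell h)]
    · rw [if_neg h]
      split_ifs <;> norm_num
  have h4 : ∑ i, ∑ j, kern a (x i) (x j) =
      -(ampA / 2) * ∑ i, ∑ j, (if dist (x i) (x j) < 2 then (1 : ℝ) else 0) +
        1 / 2 * ∑ i, ∑ j, attr a (dist (x i) (x j)) := by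
    simp_rw [Finset.mul_sum, ← Finset.sum_add_distrib]
    refine Finset.sum_congr rfl fun i _ => Finset.sum_congr rfl fun j _ => ?_
    unfold kern pot
    ring
  rw [h4]
  have hA : 0 < ampA := by unfold ampA aStar; norm_num
  have h5 : ampA / 2 * X ≤
      ampA / 2 * ∑ i, ∑ j, (if dist (x i) (x j) < 2 then (1 : ℝ) else 0) :=
    mul_le_mul_of_nonneg_left h3 (by positivity)
  have h6 : ampA / 2 * X = 27 / 2 * aStar * X + X := by unfold ampA; ring
  linarith

/-- A4: Cauchy-Schwarz in a cube of side `l` made of `l^3` unit cells. -/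
lemma card_sq_le {ι : Type} [Fintype ι] (x : ι → E3) (l : ℕ) (hl : 0 < l)
    (hx : ∀ i k, 0 ≤ x i k ∧ x i k < l) :
    (Fintype.card ι : ℝ) ^ 2 / (l : ℝ) ^ 3 ≤ ∑ i, ∑ j, sameCell (x i) (x j) := by
  have hl' : (0 : ℝ) < l := by exact_mod_cast hl
  set T : Finset (Fin 3 → ℤ) := Fintype.piFinset fun _ => Finset.Ico (0 : ℤ) l with hT
  have hmem : ∀ i, cellZ (x i) ∈ T := by
    intro i
    rw [hT, Fintype.mem_piFinset]
    intro k
    rw [Finset.mem_Ico]
    unfold cellZ
    exact ⟨Int.floor_nonneg.2 (hx i k).1, Int.floor_lt.2 (by exact_mod_cast (hx i k).2)⟩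
  have hcard : (T.card : ℝ) = (l : ℝ) ^ 3 := by
    rw [hT, Fintype.card_piFinset]
    simp
  rw [div_le_iff₀ (by positivity), sum_sameCell_eq, sum_pair_eq _ _ T hmem]
  have h1 : (Fintype.card ι : ℝ) = ∑ q ∈ T, ∑ i, (if cellZ (x i) = q then (1 : ℝ) else 0) := by
    rw [Finset.sum_comm]
    have : ∀ i, ∑ q ∈ T, (if cellZ (x i) = q then (1 : ℝ) else 0) = 1 := by
      intro i
      rw [Finset.sum_ite_eq, if_pos (hmem i)]
    simp [this]
  rw [h1]
  have h2 := sq_sum_le_card_mul_sum_sq (s := T)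
    (f := fun q => ∑ i, (if cellZ (x i) = q then (1 : ℝ) else 0))
  rw [hcard] at h2
  refine h2.trans (le_of_eq ?_)
  rw [mul_comm]
  congr 1
  exact Finset.sum_congr rfl fun q _ => by rw [sq]

/-- A6 -/
lemma eta_nonneg {a : ℕ → ℝ} (ha : Adm a) (l : ℕ) : 0 ≤ eta a l := by
  unfold eta
  refine mul_nonneg (by norm_num) (tsum_nonneg fun n => mul_nonneg (ha.nonneg n) ?_)
  have := rad_pos' n
  exact le_min zero_le_one (by positivity)

/-- A5: averaging over the `l^3` shifts of the grid. -/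
lemma grid_average {a : ℕ → ℝ} (ha : Adm a) {ι : Type} [Fintype ι] (x : ι → E3) (l : ℕ)
    (hl : 0 < l) :
    ∃ τ : Fin 3 → Fin l, ∑ i, ∑ j, kern a (x i) (x j) ≤
      ∑ i, ∑ j, (if bigCell l τ (x i) = bigCell l τ (x j) then kern a (x i) (x j) else 0) +
        eta a l * ∑ i, ∑ j, sameCell (x i) (x j) := by
  have hl' : (0 : ℝ) < l := by exact_mod_cast hl
  set X := ∑ i, ∑ j, sameCell (x i) (x j) with hX
  have hX0 : 0 ≤ X := sameCell_sum_nonneg x
  have : Nonempty (Fin 3 → Fin l) := ⟨fun _ => ⟨0, hl⟩⟩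
  -- the cut part
  set D : (Fin 3 → Fin l) → ℝ := fun τ => ∑ i, ∑ j,
    (if ¬ bigCell l τ (x i) = bigCell l τ (x j) then (1 : ℝ) else 0) *
      (1 / 2 * attr a (dist (x i) (x j))) with hD
  have hDsum : ∑ τ, D τ ≤ ∑ _τ : Fin 3 → Fin l, eta a l * X := by
    have h1 : ∑ τ, D τ = (l : ℝ) ^ 3 / 2 * ∑ i, ∑ j,
        ((((Finset.univ : Finset (Fin 3 → Fin l)).filter fun τ =>
          ¬ bigCell l τ (x i) = bigCell l τ (x j)).card : ℝ) / (l : ℝ) ^ 3) *
          attr a (dist (x i) (x j)) := by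
      rw [hD]
      simp only
      rw [Finset.sum_comm, Finset.mul_sum]
      refine Finset.sum_congr rfl fun i _ => ?_
      rw [Finset.sum_comm, Finset.mul_sum]
      refine Finset.sum_congr rfl fun j _ => ?_
      rw [← Finset.sum_mul, Finset.card_filter]
      push_cast
      field_simp
    have h2 := attr_weighted ha x
      (fun i j => (((Finset.univ : Finset (Fin 3 → Fin l)).filter fun τ =>
          ¬ bigCell l τ (x i) = bigCell l τ (x j)).card : ℝ) / (l : ℝ) ^ 3)
      (fun n => min 1 (3 * rad n / (l : ℝ)))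
      (fun n => le_min zero_le_one (by have := rad_pos' n; positivity))
      (fun n => min_le_left _ _)
      (fun n i j hij => by
        rw [div_le_iff₀ (by positivity), mul_comm]
        rw [rad_cast] at hij ⊢
        exact sep_card_le' hl hij)
    rw [h1]
    have h3 : ∑ _τ : Fin 3 → Fin l, eta a l * X = (l : ℝ) ^ 3 * (eta a l * X) := by
      rw [Finset.sum_const, Finset.card_univ, Fintype.card_fun]
      simp
    rw [h3]
    calc (l : ℝ) ^ 3 / 2 * ∑ i, ∑ j,
        ((((Finset.univ : Finset (Fin 3 → Fin l)).filter fun τ =>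
          ¬ bigCell l τ (x i) = bigCell l τ (x j)).card : ℝ) / (l : ℝ) ^ 3) *
          attr a (dist (x i) (x j))
        ≤ (l : ℝ) ^ 3 / 2 * (27 * (∑' n, a n * min 1 (3 * rad n / (l : ℝ))) * X) :=
          mul_le_mul_of_nonneg_left h2 (by positivity)
      _ = _ := by unfold eta; ring
  obtain ⟨τ, _, hτ⟩ := Finset.exists_le_of_sum_le Finset.univ_nonempty hDsum
  refine ⟨τ, ?_⟩
  have h4 : ∑ i, ∑ j, kern a (x i) (x j) ≤
      ∑ i, ∑ j, (if bigCell l τ (x i) = bigCell l τ (x j) then kern a (x i) (x j) else 0) + D τ := by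
    rw [hD]
    simp only
    simp_rw [← Finset.sum_add_distrib]
    refine Finset.sum_le_sum fun i _ => Finset.sum_le_sum fun j _ => ?_
    by_cases h : bigCell l τ (x i) = bigCell l τ (x j)
    · simp [h]
    · simp only [h, if_false, not_false_iff, if_true, one_mul, zero_add]
      unfold kern pot
      have hA : 0 < ampA := by unfold ampA aStar; norm_num
      have : 0 ≤ ampA * (if dist (x i) (x j) < 2 then 1 else 0) := by
        split_ifs <;> simp [hA.le]
      linarith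
  exact h4.trans (by linarith)

/-- A7 -/
lemma eta_tendsto {a : ℕ → ℝ} (ha : Adm a) : Tendsto (eta a) atTop (𝓝 0) := by
  have h1 : Tendsto (fun l : ℕ => ∑' n : ℕ, a n * min 1 (3 * rad n / (l : ℝ))) atTop
      (𝓝 (∑' _n : ℕ, (0 : ℝ))) := by
    refine tendsto_tsum_of_dominated_convergence (bound := a) ha.summable (fun n => ?_) ?_
    · have h2 : Tendsto (fun l : ℕ => 3 * rad n / (l : ℝ)) atTop (𝓝 0) :=
        tendsto_const_nhds.div_atTop tendsto_natCast_atTop_atTop
      have h3 : Tendsto (fun l : ℕ => min 1 (3 * rad n / (l : ℝ))) atTop (𝓝 (min 1 0)) :=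
        tendsto_const_nhds.min h2
      have h4 := h3.const_mul (a n)
      simpa using h4
    · refine Eventually.of_forall fun l n => ?_
      have hr := rad_pos' n
      have h5 : 0 ≤ min 1 (3 * rad n / (l : ℝ)) := le_min zero_le_one (by positivity)
      rw [Real.norm_of_nonneg (mul_nonneg (ha.nonneg n) h5)]
      have h6 : min 1 (3 * rad n / (l : ℝ)) ≤ 1 := min_le_left _ _
      nlinarith [ha.nonneg n]
  have h7 := h1.const_mul (27 / 2)
  simp only [tsum_zero, mul_zero] at h7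
  exact h7

end Vale.Agent.P171
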