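import Mathlib

open MeasureTheory Filter Topology

namespace Vale.Agent.P171

/-- B2: Ekeland's variational principle on a closed subset of a complete metric space. -/
lemma ekeland {X : Type} [MetricSpace X] [CompleteSpace X] (S : Set X) (hS : IsClosed S)
    (F : X → ℝ) (hF : ∀ x ∈ S, ∀ c : ℝ, c < F x → ∀ᶠ y in 𝓝[S] x, c < F y)
    (b : ℝ) (hb : ∀ x ∈ S, b ≤ F x) (ε : ℝ) (hε : 0 < ε) (x₀ : X) (hx₀ : x₀ ∈ S) :
    ∃ x ∈ S, F x ≤ F x₀ ∧ ∀ y ∈ S, F x - ε * dist x y ≤ F y := by
  -- one step
  have step : ∀ (x : S) (n : ℕ), ∃ y : S, F y + ε * dist (x : X) y ≤ F x ∧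
      ∀ z : S, F z + ε * dist (x : X) z ≤ F x → F y ≤ F z + 1 / ((n : ℝ) + 1) := by
    intro x n
    set T : Set ℝ := {r | ∃ z : S, F z + ε * dist (x : X) z ≤ F x ∧ F z = r} with hT
    have hTne : T.Nonempty := ⟨F x, x, by simp, rfl⟩
    have hTbdd : BddBelow T := by
      refine ⟨b, ?_⟩
      rintro r ⟨z, _, rfl⟩
      exact hb z z.2
    have hpos : (0 : ℝ) < 1 / ((n : ℝ) + 1) := by positivity
    obtain ⟨r, ⟨y, hy, hyr⟩, hr⟩ := exists_lt_of_csInf_lt hTne
      (show sInf T < sInf T + 1 / ((n : ℝ) + 1) by linarith)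
    refine ⟨y, hy, fun z hz => ?_⟩
    have h1 : sInf T ≤ F z := csInf_le hTbdd ⟨z, hz, rfl⟩
    rw [← hyr] at hr
    linarith
  choose g hg1 hg2 using step
  let u : ℕ → S := fun n => Nat.rec (motive := fun _ => S) ⟨x₀, hx₀⟩ (fun n x => g x n) n
  have hu0 : ((u 0 : S) : X) = x₀ := by rfl
  have hus : ∀ n, u (n + 1) = g (u n) n := fun n => rfl
  have hstep : ∀ n, F (u (n + 1)) + ε * dist (u n : X) (u (n + 1)) ≤ F (u n) := by
    intro n
    rw [hus]
    exact hg1 (u n) n
  -- chain inequality
  have hchain : ∀ n k, F (u (n + k)) + ε * dist (u n : X) (u (n + k)) ≤ F (u n) := by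
    intro n k
    induction k with
    | zero => simp
    | succ k ih =>
      have h1 := hstep (n + k)
      have h2 := dist_triangle (u n : X) (u (n + k)) (u (n + k + 1))
      have h3 : ε * dist (u n : X) (u (n + k + 1)) ≤
          ε * dist (u n : X) (u (n + k)) + ε * dist (u (n + k) : X) (u (n + k + 1)) := by
        rw [← mul_add]
        exact mul_le_mul_of_nonneg_left h2 hε.le
      show F (u (n + k + 1)) + ε * dist (u n : X) (u (n + k + 1)) ≤ F (u n)
      linarith
  have hanti : Antitone fun n => F (u n) := by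
    refine antitone_nat_of_succ_le fun n => ?_
    have := hstep n
    have h2 : 0 ≤ ε * dist (u n : X) (u (n + 1)) := by positivity
    linarith
  have hbdd : BddBelow (Set.range fun n => F (u n)) := by
    refine ⟨b, ?_⟩
    rintro _ ⟨n, rfl⟩
    exact hb _ (u n).2
  have hlimF : Tendsto (fun n => F (u n)) atTop (𝓝 (⨅ n, F (u n))) :=
    tendsto_atTop_ciInf hanti hbdd
  set m := ⨅ n, F (u n) with hm
  have hmle : ∀ n, m ≤ F (u n) := fun n => ciInf_le hbdd n
  have hcauchy : CauchySeq fun n => (u n : X) := by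
    refine cauchySeq_of_le_tendsto_0 (fun n => 2 * ((F (u n) - m) / ε)) ?_ ?_
    · intro i j N hi hj
      have h1 := hchain N (i - N)
      have h2 := hchain N (j - N)
      rw [Nat.add_sub_cancel' hi] at h1
      rw [Nat.add_sub_cancel' hj] at h2
      have h3 : dist (u N : X) (u i) ≤ (F (u N) - m) / ε := by
        rw [le_div_iff₀ hε]
        have := hmle i
        linarith
      have h4 : dist (u N : X) (u j) ≤ (F (u N) - m) / ε := by
        rw [le_div_iff₀ hε]
        have := hmle j
        linarith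
      have h5 := dist_triangle_left (u i : X) (u j) (u N)
      linarith
    · have h1 : Tendsto (fun n => 2 * ((F (u n) - m) / ε)) atTop (𝓝 (2 * ((m - m) / ε))) :=
        ((hlimF.sub_const m).div_const ε).const_mul 2
      simpa using h1
  obtain ⟨x, hx⟩ := cauchySeq_tendsto_of_complete hcauchy
  have hxS : x ∈ S := hS.mem_of_tendsto hx (Eventually.of_forall fun n => (u n).2)
  have hxw : Tendsto (fun n => (u n : X)) atTop (𝓝[S] x) :=
    tendsto_nhdsWithin_iff.2 ⟨hx, Eventually.of_forall fun n => (u n).2⟩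
  -- the limit lies below all `u n`
  have hlim : ∀ n, F x + ε * dist (u n : X) x ≤ F (u n) := by
    intro n
    by_contra hcon
    push Not at hcon
    set δ := (F x + ε * dist (u n : X) x - F (u n)) / 2 with hδ
    have hδ0 : 0 < δ := by rw [hδ]; linarith
    have h1 := hxw.eventually (hF x hxS (F x - δ) (by linarith))
    have h2 : Tendsto (fun k => ε * dist (u n : X) (u k)) atTop (𝓝 (ε * dist (u n : X) x)) :=
      (tendsto_const_nhds.dist hx).const_mul ε
    have h3 := (tendsto_order.1 h2).1 (ε * dist (u n : X) x - δ) (by linarith)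
    obtain ⟨k, ⟨hk1, hk2⟩, hk3⟩ := ((h1.and h3).and (eventually_ge_atTop n)).exists
    have h4 := hchain n (k - n)
    rw [Nat.add_sub_cancel' hk3] at h4
    linarith
  refine ⟨x, hxS, ?_, ?_⟩
  · have h1 := hlim 0
    rw [hu0] at h1
    have h2 : 0 ≤ ε * dist x₀ x := by positivity
    linarith
  · intro y hy
    by_contra hcon
    push Not at hcon
    have hyT : ∀ n, F y + ε * dist (u n : X) y ≤ F (u n) := by
      intro n
      have h1 := hlim n
      have h2 := dist_triangle (u n : X) x y
      have h3 : ε * dist (u n : X) y ≤ ε * dist (u n : X) x + ε * dist x y := by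
        rw [← mul_add]
        exact mul_le_mul_of_nonneg_left h2 hε.le
      linarith
    have h1 : ∀ n, F (u (n + 1)) ≤ F y + 1 / ((n : ℝ) + 1) := by
      intro n
      rw [hus]
      exact hg2 (u n) n ⟨y, hy⟩ (hyT n)
    have h2 : m ≤ F y := by
      have h3 : Tendsto (fun n : ℕ => F y + 1 / ((n : ℝ) + 1)) atTop (𝓝 (F y + 0)) :=
        tendsto_const_nhds.add tendsto_one_div_add_atTop_nhds_zero_nat
      rw [add_zero] at h3
      exact ge_of_tendsto' h3 fun n => (hmle (n + 1)).trans (h1 n)
    have h4 : F x ≤ m := by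
      refine le_ciInf fun n => ?_
      have := hlim n
      have h5 : 0 ≤ ε * dist (u n : X) x := by positivity
      linarith
    have h6 : 0 ≤ ε * dist x y := by positivity
    linarith

end Vale.Agent.P171
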