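import Mathlib

open MeasureTheory Filter Topology
open scoped ENNReal

namespace Vale.Agent.P171

section

variable {E : Type} [MeasurableSpace E]

/-- The exponential of a double sum of a kernel over a finite family of points. -/
noncomputable def bw {ι : Type} [Fintype ι] (w : E → E → ℝ) (x : ι → E) : ℝ≥0∞ :=
  ENNReal.ofReal (Real.exp (∑ i, ∑ j, w (x i) (x j)))

/-- The integral of `bw w` over the points with labels in `ι` lying in `B`. -/
noncomputable def cI (m : Measure E) (ι : Type) [Fintype ι] (B : Set E) (w : E → E → ℝ) : ℝ≥0∞ :=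
  ∫⁻ x in {x : ι → E | ∀ i, x i ∈ B}, bw w x ∂(Measure.pi fun _ : ι => m)

/-- The grand canonical sum. -/
noncomputable def gG (m : Measure E) (B : Set E) (z : ℝ≥0∞) (w : E → E → ℝ) : ℝ≥0∞ :=
  ∑' N : ℕ, z ^ N * (N.factorial : ℝ≥0∞)⁻¹ * cI m (Fin N) B w

lemma measurable_bw {ι : Type} [Fintype ι] {w : E → E → ℝ}
    (hw : Measurable (Function.uncurry w)) : Measurable (bw w : (ι → E) → ℝ≥0∞) := by
  unfold bw
  refine ENNReal.measurable_ofReal.comp (Real.measurable_exp.comp ?_)
  refine Finset.measurable_sum _ fun i _ => Finset.measurable_sum _ fun j _ => ?_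
  have h2 : Measurable fun x : ι → E => (x i, x j) :=
    (measurable_pi_apply i).prodMk (measurable_pi_apply j)
  exact hw.comp h2

lemma measurableSet_allIn {ι : Type} [Fintype ι] {B : Set E} (hB : MeasurableSet B) :
    MeasurableSet {x : ι → E | ∀ i, x i ∈ B} := by
  have : {x : ι → E | ∀ i, x i ∈ B} = Set.pi Set.univ (fun _ => B) := by
    ext x; simp
  rw [this]
  exact MeasurableSet.univ_pi fun _ => hB

lemma cI_congr (m : Measure E) [SigmaFinite m] {ι κ : Type} [Fintype ι] [Fintype κ]
    (e : ι ≃ κ) {B : Set E} (hB : MeasurableSet B) {w : E → E → ℝ}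
    (hw : Measurable (Function.uncurry w)) : cI m ι B w = cI m κ B w := by
  have hmp := measurePreserving_piCongrLeft (α := fun _ : κ => E) (fun _ => m) e
  unfold cI
  rw [← lintegral_indicator (measurableSet_allIn hB), ← lintegral_indicator (measurableSet_allIn hB)]
  rw [← hmp.lintegral_comp ((measurable_bw hw).indicator (measurableSet_allIn hB))]
  refine lintegral_congr fun x => ?_
  have h1 : ∀ k, (MeasurableEquiv.piCongrLeft (fun _ : κ => E) e) x k = x (e.symm k) := by
    intro k
    rw [MeasurableEquiv.coe_piCongrLeft]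
    have := Equiv.piCongrLeft_apply_apply (P := fun _ : κ => E) e x (e.symm k)
    simpa using this
  have h2 : ((MeasurableEquiv.piCongrLeft (fun _ : κ => E) e) x ∈ {x : κ → E | ∀ i, x i ∈ B}) ↔
      x ∈ {x : ι → E | ∀ i, x i ∈ B} := by
    simp only [Set.mem_ofPred_eq, h1]
    exact ⟨fun h i => by simpa using h (e i), fun h k => h _⟩
  by_cases hx : x ∈ {x : ι → E | ∀ i, x i ∈ B}
  · rw [Set.indicator_of_mem hx, Set.indicator_of_mem (h2.2 hx)]
    unfold bw
    congr 2
    simp only [h1]
    rw [← e.sum_comp]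
    refine Finset.sum_congr rfl fun i _ => ?_
    rw [← e.sum_comp]
    simp
  · rw [Set.indicator_of_notMem hx, Set.indicator_of_notMem (fun h => hx (h2.1 h))]

/-- the part of the configuration space where exactly the labels satisfying `p` lie in `A`
and the others in `B` -/
def spl {ι : Type} (p : ι → Prop) (A B : Set E) : Set (ι → E) :=
  {x | (∀ i, p i → x i ∈ A) ∧ ∀ i, ¬ p i → x i ∈ B}

lemma measurableSet_spl {ι : Type} [Fintype ι] (p : ι → Prop) {A B : Set E}
    (hA : MeasurableSet A) (hB : MeasurableSet B) : MeasurableSet (spl p A B) := by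
  classical
  have : spl p A B = Set.pi Set.univ (fun i => if p i then A else B) := by
    ext x
    simp only [spl, Set.mem_ofPred_eq, Set.mem_pi, Set.mem_univ, true_implies]
    constructor
    · rintro ⟨h1, h2⟩ i
      by_cases hi : p i
      · simpa [hi] using h1 i hi
      · simpa [hi] using h2 i hi
    · intro h
      refine ⟨fun i hi => by simpa [hi] using h i, fun i hi => by simpa [hi] using h i⟩
  rw [this]
  refine MeasurableSet.univ_pi fun i => ?_
  split_ifs
  · exact hA
  · exact hB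

lemma lintegral_spl (m : Measure E) [SigmaFinite m] {ι : Type} [Fintype ι]
    (p : ι → Prop) [DecidablePred p] {A B : Set E} (hA : MeasurableSet A) (hB : MeasurableSet B)
    {w : E → E → ℝ} (hw : Measurable (Function.uncurry w))
    (h0 : ∀ x ∈ A, ∀ y ∈ B, w x y = 0) (h0' : ∀ x ∈ A, ∀ y ∈ B, w y x = 0) :
    ∫⁻ x in spl p A B, bw w x ∂(Measure.pi fun _ : ι => m) =
      cI m {i // p i} A w * cI m {i // ¬ p i} B w := by
  have hmp := measurePreserving_piEquivPiSubtypeProd (α := fun _ : ι => E) (fun _ => m) p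
  unfold cI
  rw [← lintegral_indicator (measurableSet_allIn hA), ← lintegral_indicator (measurableSet_allIn hB),
    ← lintegral_indicator (measurableSet_spl p hA hB)]
  rw [← lintegral_prod_mul ((measurable_bw hw).indicator (measurableSet_allIn hA)).aemeasurable
    ((measurable_bw hw).indicator (measurableSet_allIn hB)).aemeasurable]
  rw [← hmp.lintegral_comp]
  swap
  · exact (((measurable_bw hw).indicator (measurableSet_allIn hA)).comp measurable_fst).mul
      (((measurable_bw hw).indicator (measurableSet_allIn hB)).comp measurable_snd)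
  refine lintegral_congr fun x => ?_
  have e1 : ((MeasurableEquiv.piEquivPiSubtypeProd (fun _ : ι => E) p) x).1 =
    fun i : {i // p i} => x i := rfl
  have e2 : ((MeasurableEquiv.piEquivPiSubtypeProd (fun _ : ι => E) p) x).2 =
    fun i : {i // ¬ p i} => x i := rfl
  rw [e1, e2]
  by_cases hx : x ∈ spl p A B
  · rw [Set.indicator_of_mem hx, Set.indicator_of_mem, Set.indicator_of_mem]
    · unfold bw
      rw [← ENNReal.ofReal_mul (Real.exp_nonneg _), ← Real.exp_add]
      congr 2
      have key : ∀ i, ∑ j, w (x i) (x j) =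
          (∑ j : {j // p j}, w (x i) (x j)) + ∑ j : {j // ¬ p j}, w (x i) (x j) := by
        intro i
        exact (Fintype.sum_subtype_add_sum_subtype p (fun j => w (x i) (x j))).symm
      rw [← Fintype.sum_subtype_add_sum_subtype p (fun i => ∑ j, w (x i) (x j))]
      congr 1
      · refine Finset.sum_congr rfl fun i _ => ?_
        rw [key]
        rw [Finset.sum_eq_zero (s := (Finset.univ : Finset {j // ¬ p j})), add_zero]
        intro j _
        exact h0 _ (hx.1 i i.2) _ (hx.2 j j.2)
      · refine Finset.sum_congr rfl fun i _ => ?_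
        rw [key]
        rw [Finset.sum_eq_zero (s := (Finset.univ : Finset {j // p j})), zero_add]
        intro j _
        exact h0' _ (hx.1 j j.2) _ (hx.2 i i.2)
    · exact fun i => hx.2 i i.2
    · exact fun i => hx.1 i i.2
  · rw [Set.indicator_of_notMem hx]
    by_cases h1 : ∀ i, p i → x i ∈ A
    · have h2 : ¬ ∀ i, ¬ p i → x i ∈ B := fun h2 => hx ⟨h1, h2⟩
      rw [Set.indicator_of_notMem (s := {x : {i // ¬ p i} → E | ∀ i, x i ∈ B}), mul_zero]
      intro h
      exact h2 fun i hi => h ⟨i, hi⟩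
    · rw [Set.indicator_of_notMem (s := {x : {i // p i} → E | ∀ i, x i ∈ A}), zero_mul]
      intro h
      exact h1 fun i hi => h ⟨i, hi⟩

lemma cI_sub_card (m : Measure E) [SigmaFinite m] {ι : Type} [Fintype ι]
    (p : ι → Prop) [DecidablePred p] {A : Set E} (hA : MeasurableSet A)
    {w : E → E → ℝ} (hw : Measurable (Function.uncurry w)) {n : ℕ}
    (hn : (Finset.univ.filter p).card = n) : cI m {i // p i} A w = cI m (Fin n) A w :=
  cI_congr m (Fintype.equivFinOfCardEq (by rw [Fintype.card_subtype]; exact hn)) hA hw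

lemma cI_union (m : Measure E) [SigmaFinite m] (N : ℕ) {A B : Set E}
    (hA : MeasurableSet A) (hB : MeasurableSet B) (hAB : Disjoint A B)
    {w : E → E → ℝ} (hw : Measurable (Function.uncurry w))
    (h0 : ∀ x ∈ A, ∀ y ∈ B, w x y = 0) (h0' : ∀ x ∈ A, ∀ y ∈ B, w y x = 0) :
    cI m (Fin N) (A ∪ B) w =
      ∑ S : Finset (Fin N), cI m (Fin S.card) A w * cI m (Fin (N - S.card)) B w := by
  have hU : {x : Fin N → E | ∀ i, x i ∈ A ∪ B} = ⋃ S ∈ (Finset.univ : Finset (Finset (Fin N))),
      spl (fun i => i ∈ S) A B := by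
    ext x
    simp only [Set.mem_ofPred_eq, Finset.mem_univ, Set.iUnion_true, Set.mem_iUnion]
    constructor
    · intro h
      classical
      refine ⟨Finset.univ.filter fun i => x i ∈ A, ?_, ?_⟩
      · intro i hi
        simpa using hi
      · intro i hi
        have : x i ∉ A := by simpa using hi
        exact (h i).resolve_left this
    · rintro ⟨S, h1, h2⟩ i
      by_cases hi : i ∈ S
      · exact Or.inl (h1 i hi)
      · exact Or.inr (h2 i hi)
  have hdisj : Set.PairwiseDisjoint (↑(Finset.univ : Finset (Finset (Fin N))) : Set (Finset (Fin N)))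
      (fun S : Finset (Fin N) => spl (fun i => i ∈ S) A B) := by
    intro S _ T _ hST
    rw [Function.onFun, Set.disjoint_left]
    rintro x ⟨hS1, hS2⟩ ⟨hT1, hT2⟩
    apply hST
    ext i
    constructor
    · intro hi
      by_contra hT
      exact Set.disjoint_left.1 hAB (hS1 i hi) (hT2 i hT)
    · intro hi
      by_contra hS
      exact Set.disjoint_left.1 hAB (hT1 i hi) (hS2 i hS)
  unfold cI
  rw [hU, lintegral_biUnion_finset hdisj (fun S _ => measurableSet_spl _ hA hB)]
  refine Finset.sum_congr rfl fun S _ => ?_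
  rw [lintegral_spl m (fun i => i ∈ S) hA hB hw h0 h0']
  congr 1
  · refine cI_sub_card m (fun i => i ∈ S) hA hw ?_
    simp
  · refine cI_sub_card m (fun i => ¬ i ∈ S) hB hw ?_
    rw [← Finset.compl_filter, Finset.card_compl]
    simp

lemma cI_empty_zero (m : Measure E) [SigmaFinite m] (B : Set E) (w : E → E → ℝ) :
    cI m (Fin 0) B w = 1 := by
  unfold cI bw
  simp

lemma gG_union (m : Measure E) [SigmaFinite m] {A B : Set E}
    (hA : MeasurableSet A) (hB : MeasurableSet B) (hAB : Disjoint A B) (z : ℝ≥0∞)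
    {w : E → E → ℝ} (hw : Measurable (Function.uncurry w))
    (h0 : ∀ x ∈ A, ∀ y ∈ B, w x y = 0) (h0' : ∀ x ∈ A, ∀ y ∈ B, w y x = 0) :
    gG m (A ∪ B) z w = gG m A z w * gG m B z w := by
  unfold gG
  have hN : ∀ N : ℕ, z ^ N * (N.factorial : ℝ≥0∞)⁻¹ * cI m (Fin N) (A ∪ B) w =
      ∑ kl ∈ Finset.HasAntidiagonal.antidiagonal N, (z ^ kl.1 * (kl.1.factorial : ℝ≥0∞)⁻¹ * cI m (Fin kl.1) A w) *
        (z ^ kl.2 * (kl.2.factorial : ℝ≥0∞)⁻¹ * cI m (Fin kl.2) B w) := by
    intro N
    rw [cI_union m N hA hB hAB hw h0 h0']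
    have h1 : ∑ S : Finset (Fin N), cI m (Fin S.card) A w * cI m (Fin (N - S.card)) B w =
        ∑ k ∈ Finset.range (N + 1), (N.choose k : ℝ≥0∞) *
          (cI m (Fin k) A w * cI m (Fin (N - k)) B w) := by
      have := Finset.sum_powerset_apply_card (x := (Finset.univ : Finset (Fin N)))
        (fun k => cI m (Fin k) A w * cI m (Fin (N - k)) B w)
      rw [Finset.powerset_univ] at this
      rw [this]
      simp
    rw [h1, Finset.Nat.sum_antidiagonal_eq_sum_range_succ_mk, Finset.mul_sum]
    refine Finset.sum_congr rfl fun k hk => ?_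
    have hk' : k ≤ N := by simpa [Nat.lt_succ_iff] using hk
    have h2 : (N.factorial : ℝ≥0∞)⁻¹ * (N.choose k : ℝ≥0∞) =
        (k.factorial : ℝ≥0∞)⁻¹ * ((N - k).factorial : ℝ≥0∞)⁻¹ := by
      have h3 := Nat.choose_mul_factorial_mul_factorial hk'
      have hk0 : (k.factorial : ℝ≥0∞) ≠ 0 := by exact_mod_cast k.factorial_ne_zero
      have hk1 : (k.factorial : ℝ≥0∞) ≠ ⊤ := ENNReal.natCast_ne_top _
      have hn0 : ((N - k).factorial : ℝ≥0∞) ≠ 0 := by exact_mod_cast (N - k).factorial_ne_zero
      have hn1 : ((N - k).factorial : ℝ≥0∞) ≠ ⊤ := ENNReal.natCast_ne_top _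
      have hc0 : (N.choose k : ℝ≥0∞) ≠ 0 := by exact_mod_cast (Nat.choose_pos hk').ne'
      have hc1 : (N.choose k : ℝ≥0∞) ≠ ⊤ := ENNReal.natCast_ne_top _
      rw [← h3]
      push_cast
      rw [ENNReal.mul_inv (Or.inr hn1) (Or.inr hn0), ENNReal.mul_inv (Or.inr hk1) (Or.inr hk0)]
      calc (N.choose k : ℝ≥0∞)⁻¹ * (k.factorial : ℝ≥0∞)⁻¹ * ((N - k).factorial : ℝ≥0∞)⁻¹ *
            (N.choose k : ℝ≥0∞)
          = ((N.choose k : ℝ≥0∞)⁻¹ * (N.choose k : ℝ≥0∞)) *
            ((k.factorial : ℝ≥0∞)⁻¹ * ((N - k).factorial : ℝ≥0∞)⁻¹) := by ring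
        _ = _ := by rw [ENNReal.inv_mul_cancel hc0 hc1, one_mul]
    have h4 : z ^ N = z ^ k * z ^ (N - k) := by
      rw [← pow_add, Nat.add_sub_cancel' hk']
    calc z ^ N * (N.factorial : ℝ≥0∞)⁻¹ * ((N.choose k : ℝ≥0∞) *
          (cI m (Fin k) A w * cI m (Fin (N - k)) B w))
        = z ^ N * ((N.factorial : ℝ≥0∞)⁻¹ * (N.choose k : ℝ≥0∞)) *
          (cI m (Fin k) A w * cI m (Fin (N - k)) B w) := by ring
      _ = _ := by rw [h2, h4]; ring
  simp_rw [hN]
  rw [← ENNReal.tsum_mul_right]
  simp_rw [← ENNReal.tsum_mul_left]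
  rw [← ENNReal.tsum_prod (f := fun k l => (z ^ k * (k.factorial : ℝ≥0∞)⁻¹ * cI m (Fin k) A w) *
        (z ^ l * (l.factorial : ℝ≥0∞)⁻¹ * cI m (Fin l) B w))]
  rw [← Finset.HasAntidiagonal.sigmaAntidiagonalEquivProd.tsum_eq, ENNReal.tsum_sigma']
  refine tsum_congr fun n => ?_
  rw [← Finset.sum_finset_coe, ← tsum_fintype (L := .unconditional _)]
  rfl

lemma gG_empty (m : Measure E) [SigmaFinite m] (z : ℝ≥0∞) (w : E → E → ℝ) :
    gG m ∅ z w = 1 := by
  unfold gG
  rw [tsum_eq_single 0]
  · simp [cI_empty_zero]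
  · intro N hN
    have : cI m (Fin N) ∅ w = 0 := by
      unfold cI
      have hempty : {x : Fin N → E | ∀ i, x i ∈ (∅ : Set E)} = ∅ := by
        ext x
        simp only [Set.mem_ofPred_eq, Set.mem_empty_iff_false, iff_false]
        intro h
        exact h ⟨0, Nat.pos_of_ne_zero hN⟩
      rw [hempty]
      simp
    rw [this, mul_zero]

/-- Factorization of the grand canonical sum over finitely many pairwise disjoint cells between
which the kernel vanishes. -/
lemma gG_biUnion (m : Measure E) [SigmaFinite m] {I : Type} [DecidableEq I] (J : Finset I)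
    (A : I → Set E) (hA : ∀ i, MeasurableSet (A i)) (hd : ∀ i j, i ≠ j → Disjoint (A i) (A j))
    (z : ℝ≥0∞) {w : E → E → ℝ} (hw : Measurable (Function.uncurry w))
    (h0 : ∀ i j, i ≠ j → ∀ x ∈ A i, ∀ y ∈ A j, w x y = 0) :
    gG m (⋃ i ∈ J, A i) z w = ∏ i ∈ J, gG m (A i) z w := by
  induction J using Finset.induction_on with
  | empty => simp [gG_empty]
  | insert i J hi ih =>
    rw [Finset.set_biUnion_insert, Finset.prod_insert hi, ← ih]
    refine gG_union m (hA i) (Finset.measurableSet_biUnion _ fun j _ => hA j) ?_ z hw ?_ ?_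
    · rw [Set.disjoint_iUnion₂_right]
      intro j hj
      exact hd i j (fun h => hi (h ▸ hj))
    · intro x hx y hy
      simp only [Set.mem_iUnion] at hy
      obtain ⟨j, hj, hy⟩ := hy
      exact h0 i j (fun h => hi (h ▸ hj)) x hx y hy
    · intro x hx y hy
      simp only [Set.mem_iUnion] at hy
      obtain ⟨j, hj, hy⟩ := hy
      exact h0 j i (fun h => hi (h ▸ hj)) y hy x hx

end

end Vale.Agent.P171
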