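import Vale.Agent.P171.Limit

open MeasureTheory Filter Topology
open scoped ENNReal

namespace Vale.Agent.P171

/-- the space of absolutely summable sequences -/
abbrev L1 : Type := lp (fun _ : ℕ => ℝ) 1

lemma L1_norm (f : L1) : ‖f‖ = ∑' n, |f n| := by
  rw [lp.norm_eq_tsum_rpow (by simp)]
  simp

lemma L1_summable (f : L1) : Summable fun n => |f n| := by
  have h := (lp.memℓp f).summable (by simp)
  simpa using h

lemma L1_norm_of_nonneg {f : L1} (hf : ∀ n, 0 ≤ f n) : ‖f‖ = ∑' n, f n := by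
  rw [L1_norm]
  exact tsum_congr fun n => abs_of_nonneg (hf n)

/-- the admissible set -/
def SS : Set (L1 × ℝ) := {p | (∀ n, 0 ≤ p.1 n) ∧ ‖p.1‖ ≤ aStar}

lemma adm_of_mem {p : L1 × ℝ} (hp : p ∈ SS) : Adm p.1 where
  nonneg := hp.1
  summable := by
    have := L1_summable p.1
    simpa [abs_of_nonneg (hp.1 _)] using this
  le := by
    rw [← L1_norm_of_nonneg hp.1]
    exact hp.2

lemma isClosed_SS : IsClosed SS := by
  have h1 : IsClosed {p : L1 × ℝ | ∀ n, 0 ≤ p.1 n} := by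
    have : {p : L1 × ℝ | ∀ n, 0 ≤ p.1 n} = ⋂ n, {p : L1 × ℝ | 0 ≤ p.1 n} := by
      ext p; simp
    rw [this]
    refine isClosed_iInter fun n => ?_
    refine isClosed_le continuous_const ?_
    have h : Continuous fun f : L1 => f n :=
      (continuous_apply n).comp (lp.uniformContinuous_coe (E := fun _ : ℕ => ℝ) (p := 1)).continuous
    exact h.comp continuous_fst
  have h2 : IsClosed {p : L1 × ℝ | ‖p.1‖ ≤ aStar} :=
    isClosed_le (continuous_norm.comp continuous_fst) continuous_const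
  exact h1.inter h2

lemma attr_sub_le {a b : L1} (ha : Adm a) (hb : Adm b) (d : ℝ) :
    attr a d - attr b d ≤ ‖a - b‖ := by
  unfold attr
  rw [← (attr_summable ha d).tsum_sub (attr_summable hb d), L1_norm]
  refine ((attr_summable ha d).sub (attr_summable hb d)).tsum_le_tsum (fun n => ?_)
    (L1_summable (a - b))
  have e : (a - b : L1) n = a n - b n := rfl
  rw [e]
  have h2 := inv_rad_le_one n
  have h3 : 0 ≤ ((rad n) ^ 3)⁻¹ := by have := rad_pos n; positivity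
  have h4 := le_abs_self (a n - b n)
  have h5 := abs_nonneg (a n - b n)
  split_ifs
  · nlinarith
  · simpa using h5

lemma kern_ge {a b : L1} (ha : Adm a) (hb : Adm b) (x y : E3) :
    kern a x y - ‖a - b‖ ≤ kern b x y := by
  unfold kern pot
  have := attr_sub_le ha hb (dist x y)
  have := norm_nonneg (a - b)
  linarith

/-- the `N`-th term of the grand canonical sum -/
noncomputable def trm (a : ℕ → ℝ) (μ L : ℝ) (N : ℕ) : ℝ≥0∞ :=
  act μ ^ N * (N.factorial : ℝ≥0∞)⁻¹ * cI volume (Fin N) (box L) (kern a)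

lemma trm_ge {a b : L1} (ha : Adm a) (hb : Adm b) (μ ν L : ℝ) {N N₀ : ℕ} (hN : N ≤ N₀) :
    ENNReal.ofReal (Real.exp (-((N₀ : ℝ) * |μ - ν| + (N₀ : ℝ) ^ 2 * ‖a - b‖))) * trm a μ L N ≤
      trm b ν L N := by
  have hN' : (N : ℝ) ≤ N₀ := by exact_mod_cast hN
  have h1 : ENNReal.ofReal (Real.exp (-((N₀ : ℝ) * |μ - ν|))) * act μ ^ N ≤ act ν ^ N := by
    unfold act
    rw [← ENNReal.ofReal_pow (Real.exp_nonneg _), ← ENNReal.ofReal_pow (Real.exp_nonneg _),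
      ← ENNReal.ofReal_mul (Real.exp_nonneg _), ← Real.exp_nat_mul, ← Real.exp_nat_mul,
      ← Real.exp_add]
    refine ENNReal.ofReal_le_ofReal (Real.exp_le_exp.2 ?_)
    have h2 : (N : ℝ) * |μ - ν| ≤ N₀ * |μ - ν| := mul_le_mul_of_nonneg_right hN' (abs_nonneg _)
    have h3 : (N : ℝ) * (μ - ν) ≤ N * |μ - ν| :=
      mul_le_mul_of_nonneg_left (le_abs_self _) N.cast_nonneg
    linarith
  have h2 : ENNReal.ofReal (Real.exp (-((N₀ : ℝ) ^ 2 * ‖a - b‖))) *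
      cI volume (Fin N) (box L) (kern a) ≤ cI volume (Fin N) (box L) (kern b) := by
    unfold cI
    rw [← lintegral_const_mul _ (measurable_bw (measurable_kern ha))]
    refine setLIntegral_mono' (measurableSet_allIn (measurableSet_box L)) fun x _ => ?_
    unfold bw
    rw [← ENNReal.ofReal_mul (Real.exp_nonneg _), ← Real.exp_add]
    refine ENNReal.ofReal_le_ofReal (Real.exp_le_exp.2 ?_)
    have h3 : ∑ i : Fin N, ∑ j : Fin N, (kern a (x i) (x j) - ‖a - b‖) ≤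
        ∑ i, ∑ j, kern b (x i) (x j) :=
      Finset.sum_le_sum fun i _ => Finset.sum_le_sum fun j _ => kern_ge ha hb _ _
    have h4 : ∑ i : Fin N, ∑ j : Fin N, (kern a (x i) (x j) - ‖a - b‖) =
        ∑ i, ∑ j, kern a (x i) (x j) - (N : ℝ) ^ 2 * ‖a - b‖ := by
      simp_rw [Finset.sum_sub_distrib]
      simp
      ring
    have h5 : (N : ℝ) ^ 2 * ‖a - b‖ ≤ (N₀ : ℝ) ^ 2 * ‖a - b‖ := by gcongr
    linarith
  calc ENNReal.ofReal (Real.exp (-((N₀ : ℝ) * |μ - ν| + (N₀ : ℝ) ^ 2 * ‖a - b‖))) * trm a μ L N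
      = (ENNReal.ofReal (Real.exp (-((N₀ : ℝ) * |μ - ν|))) * act μ ^ N) *
        (N.factorial : ℝ≥0∞)⁻¹ * (ENNReal.ofReal (Real.exp (-((N₀ : ℝ) ^ 2 * ‖a - b‖))) *
          cI volume (Fin N) (box L) (kern a)) := by
        rw [neg_add, Real.exp_add, ENNReal.ofReal_mul (Real.exp_nonneg _)]
        unfold trm
        ring
    _ ≤ act ν ^ N * (N.factorial : ℝ≥0∞)⁻¹ * cI volume (Fin N) (box L) (kern b) := by gcongr

lemma Xi_lsc {p : L1 × ℝ} (hp : p ∈ SS) (L : ℝ) {C : ℝ≥0∞} (hC : C < Xi p.1 p.2 L) :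
    ∀ᶠ q in 𝓝[SS] p, C < Xi q.1 q.2 L := by
  have h1 : Xi p.1 p.2 L = ∑' N, trm p.1 p.2 L N := rfl
  rw [h1, ENNReal.tsum_eq_iSup_nat, lt_iSup_iff] at hC
  obtain ⟨N₀, hN₀⟩ := hC
  have h2 : Tendsto (fun q : L1 × ℝ => ENNReal.ofReal (Real.exp (-((N₀ : ℝ) * |p.2 - q.2| +
      (N₀ : ℝ) ^ 2 * ‖p.1 - q.1‖))) * ∑ N ∈ Finset.range N₀, trm p.1 p.2 L N) (𝓝 p)
      (𝓝 (ENNReal.ofReal (Real.exp (-((N₀ : ℝ) * |p.2 - p.2| +
      (N₀ : ℝ) ^ 2 * ‖p.1 - p.1‖))) * ∑ N ∈ Finset.range N₀, trm p.1 p.2 L N)) := by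
    refine ENNReal.Tendsto.mul_const ?_ (Or.inl ?_)
    · refine (ENNReal.continuous_ofReal.tendsto _).comp ?_
      refine (Real.continuous_exp.tendsto _).comp ?_
      have hcont : Continuous fun q : L1 × ℝ => -((N₀ : ℝ) * |p.2 - q.2| +
        (N₀ : ℝ) ^ 2 * ‖p.1 - q.1‖) := by fun_prop
      exact hcont.tendsto p
    · simp
  have h3 : C < ENNReal.ofReal (Real.exp (-((N₀ : ℝ) * |p.2 - p.2| +
      (N₀ : ℝ) ^ 2 * ‖p.1 - p.1‖))) * ∑ N ∈ Finset.range N₀, trm p.1 p.2 L N := by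
    simpa using hN₀
  have h4 := (tendsto_order.1 h2).1 C h3
  filter_upwards [nhdsWithin_le_nhds h4, self_mem_nhdsWithin] with q hq hqS
  refine hq.trans_le ?_
  rw [Finset.mul_sum]
  have h5 : Xi q.1 q.2 L = ∑' N, trm q.1 q.2 L N := rfl
  rw [h5]
  refine le_trans ?_ (ENNReal.sum_le_tsum (Finset.range N₀))
  refine Finset.sum_le_sum fun N hN => ?_
  exact trm_ge (adm_of_mem hp) (adm_of_mem hqS) p.2 q.2 L (Finset.mem_range.1 hN).le

lemma press_lsc {p : L1 × ℝ} (hp : p ∈ SS) {c : ℝ} (hc : c < press p.1 p.2) :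
    ∀ᶠ q in 𝓝[SS] p, c < press q.1 q.2 := by
  obtain ⟨l, hl⟩ := exists_lt_of_lt_ciSup hc
  have hl2 : (0 : ℝ) < (l : ℝ) + 2 := by positivity
  rw [lt_div_iff₀ (by positivity)] at hl
  have hpos := one_le_Xi_toReal (adm_of_mem hp) p.2 (l : ℝ)
  have h1 : Real.exp (c * ((l : ℝ) + 2) ^ 3) < (Xi p.1 p.2 l).toReal := by
    rw [← Real.exp_log (show 0 < (Xi p.1 p.2 l).toReal by linarith)]
    exact Real.exp_lt_exp.2 hl
  have h2 : ENNReal.ofReal (Real.exp (c * ((l : ℝ) + 2) ^ 3)) < Xi p.1 p.2 l := by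
    rw [← ENNReal.ofReal_toReal (Xi_ne_top (adm_of_mem hp) p.2 l)]
    exact (ENNReal.ofReal_lt_ofReal_iff (by linarith)).2 h1
  filter_upwards [Xi_lsc hp (l : ℝ) h2, self_mem_nhdsWithin] with q hq hqS
  have hqpos := one_le_Xi_toReal (adm_of_mem hqS) q.2 (l : ℝ)
  have h3 : Real.exp (c * ((l : ℝ) + 2) ^ 3) < (Xi q.1 q.2 l).toReal := by
    have := (ENNReal.toReal_lt_toReal ENNReal.ofReal_ne_top
      (Xi_ne_top (adm_of_mem hqS) q.2 l)).2 hq
    rwa [ENNReal.toReal_ofReal (Real.exp_nonneg _)] at this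
  have h4 : c * ((l : ℝ) + 2) ^ 3 < Real.log (Xi q.1 q.2 l).toReal := by
    rw [← Real.log_exp (c * ((l : ℝ) + 2) ^ 3)]
    exact Real.log_lt_log (Real.exp_pos _) h3
  have h5 := logXi_le_press (adm_of_mem hqS) q.2 l
  have h6 : c * ((l : ℝ) + 2) ^ 3 < press q.1 q.2 * ((l : ℝ) + 2) ^ 3 := by
    rw [mul_comm (press _ _)]
    exact h4.trans_le h5
  exact lt_of_mul_lt_mul_right h6 (by positivity)

end Vale.Agent.P171
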