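import Vale.Agent.P171.Thermo

open MeasureTheory Filter Topology
open scoped ENNReal

namespace Vale.Agent.P171

/-- the unit cube at `3p` -/
def ucell {k : ℕ} (p : Fin 3 → Fin k) : Set E3 :=
  {x | ∀ i, x i ∈ Set.Icc (3 * ((p i : ℕ) : ℝ)) (3 * ((p i : ℕ) : ℝ) + 1)}

lemma measurableSet_ucell {k : ℕ} (p : Fin 3 → Fin k) : MeasurableSet (ucell p) :=
  measurableSet_pi_set fun _ => measurableSet_Icc

lemma volume_ucell {k : ℕ} (p : Fin 3 → Fin k) : volume (ucell p) = 1 := by
  unfold ucell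
  rw [volume_pi_set fun i => Set.Icc (3 * ((p i : ℕ) : ℝ)) (3 * ((p i : ℕ) : ℝ) + 1)]
  simp

lemma two_le_dist_ucell {k : ℕ} {p p' : Fin 3 → Fin k} (h : p ≠ p') {x y : E3}
    (hx : x ∈ ucell p) (hy : y ∈ ucell p') : 2 ≤ dist x y := by
  obtain ⟨i, hi⟩ := Function.ne_iff.1 h
  refine le_trans ?_ (coord_le_dist x y i)
  have h1 := hx i
  have h2 := hy i
  rcases lt_or_gt_of_ne hi with h | h
  · have h3 : ((p i : ℕ) : ℝ) + 1 ≤ ((p' i : ℕ) : ℝ) := by exact_mod_cast h
    rw [abs_sub_comm]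
    refine le_trans ?_ (le_abs_self _)
    linarith [h1.2, h2.1]
  · have h3 : ((p' i : ℕ) : ℝ) + 1 ≤ ((p i : ℕ) : ℝ) := by exact_mod_cast h
    refine le_trans ?_ (le_abs_self _)
    linarith [h1.1, h2.2]

/-- closeness of labels -/
def closeIdx {k : ℕ} (n : ℕ) (p p' : Fin 3 → Fin k) : Prop :=
  ∀ i, (p i : ℕ) ≤ (p' i : ℕ) + n ∧ (p' i : ℕ) ≤ (p i : ℕ) + n

lemma dist_lt_of_close {k n : ℕ} {p p' : Fin 3 → Fin k} (h : closeIdx n p p') {x y : E3}
    (hx : x ∈ ucell p) (hy : y ∈ ucell p') : dist x y < rad n := by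
  have hn : (0 : ℝ) ≤ n := n.cast_nonneg
  have h0 : ∀ i, dist (x i) (y i) ^ 2 ≤ (3 * (n : ℝ) + 1) ^ 2 := by
    intro i
    have h1 := hx i
    have h2 := hy i
    have h3 : ((p i : ℕ) : ℝ) ≤ ((p' i : ℕ) : ℝ) + n := by exact_mod_cast (h i).1
    have h4 : ((p' i : ℕ) : ℝ) ≤ ((p i : ℕ) : ℝ) + n := by exact_mod_cast (h i).2
    have h5 : |x i - y i| ≤ 3 * (n : ℝ) + 1 := by
      rw [abs_le]
      constructor <;> linarith [h1.1, h1.2, h2.1, h2.2]
    rw [Real.dist_eq]
    exact pow_le_pow_left₀ (abs_nonneg _) h5 2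
  rw [EuclideanSpace.dist_eq, Real.sqrt_lt' (rad_pos n), Fin.sum_univ_three]
  have a0 := h0 0
  have a1 := h0 1
  have a2 := h0 2
  unfold rad
  nlinarith

lemma card_close_coord {k n : ℕ} (hn : n + 1 ≤ k) (m : Fin k) :
    n + 1 ≤ ((Finset.univ : Finset (Fin k)).filter fun s : Fin k =>
      (m : ℕ) ≤ (s : ℕ) + n ∧ (s : ℕ) ≤ (m : ℕ) + n).card := by
  have hm := m.2
  set s0 := min (m : ℕ) (k - 1 - n) with hs0
  have h1 : (Finset.range (n + 1)).card ≤ ((Finset.univ : Finset (Fin k)).filter fun s : Fin k =>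
      (m : ℕ) ≤ (s : ℕ) + n ∧ (s : ℕ) ≤ (m : ℕ) + n).card := by
    refine Finset.card_le_card_of_injOn (fun j => (⟨(s0 + j) % k, Nat.mod_lt _ (by omega)⟩ : Fin k))
      ?_ ?_
    · intro j hj
      have hj' : j < n + 1 := by simpa using hj
      have h2 : s0 + j < k := by omega
      simp only [Finset.coe_filter, Finset.mem_univ, true_and, Set.mem_ofPred_eq]
      rw [Nat.mod_eq_of_lt h2]
      omega
    · intro j hj j' hj' h
      have hj1 : j < n + 1 := by simpa using hj
      have hj2 : j' < n + 1 := by simpa using hj'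
      have h2 : s0 + j < k := by omega
      have h3 : s0 + j' < k := by omega
      simp only [Fin.mk.injEq] at h
      rw [Nat.mod_eq_of_lt h2, Nat.mod_eq_of_lt h3] at h
      omega
  simpa using h1

lemma card_close {k n : ℕ} (hn : n + 1 ≤ k) (p : Fin 3 → Fin k) [DecidablePred (closeIdx n p)] :
    ((n : ℝ) + 1) ^ 3 ≤ ∑ p', (if closeIdx n p p' then (1 : ℝ) else 0) := by
  classical
  have h1 : (Finset.univ.filter (closeIdx n p)) = Fintype.piFinset fun i =>
      (Finset.univ : Finset (Fin k)).filter fun s : Fin k =>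
        (p i : ℕ) ≤ (s : ℕ) + n ∧ (s : ℕ) ≤ (p i : ℕ) + n := by
    ext p'
    simp [closeIdx, Fintype.mem_piFinset]
  have h2 : (n + 1) ^ 3 ≤ (Finset.univ.filter (closeIdx n p)).card := by
    rw [h1, Fintype.card_piFinset]
    calc (n + 1) ^ 3 = ∏ _i : Fin 3, (n + 1) := by simp
      _ ≤ _ := Finset.prod_le_prod' fun i _ => card_close_coord hn (p i)
  have h3 : ∑ p', (if closeIdx n p p' then (1 : ℝ) else 0) =
      ((Finset.univ.filter (closeIdx n p)).card : ℝ) := by
    rw [Finset.card_filter]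
    push_cast
    rfl
  rw [h3]
  exact_mod_cast h2

/-- the trial configurations -/
def Omg {k : ℕ} (σ : Equiv.Perm (Fin 3 → Fin k)) : Set ((Fin 3 → Fin k) → E3) :=
  {y | ∀ v, y v ∈ ucell (σ v)}

lemma exponent_ge {a : ℕ → ℝ} (ha : Adm a) {k M : ℕ} (hM : M ≤ k)
    (σ : Equiv.Perm (Fin 3 → Fin k)) {y : (Fin 3 → Fin k) → E3} (hy : y ∈ Omg σ) :
    (k : ℝ) ^ 3 * (-(ampA / 2) + (∑ n ∈ Finset.range M, a n) / 432) ≤
      ∑ v, ∑ v', kern a (y v) (y v') := by
  classical
  have hcard : (Fintype.card (Fin 3 → Fin k) : ℝ) = (k : ℝ) ^ 3 := by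
    rw [Fintype.card_fun]; simp
  have hA : 0 < ampA := by unfold ampA aStar; norm_num
  -- repulsion
  have h1 : ∑ v, ∑ v', (if dist (y v) (y v') < 2 then (1 : ℝ) else 0) ≤ (k : ℝ) ^ 3 := by
    have h2 : ∀ v, ∑ v', (if dist (y v) (y v') < 2 then (1 : ℝ) else 0) ≤ 1 := by
      intro v
      rw [Finset.sum_eq_single v]
      · split_ifs <;> norm_num
      · intro v' _ hv'
        rw [if_neg]
        rw [not_lt]
        exact two_le_dist_ucell (fun h => hv' (σ.injective h).symm) (hy v) (hy v')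
      · intro h; exact absurd (Finset.mem_univ v) h
    calc ∑ v, ∑ v', (if dist (y v) (y v') < 2 then (1 : ℝ) else 0)
        ≤ ∑ _v : Fin 3 → Fin k, (1 : ℝ) := Finset.sum_le_sum fun v _ => h2 v
      _ = (k : ℝ) ^ 3 := by rw [Finset.sum_const, Finset.card_univ, nsmul_eq_mul, hcard, mul_one]
  -- attraction
  have h3 : ∀ n ∈ Finset.range M, (k : ℝ) ^ 3 * ((n : ℝ) + 1) ^ 3 ≤
      ∑ v, ∑ v', (if dist (y v) (y v') < rad n then (1 : ℝ) else 0) := by
    intro n hn
    have hn' : n + 1 ≤ k := by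
      have := Finset.mem_range.1 hn
      omega
    calc (k : ℝ) ^ 3 * ((n : ℝ) + 1) ^ 3
        = ∑ _p : Fin 3 → Fin k, ((n : ℝ) + 1) ^ 3 := by
          rw [Finset.sum_const, Finset.card_univ, nsmul_eq_mul, hcard]
      _ ≤ ∑ p, ∑ p', (if closeIdx n p p' then (1 : ℝ) else 0) :=
          Finset.sum_le_sum fun p _ => card_close hn' p
      _ = ∑ v, ∑ v', (if closeIdx n (σ v) (σ v') then (1 : ℝ) else 0) := by
          rw [← Equiv.sum_comp σ]
          refine Finset.sum_congr rfl fun v _ => ?_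
          rw [← Equiv.sum_comp σ]
      _ ≤ _ := by
          refine Finset.sum_le_sum fun v _ => Finset.sum_le_sum fun v' _ => ?_
          by_cases h : closeIdx n (σ v) (σ v')
          · rw [if_pos h, if_pos (dist_lt_of_close h (hy v) (hy v'))]
          · rw [if_neg h]
            split_ifs <;> norm_num
  have h4 : (k : ℝ) ^ 3 * ((∑ n ∈ Finset.range M, a n) / 216) ≤
      ∑ v, ∑ v', attr a (dist (y v) (y v')) := by
    calc (k : ℝ) ^ 3 * ((∑ n ∈ Finset.range M, a n) / 216)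
        = ∑ n ∈ Finset.range M, a n * ((rad n) ^ 3)⁻¹ * ((k : ℝ) ^ 3 * ((n : ℝ) + 1) ^ 3) := by
          rw [Finset.sum_div, Finset.mul_sum]
          refine Finset.sum_congr rfl fun n _ => ?_
          unfold rad
          have : (0 : ℝ) < (n : ℝ) + 1 := by positivity
          field_simp
          norm_num
      _ ≤ ∑ n ∈ Finset.range M, a n * ((rad n) ^ 3)⁻¹ *
            ∑ v, ∑ v', (if dist (y v) (y v') < rad n then (1 : ℝ) else 0) := by
          refine Finset.sum_le_sum fun n hn => mul_le_mul_of_nonneg_left (h3 n hn) ?_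
          have := rad_pos n
          have := ha.nonneg n
          positivity
      _ = ∑ v, ∑ v', ∑ n ∈ Finset.range M, a n * ((rad n) ^ 3)⁻¹ *
            (if dist (y v) (y v') < rad n then (1 : ℝ) else 0) := by
          simp_rw [Finset.mul_sum]
          rw [Finset.sum_comm]
          refine Finset.sum_congr rfl fun v _ => ?_
          rw [Finset.sum_comm]
      _ ≤ _ := by
          refine Finset.sum_le_sum fun v _ => Finset.sum_le_sum fun v' _ => ?_
          exact (attr_summable ha _).sum_le_tsum _ fun n _ => attr_term_nonneg ha _ n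
  have h5 : ∑ v, ∑ v', kern a (y v) (y v') =
      -(ampA / 2) * ∑ v, ∑ v', (if dist (y v) (y v') < 2 then (1 : ℝ) else 0) +
        1 / 2 * ∑ v, ∑ v', attr a (dist (y v) (y v')) := by
    simp_rw [Finset.mul_sum, ← Finset.sum_add_distrib]
    refine Finset.sum_congr rfl fun v _ => Finset.sum_congr rfl fun v' _ => ?_
    unfold kern pot
    ring
  rw [h5]
  have h6 : ampA / 2 * ∑ v, ∑ v', (if dist (y v) (y v') < 2 then (1 : ℝ) else 0) ≤
      ampA / 2 * (k : ℝ) ^ 3 := mul_le_mul_of_nonneg_left h1 (by positivity)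
  linarith

lemma volume_Omg {k : ℕ} (σ : Equiv.Perm (Fin 3 → Fin k)) :
    (Measure.pi fun _ : Fin 3 → Fin k => (volume : Measure E3)) (Omg σ) = 1 := by
  have : Omg σ = Set.pi Set.univ fun v => ucell (σ v) := by
    ext y; simp [Omg]
  rw [this, Measure.pi_pi]
  simp [volume_ucell]

lemma measurableSet_Omg {k : ℕ} (σ : Equiv.Perm (Fin 3 → Fin k)) : MeasurableSet (Omg σ) := by
  have : Omg σ = Set.pi Set.univ fun v => ucell (σ v) := by
    ext y; simp [Omg]
  rw [this]
  exact MeasurableSet.univ_pi fun v => measurableSet_ucell _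

lemma ucell_subset_box {k : ℕ} (p : Fin 3 → Fin k) : ucell p ⊆ box ((3 * k : ℕ) : ℝ) := by
  intro x hx i
  have h1 := hx i
  have h2 : ((p i : ℕ) : ℝ) + 1 ≤ k := by exact_mod_cast (p i).2
  have h3 : (0 : ℝ) ≤ ((p i : ℕ) : ℝ) := by positivity
  push_cast
  exact ⟨by linarith [h1.1], by linarith [h1.2]⟩

/-- B1: the trial state bound. -/
lemma trial_bound {a : ℕ → ℝ} (ha : Adm a) (μ : ℝ) (k M : ℕ) (hM : M ≤ k) :
    ENNReal.ofReal (Real.exp ((k : ℝ) ^ 3 * (μ + (∑ n ∈ Finset.range M, a n) / 432))) ≤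
      Xi a μ ((3 * k : ℕ) : ℝ) := by
  classical
  set c : ℝ := (k : ℝ) ^ 3 * (-(ampA / 2) + (∑ n ∈ Finset.range M, a n) / 432) with hc
  have hcard : Fintype.card (Fin 3 → Fin k) = k ^ 3 := by
    rw [Fintype.card_fun]; simp
  have h1 : ((k ^ 3).factorial : ℝ≥0∞) * ENNReal.ofReal (Real.exp c) ≤
      cI volume (Fin (k ^ 3)) (box ((3 * k : ℕ) : ℝ)) (kern a) := by
    rw [cI_congr volume (Fintype.equivFinOfCardEq hcard).symm (measurableSet_box _)
      (measurable_kern ha)]
    have hsub : (⋃ σ ∈ (Finset.univ : Finset (Equiv.Perm (Fin 3 → Fin k))), Omg σ) ⊆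
        {x : (Fin 3 → Fin k) → E3 | ∀ i, x i ∈ box ((3 * k : ℕ) : ℝ)} := by
      intro y hy i
      simp only [Finset.mem_univ, Set.iUnion_true, Set.mem_iUnion] at hy
      obtain ⟨σ, hσ⟩ := hy
      exact ucell_subset_box _ (hσ i)
    unfold cI
    refine le_trans ?_ (lintegral_mono_set hsub)
    rw [lintegral_biUnion_finset]
    · calc ((k ^ 3).factorial : ℝ≥0∞) * ENNReal.ofReal (Real.exp c)
          = ∑ _σ : Equiv.Perm (Fin 3 → Fin k), ENNReal.ofReal (Real.exp c) := by
            rw [Finset.sum_const, Finset.card_univ, Fintype.card_perm, hcard, nsmul_eq_mul]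
        _ ≤ _ := by
            refine Finset.sum_le_sum fun σ _ => ?_
            calc ENNReal.ofReal (Real.exp c)
                = ∫⁻ _y in Omg σ, ENNReal.ofReal (Real.exp c)
                    ∂(Measure.pi fun _ : Fin 3 → Fin k => (volume : Measure E3)) := by
                  rw [setLIntegral_const, volume_Omg, mul_one]
              _ ≤ _ := by
                  refine setLIntegral_mono' (measurableSet_Omg σ) fun y hy => ?_
                  exact ENNReal.ofReal_le_ofReal (Real.exp_le_exp.2 (exponent_ge ha hM σ hy))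
    · intro σ _ σ' _ hne
      rw [Function.onFun, Set.disjoint_left]
      intro y hy hy'
      apply hne
      ext1 v
      by_contra hv
      have h2 := two_le_dist_ucell hv (hy v) (hy' v)
      rw [dist_self] at h2
      norm_num at h2
    · intro σ _
      exact measurableSet_Omg σ
  unfold Xi gG
  refine le_trans ?_ (ENNReal.le_tsum (k ^ 3))
  have hf0 : ((k ^ 3).factorial : ℝ≥0∞) ≠ 0 := by exact_mod_cast (k ^ 3).factorial_ne_zero
  have hf1 : ((k ^ 3).factorial : ℝ≥0∞) ≠ ⊤ := ENNReal.natCast_ne_top _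
  calc ENNReal.ofReal (Real.exp ((k : ℝ) ^ 3 * (μ + (∑ n ∈ Finset.range M, a n) / 432)))
      = act μ ^ (k ^ 3) * ENNReal.ofReal (Real.exp c) := by
        unfold act
        rw [← ENNReal.ofReal_pow (Real.exp_nonneg _), ← ENNReal.ofReal_mul (by positivity),
          ← Real.exp_nat_mul, ← Real.exp_add]
        congr 2
        rw [hc]
        push_cast
        ring
    _ = act μ ^ (k ^ 3) * ((k ^ 3).factorial : ℝ≥0∞)⁻¹ *
          (((k ^ 3).factorial : ℝ≥0∞) * ENNReal.ofReal (Real.exp c)) := by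
        rw [mul_assoc, ← mul_assoc ((k ^ 3).factorial : ℝ≥0∞)⁻¹, ENNReal.inv_mul_cancel hf0 hf1,
          one_mul]
    _ ≤ _ := by gcongr

end Vale.Agent.P171
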