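import Vale.Agent.P171.LPBound
import Vale.Agent.P171.Lsc
import Vale.Agent.P171.Trial
import Vale.Agent.P171.Ekeland

open MeasureTheory Filter Topology
open scoped ENNReal

namespace Vale.Agent.P171

/-! ### The trial state bound for the pressure -/

lemma press_ge_trial {a : ℕ → ℝ} (ha : Adm a) (μ : ℝ) (M : ℕ) :
    (μ + (∑ n ∈ Finset.range M, a n) / 432) / 27 ≤ press a μ := by
  have ht1 : Tendsto (fun k : ℕ => 3 * (k : ℝ)) atTop atTop :=
    Tendsto.const_mul_atTop (by norm_num) tendsto_natCast_atTop_atTop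
  have ht2 := (tendsto_press ha μ).comp ht1
  refine ge_of_tendsto ht2 ?_
  filter_upwards [eventually_ge_atTop M, eventually_gt_atTop 0] with k hk hk0
  have hk' : (0 : ℝ) < k := by exact_mod_cast hk0
  have h1 := trial_bound ha μ k M hk
  have h2 := ENNReal.toReal_mono (Xi_ne_top ha μ _) h1
  rw [ENNReal.toReal_ofReal (Real.exp_nonneg _)] at h2
  have h3 : (k : ℝ) ^ 3 * (μ + (∑ n ∈ Finset.range M, a n) / 432) ≤
      Real.log (Xi a μ ((3 * k : ℕ) : ℝ)).toReal := by
    rw [← Real.log_exp ((k : ℝ) ^ 3 * (μ + (∑ n ∈ Finset.range M, a n) / 432))]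
    exact Real.log_le_log (Real.exp_pos _) h2
  push_cast at h3
  show _ ≤ ((3 * (k : ℝ)) ^ 3)⁻¹ * Real.log (Xi a μ (3 * k)).toReal
  calc (μ + (∑ n ∈ Finset.range M, a n) / 432) / 27
      = ((3 * (k : ℝ)) ^ 3)⁻¹ * ((k : ℝ) ^ 3 * (μ + (∑ n ∈ Finset.range M, a n) / 432)) := by
        field_simp
        ring
    _ ≤ _ := mul_le_mul_of_nonneg_left h3 (by positivity)

lemma press_ge_trial' {a : ℕ → ℝ} (ha : Adm a) (μ : ℝ) :
    (μ + (∑' n, a n) / 432) / 27 ≤ press a μ := by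
  have h1 : Tendsto (fun M : ℕ => (μ + (∑ n ∈ Finset.range M, a n) / 432) / 27) atTop
      (𝓝 ((μ + (∑' n, a n) / 432) / 27)) :=
    ((ha.summable.hasSum.tendsto_sum_nat.div_const _).const_add _).div_const _
  exact le_of_tendsto' h1 fun M => press_ge_trial ha μ M

/-- the slope `e` in the functional `F` -/
noncomputable def slopeE : ℝ := rhoB / 864

/-- the functional to which Ekeland's principle is applied -/
noncomputable def FF (p : L1 × ℝ) : ℝ := press p.1 p.2 - rhoB * p.2 - slopeE * ‖p.1‖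

lemma FF_ge {p : L1 × ℝ} (hp : p ∈ SS) : slopeE * ‖p.1‖ ≤ FF p := by
  have ha := adm_of_mem hp
  have h1 := press_ge_trial' ha p.2
  have h2 := press_nonneg ha p.2
  rw [← L1_norm_of_nonneg hp.1] at h1
  unfold FF slopeE rhoB
  nlinarith

lemma mem_zero : ((0 : L1), (0 : ℝ)) ∈ SS := by
  refine ⟨fun n => le_refl _, ?_⟩
  simp [aStar]

lemma FF_zero_le : FF ((0 : L1), (0 : ℝ)) ≤ 1 := by
  unfold FF
  have h : press (((0 : L1), (0 : ℝ)).1) (0 : ℝ) ≤ 1 := press_zero_le
  simp only [norm_zero, mul_zero, sub_zero]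
  exact h

lemma FF_lsc (p : L1 × ℝ) (hp : p ∈ SS) (c : ℝ) (hc : c < FF p) :
    ∀ᶠ q in 𝓝[SS] p, c < FF q := by
  set δ := (FF p - c) / 2 with hδ
  have hδ0 : 0 < δ := by rw [hδ]; linarith
  have h1 : press p.1 p.2 - δ < press p.1 p.2 := by linarith
  have h2 : Tendsto (fun q : L1 × ℝ => rhoB * q.2 + slopeE * ‖q.1‖) (𝓝 p)
      (𝓝 (rhoB * p.2 + slopeE * ‖p.1‖)) := by
    have hcont : Continuous fun q : L1 × ℝ => rhoB * q.2 + slopeE * ‖q.1‖ := by fun_prop
    exact hcont.tendsto p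
  have h3 := (tendsto_order.1 h2).2 (rhoB * p.2 + slopeE * ‖p.1‖ + δ) (by linarith)
  filter_upwards [press_lsc hp h1, nhdsWithin_le_nhds h3] with q hq1 hq2
  unfold FF at *
  linarith

/-- The bumped sequence as an element of `L1`. -/
noncomputable def bumpL (a : L1) (n : ℕ) (t : ℝ) : L1 := a + lp.single 1 n t

lemma bumpL_coe (a : L1) (n : ℕ) (t : ℝ) : (bumpL a n t : ℕ → ℝ) = bump a n t := by
  funext m
  unfold bumpL bump
  rw [lp.coeFn_add, Pi.add_apply, lp.single_apply]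
  congr 1
  by_cases h : m = n
  · subst h; simp
  · simp [h]

lemma bumpL_mem {a : L1} {μ : ℝ} (hp : (a, μ) ∈ SS) {t : ℝ} (ht : 0 ≤ t) (hle : ‖a‖ + t ≤ aStar)
    (n : ℕ) : (bumpL a n t, μ) ∈ SS := by
  refine ⟨fun m => ?_, ?_⟩
  · show 0 ≤ (bumpL a n t) m
    rw [bumpL_coe]
    unfold bump
    have := hp.1 m
    split_ifs
    · exact add_nonneg this ht
    · simpa using this
  · show ‖bumpL a n t‖ ≤ aStar
    refine le_trans ?_ hle
    unfold bumpL
    refine (norm_add_le _ _).trans ?_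
    rw [lp.norm_single (by norm_num), Real.norm_of_nonneg ht]

lemma dist_bumpL (a : L1) (μ : ℝ) (n : ℕ) {t : ℝ} (ht : 0 ≤ t) :
    dist ((a, μ) : L1 × ℝ) (bumpL a n t, μ) = t := by
  rw [Prod.dist_eq]
  simp only [dist_self]
  rw [dist_eq_norm, bumpL]
  rw [show a - (a + lp.single 1 n t) = -(lp.single 1 n t) by abel, norm_neg,
    lp.norm_single (by norm_num), Real.norm_of_nonneg ht]
  exact max_eq_left ht

/-- The heart of the matter: an admissible potential whose pressure has a corner. -/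
theorem exists_corner : ∃ (a : ℕ → ℝ) (μ : ℝ), Adm a ∧ ¬ DifferentiableAt ℝ (press a) μ := by
  obtain ⟨⟨a, μ⟩, hpS, hp0, hp⟩ := ekeland SS isClosed_SS FF FF_lsc 0 (fun p hp => by
    have h1 := FF_ge hp
    have h2 : 0 ≤ slopeE * ‖p.1‖ := by unfold slopeE rhoB; positivity
    linarith) (rhoB / 10000) (by unfold rhoB; norm_num) ((0 : L1), (0 : ℝ)) mem_zero
  have ha : Adm a := adm_of_mem hpS
  refine ⟨a, μ, ha, ?_⟩
  intro hdiff
  set ε : ℝ := rhoB / 10000 with hε
  have hε0 : 0 < ε := by rw [hε]; unfold rhoB; norm_num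
  have hrho0 : 0 < rhoB := by unfold rhoB; norm_num
  -- the norm of `a` is at most `aStar / 2`
  have hnorm : ‖a‖ ≤ aStar / 2 := by
    have h1 := FF_ge hpS
    have h2 := hp0.trans FF_zero_le
    have h3 : slopeE * ‖a‖ ≤ 1 := h1.trans h2
    unfold slopeE rhoB at h3
    unfold aStar
    linarith
  -- variation of `μ`
  have hvar : ∀ h : ℝ, press a μ + rhoB * h - ε * |h| ≤ press a (μ + h) := by
    intro h
    have hmem : ((a, μ + h) : L1 × ℝ) ∈ SS := hpS
    have h1 := hp _ hmem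
    have h2 : dist ((a, μ) : L1 × ℝ) (a, μ + h) = |h| := by
      rw [Prod.dist_eq]
      simp
    rw [h2] at h1
    unfold FF at h1
    simp only at h1
    linarith
  -- the derivative is at most `rhoB + ε`
  obtain ⟨ρ', hρ'⟩ : ∃ ρ', HasDerivAt (press a) ρ' μ := ⟨_, hdiff.hasDerivAt⟩
  have hρle : ρ' ≤ rhoB + ε := by
    have h1 := hρ'.tendsto_slope_zero_left
    refine le_of_tendsto h1 ?_
    filter_upwards [self_mem_nhdsWithin] with h hh
    have hh' : h < 0 := hh
    have h2 := hvar h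
    rw [abs_of_neg hh'] at h2
    rw [smul_eq_mul]
    have h3 : (rhoB + ε) * h ≤ press a (μ + h) - press a μ := by linarith
    have h4 : h⁻¹ * (press a (μ + h) - press a μ) ≤ h⁻¹ * ((rhoB + ε) * h) :=
      mul_le_mul_of_nonpos_left h3 (inv_nonpos.2 hh'.le)
    refine h4.trans (le_of_eq ?_)
    rw [mul_comm (rhoB + ε) h, ← mul_assoc, inv_mul_cancel₀ hh'.ne, one_mul]
  -- linear upper bound to the right of `μ`
  obtain ⟨h₀, hh₀, hright⟩ : ∃ h₀ > 0, ∀ h, 0 ≤ h → h ≤ h₀ →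
      press a (μ + h) ≤ press a μ + (2 * rhoB) * h := by
    have h1 := hρ'.tendsto_slope_zero_right
    have h2 : ρ' < 2 * rhoB := by
      have : ε < rhoB := by rw [hε]; unfold rhoB; norm_num
      linarith
    have h3 := (tendsto_order.1 h1).2 _ h2
    rw [eventually_nhdsWithin_iff, Metric.eventually_nhds_iff] at h3
    obtain ⟨δ, hδ, h3⟩ := h3
    refine ⟨δ / 2, by positivity, fun h hh0 hhδ => ?_⟩
    rcases eq_or_lt_of_le hh0 with h0 | h0
    · rw [← h0]; simp
    · have h4 := h3 (y := h) (by rw [Real.dist_eq, sub_zero, abs_of_pos h0]; linarith) h0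
      rw [smul_eq_mul, inv_mul_lt_iff₀ h0] at h4
      linarith
  -- choose `t`
  set K := 2 * Real.exp (μ + ampA / 2) with hK
  have hKpos : 0 < √K := by rw [Real.sqrt_pos, hK]; positivity
  obtain ⟨t, ht0, ht1, ht2, ht3⟩ : ∃ t : ℝ, 0 < t ∧ 125 * t ≤ 1 / 2 ∧ 125 * t * √K ≤ h₀ ∧
      ‖a‖ + t ≤ aStar := by
    refine ⟨min (1 / 250) (h₀ / (125 * √K)), by positivity, ?_, ?_, ?_⟩
    · have := min_le_left (1 / 250 : ℝ) (h₀ / (125 * √K))
      linarith
    · have h1 := min_le_right (1 / 250 : ℝ) (h₀ / (125 * √K))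
      calc 125 * min (1 / 250) (h₀ / (125 * √K)) * √K
          ≤ 125 * (h₀ / (125 * √K)) * √K := by gcongr
        _ = h₀ := by field_simp
    · have := min_le_left (1 / 250 : ℝ) (h₀ / (125 * √K))
      unfold aStar at *
      linarith
  have hb : ∀ n, Adm (bump a n t) := fun n => by
    rw [← bumpL_coe]
    exact adm_of_mem (bumpL_mem hpS ht0.le ht3 n)
  have hLP := LP_bound ha (ρ := 2 * rhoB) (by positivity) hh₀ ht0 hright ht1 ht2 hb
    (θ := t * ε) (by positivity)
  obtain ⟨n, hn⟩ := hLP.exists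
  have hE := hp _ (bumpL_mem hpS ht0.le ht3 n)
  rw [dist_bumpL a μ n ht0.le] at hE
  unfold FF at hE
  simp only at hE
  have hnb : ‖bumpL a n t‖ = ‖a‖ + t := by
    rw [L1_norm_of_nonneg (bumpL_mem hpS ht0.le ht3 n).1, L1_norm_of_nonneg hpS.1]
    show ∑' m, (bumpL a n t) m = ∑' m, a m + t
    rw [bumpL_coe]
    unfold bump
    rw [Summable.tsum_add ha.summable (by
      refine summable_of_ne_finset_zero (s := {n}) fun m hm => ?_
      rw [if_neg (by simpa using hm)]), tsum_ite_eq]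
  rw [hnb, bumpL_coe] at hE
  have hfin : t * (slopeE - 2 * ε - 250 * rhoB ^ 2) ≤ 0 := by nlinarith
  have hpos : 0 < slopeE - 2 * ε - 250 * rhoB ^ 2 := by
    rw [hε]; unfold slopeE rhoB; norm_num
  nlinarith [mul_pos ht0 hpos]

end Vale.Agent.P171
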