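import Vale.Agent.P171.Model

open MeasureTheory Filter Topology
open scoped ENNReal

namespace Vale.Agent.P171

/-! ### The one-dimensional count -/

/-- `∑_{s<l} ⌊(p+s)/l⌋` -/
def hsum (l : ℕ) (p : ℤ) : ℤ := ∑ s ∈ Finset.range l, (p + (s : ℤ)) / (l : ℤ)

lemma hsum_succ {l : ℕ} (hl : 0 < l) (p : ℤ) : hsum l (p + 1) = hsum l p + 1 := by
  unfold hsum
  have h1 : ∑ s ∈ Finset.range l, (p + 1 + (s : ℤ)) / (l : ℤ) =
      ∑ s ∈ Finset.range l, (p + ((s + 1 : ℕ) : ℤ)) / (l : ℤ) := by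
    refine Finset.sum_congr rfl fun s _ => ?_
    congr 1
    push_cast
    ring
  have h2 := Finset.sum_range_succ' (fun s : ℕ => (p + (s : ℤ)) / (l : ℤ)) l
  have h3 := Finset.sum_range_succ (fun s : ℕ => (p + (s : ℤ)) / (l : ℤ)) l
  have h4 : (p + (l : ℤ)) / (l : ℤ) = p / (l : ℤ) + 1 :=
    Int.add_ediv_of_dvd_right (dvd_refl _) |>.trans (by
      rw [Int.ediv_self (by exact_mod_cast hl.ne')])
  rw [h1]
  rw [h2] at h3
  simp only [Nat.cast_zero, add_zero] at h3
  rw [h4] at h3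
  linarith

lemma hsum_add {l : ℕ} (hl : 0 < l) (p : ℤ) (n : ℕ) : hsum l (p + n) = hsum l p + n := by
  induction n with
  | zero => simp
  | succ n ih =>
    push_cast
    rw [← add_assoc, hsum_succ hl, ih]
    ring

lemma count_of_le {l : ℕ} (hl : 0 < l) {p q : ℤ} (hpq : p ≤ q) :
    (((Finset.range l).filter fun s : ℕ => (p + (s : ℤ)) / (l : ℤ) ≠ (q + (s : ℤ)) / (l : ℤ)).card : ℤ)
      ≤ q - p := by
  have hl' : (0 : ℤ) < l := by exact_mod_cast hl
  have h1 : hsum l q = hsum l p + (q - p) := by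
    have := hsum_add hl p (q - p).toNat
    rw [Int.toNat_of_nonneg (by linarith)] at this
    simpa using this
  have h2 : ∑ s ∈ Finset.range l, ((q + (s : ℤ)) / (l : ℤ) - (p + (s : ℤ)) / (l : ℤ)) = q - p := by
    rw [Finset.sum_sub_distrib]
    unfold hsum at h1
    linarith
  rw [← h2, Finset.card_filter]
  push_cast
  refine Finset.sum_le_sum fun s _ => ?_
  have h3 : (p + (s : ℤ)) / (l : ℤ) ≤ (q + (s : ℤ)) / (l : ℤ) :=
    Int.ediv_le_ediv hl' (by linarith)
  split_ifs with h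
  · omega
  · omega

lemma count_le {l : ℕ} (hl : 0 < l) (p q : ℤ) :
    (((Finset.range l).filter fun s : ℕ => (p + (s : ℤ)) / (l : ℤ) ≠ (q + (s : ℤ)) / (l : ℤ)).card : ℤ)
      ≤ |p - q| := by
  rcases le_total p q with h | h
  · rw [abs_sub_comm, abs_of_nonneg (by linarith)]
    exact count_of_le hl h
  · rw [abs_of_nonneg (by linarith)]
    have := count_of_le hl h
    simp_rw [ne_comm] at this
    exact this

lemma count_fin_le {l : ℕ} (hl : 0 < l) (p q : ℤ) :
    (((Finset.univ : Finset (Fin l)).filter fun s : Fin l =>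
      (p + ((s : ℕ) : ℤ)) / (l : ℤ) ≠ (q + ((s : ℕ) : ℤ)) / (l : ℤ)).card : ℤ) ≤ |p - q| := by
  refine le_trans ?_ (count_le hl p q)
  rw [Finset.card_filter, Finset.card_filter, Finset.sum_range]

lemma card_coord {l : ℕ} (k : Fin 3) (Q : Fin l → Prop) [DecidablePred Q] :
    ((Finset.univ : Finset (Fin 3 → Fin l)).filter fun τ => Q (τ k)).card =
      l ^ 2 * ((Finset.univ : Finset (Fin l)).filter Q).card := by
  have h : ((Finset.univ : Finset (Fin 3 → Fin l)).filter fun τ => Q (τ k)) =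
      Fintype.piFinset fun i => if i = k then (Finset.univ : Finset (Fin l)).filter Q else
        Finset.univ := by
    ext τ
    simp only [Finset.mem_filter, Finset.mem_univ, true_and, Fintype.mem_piFinset]
    constructor
    · intro h i
      split_ifs with hi
      · subst hi; simpa using h
      · simp
    · intro h
      have := h k
      simpa using this
  rw [h, Fintype.card_piFinset, Fin.prod_univ_three]
  fin_cases k
  · simp only [Fin.zero_eta, if_true, if_neg (show ¬ (1 : Fin 3) = 0 by decide),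
      if_neg (show ¬ (2 : Fin 3) = 0 by decide), Finset.card_univ, Fintype.card_fin]
    ring
  · simp only [Fin.mk_one, if_true, if_neg (show ¬ (0 : Fin 3) = 1 by decide),
      if_neg (show ¬ (2 : Fin 3) = 1 by decide), Finset.card_univ, Fintype.card_fin]
    ring
  · simp only [Fin.reduceFinMk, if_true, if_neg (show ¬ (0 : Fin 3) = 2 by decide),
      if_neg (show ¬ (1 : Fin 3) = 2 by decide), Finset.card_univ, Fintype.card_fin]
    ring

/-- number of shifts separating two points -/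
lemma sep_card_le {l : ℕ} (hl : 0 < l) (x y : E3) :
    (((Finset.univ : Finset (Fin 3 → Fin l)).filter fun τ =>
      ¬ bigCell l τ x = bigCell l τ y).card : ℝ) ≤
        (l : ℝ) ^ 2 * ∑ k, |((cellZ x k - cellZ y k : ℤ) : ℝ)| := by
  classical
  have hsub : ((Finset.univ : Finset (Fin 3 → Fin l)).filter fun τ =>
      ¬ bigCell l τ x = bigCell l τ y) ⊆
      (Finset.univ : Finset (Fin 3)).biUnion fun k =>
        (Finset.univ : Finset (Fin 3 → Fin l)).filter fun τ =>
          (cellZ x k + (((τ k : Fin l) : ℕ) : ℤ)) / (l : ℤ) ≠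
            (cellZ y k + (((τ k : Fin l) : ℕ) : ℤ)) / (l : ℤ) := by
    intro τ hτ
    simp only [Finset.mem_filter, Finset.mem_univ, true_and] at hτ
    obtain ⟨k, hk⟩ := Function.ne_iff.1 hτ
    simp only [Finset.mem_biUnion, Finset.mem_univ, true_and, Finset.mem_filter]
    exact ⟨k, hk⟩
  have h1 := (Finset.card_le_card hsub).trans Finset.card_biUnion_le
  have h2 : ∀ k : Fin 3, (((Finset.univ : Finset (Fin 3 → Fin l)).filter fun τ =>
          (cellZ x k + (((τ k : Fin l) : ℕ) : ℤ)) / (l : ℤ) ≠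
            (cellZ y k + (((τ k : Fin l) : ℕ) : ℤ)) / (l : ℤ)).card : ℝ) ≤
      (l : ℝ) ^ 2 * |((cellZ x k - cellZ y k : ℤ) : ℝ)| := by
    intro k
    rw [card_coord k (fun s : Fin l => (cellZ x k + ((s : ℕ) : ℤ)) / (l : ℤ) ≠
            (cellZ y k + ((s : ℕ) : ℤ)) / (l : ℤ))]
    push_cast
    refine mul_le_mul_of_nonneg_left ?_ (by positivity)
    have := count_fin_le hl (cellZ x k) (cellZ y k)
    have h3 : ((((Finset.univ : Finset (Fin l)).filter fun s : Fin l =>
      (cellZ x k + ((s : ℕ) : ℤ)) / (l : ℤ) ≠ (cellZ y k + ((s : ℕ) : ℤ)) / (l : ℤ)).card : ℤ) : ℝ) ≤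
        ((|cellZ x k - cellZ y k| : ℤ) : ℝ) := by exact_mod_cast this
    push_cast at h3
    exact h3
  calc (((Finset.univ : Finset (Fin 3 → Fin l)).filter fun τ =>
      ¬ bigCell l τ x = bigCell l τ y).card : ℝ)
      ≤ ∑ k : Fin 3, (((Finset.univ : Finset (Fin 3 → Fin l)).filter fun τ =>
          (cellZ x k + (((τ k : Fin l) : ℕ) : ℤ)) / (l : ℤ) ≠
            (cellZ y k + (((τ k : Fin l) : ℕ) : ℤ)) / (l : ℤ)).card : ℝ) := by exact_mod_cast h1
    _ ≤ ∑ k : Fin 3, (l : ℝ) ^ 2 * |((cellZ x k - cellZ y k : ℤ) : ℝ)| :=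
        Finset.sum_le_sum fun k _ => h2 k
    _ = _ := by rw [Finset.mul_sum]

lemma coord_le_dist' (x y : E3) (k : Fin 3) : |x k - y k| ≤ dist x y := by
  rw [EuclideanSpace.dist_eq]
  apply Real.le_sqrt_of_sq_le
  rw [sq_abs]
  calc (x k - y k) ^ 2 = dist (x k) (y k) ^ 2 := by rw [Real.dist_eq, sq_abs]
    _ ≤ ∑ i, dist (x i) (y i) ^ 2 :=
      Finset.single_le_sum (f := fun i => dist (x i) (y i) ^ 2) (fun i _ => by positivity)
        (Finset.mem_univ k)

lemma cell_diff_le {x y : E3} {R : ℕ} (h : dist x y < R) (k : Fin 3) :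
    |cellZ x k - cellZ y k| ≤ (R : ℤ) := by
  have h1 := (coord_le_dist' x y k).trans_lt h
  rw [abs_lt] at h1
  have hx1 := Int.floor_le (x k)
  have hx2 := Int.lt_floor_add_one (x k)
  have hy1 := Int.floor_le (y k)
  have hy2 := Int.lt_floor_add_one (y k)
  unfold cellZ
  have h2 : (⌊x k⌋ : ℝ) - ⌊y k⌋ < (R : ℝ) + 1 := by linarith
  have h3 : (⌊y k⌋ : ℝ) - ⌊x k⌋ < (R : ℝ) + 1 := by linarith
  have h4 : ⌊x k⌋ - ⌊y k⌋ < (R : ℤ) + 1 := by exact_mod_cast h2
  have h5 : ⌊y k⌋ - ⌊x k⌋ < (R : ℤ) + 1 := by exact_mod_cast h3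
  rw [abs_le]
  omega

lemma sep_card_le' {l : ℕ} (hl : 0 < l) {x y : E3} {R : ℕ} (h : dist x y < R) :
    (((Finset.univ : Finset (Fin 3 → Fin l)).filter fun τ =>
      ¬ bigCell l τ x = bigCell l τ y).card : ℝ) ≤
        (l : ℝ) ^ 3 * min 1 (3 * (R : ℝ) / (l : ℝ)) := by
  have hl' : (0 : ℝ) < l := by exact_mod_cast hl
  rw [mul_min_of_nonneg _ _ (by positivity)]
  refine le_min ?_ ?_
  · have h1 : ((Finset.univ : Finset (Fin 3 → Fin l)).filter fun τ =>
      ¬ bigCell l τ x = bigCell l τ y).card ≤ l ^ 3 := by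
      refine (Finset.card_filter_le _ _).trans (le_of_eq ?_)
      rw [Finset.card_univ, Fintype.card_fun]
      simp
    rw [mul_one]
    exact_mod_cast h1
  · refine (sep_card_le hl x y).trans ?_
    have h1 : ∑ k, |((cellZ x k - cellZ y k : ℤ) : ℝ)| ≤ 3 * R := by
      calc ∑ k, |((cellZ x k - cellZ y k : ℤ) : ℝ)| ≤ ∑ _k : Fin 3, (R : ℝ) := by
            refine Finset.sum_le_sum fun k _ => ?_
            have := cell_diff_le h k
            exact_mod_cast this
        _ = _ := by simp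
    calc (l : ℝ) ^ 2 * ∑ k, |((cellZ x k - cellZ y k : ℤ) : ℝ)| ≤ (l : ℝ) ^ 2 * (3 * R) :=
          mul_le_mul_of_nonneg_left h1 (by positivity)
      _ = _ := by field_simp

end Vale.Agent.P171
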