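import Vale.Agent.P171.Limit

open MeasureTheory Filter Topology
open scoped ENNReal

namespace Vale.Agent.P171

/-- add `t` to the `n`-th coefficient -/
noncomputable def bump (a : ℕ → ℝ) (n : ℕ) (t : ℝ) : ℕ → ℝ := fun m => a m + if m = n then t else 0

lemma attr_bump {a : ℕ → ℝ} (ha : Adm a) (n : ℕ) (t d : ℝ) :
    attr (bump a n t) d = attr a d + t * ((rad n) ^ 3)⁻¹ * (if d < rad n then 1 else 0) := by
  unfold attr bump
  have h1 : ∀ m : ℕ, (a m + if m = n then t else 0) * ((rad m) ^ 3)⁻¹ *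
      (if d < rad m then (1 : ℝ) else 0) =
      a m * ((rad m) ^ 3)⁻¹ * (if d < rad m then 1 else 0) +
        (if m = n then t * ((rad n) ^ 3)⁻¹ * (if d < rad n then 1 else 0) else 0) := by
    intro m
    by_cases hm : m = n
    · subst hm
      simp only [if_true]
      ring
    · simp only [if_neg hm]
      ring
  simp_rw [h1]
  rw [Summable.tsum_add (attr_summable ha d) (by
    refine summable_of_ne_finset_zero (s := {n}) fun m hm => ?_
    rw [if_neg (by simpa using hm)])]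
  rw [tsum_ite_eq]

lemma kern_bump {a : ℕ → ℝ} (ha : Adm a) (n : ℕ) (t : ℝ) (x y : E3) :
    kern (bump a n t) x y =
      kern a x y + t / 2 * ((rad n) ^ 3)⁻¹ * (if dist x y < rad n then 1 else 0) := by
  unfold kern pot
  rw [attr_bump ha]
  ring

/-- the decoupled kernel -/
noncomputable def wLP (a : ℕ → ℝ) (l : ℕ) (u : ℝ) (x y : E3) : ℝ :=
  kern a x y + eta a l * sameCell x y + u / 2 / (l : ℝ) ^ 3

lemma bigCell_of_sameCell {l : ℕ} {τ : Fin 3 → Fin l} {x y : E3} (h : cellZ x = cellZ y) :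
    bigCell l τ x = bigCell l τ y := by
  unfold bigCell
  rw [h]

lemma rad_eq_cast (n : ℕ) : rad n = ((6 * (n + 1) : ℕ) : ℝ) := by
  unfold rad; push_cast; ring

lemma decouple {a : ℕ → ℝ} (ha : Adm a) {ι : Type} [Fintype ι] (x : ι → E3) (l : ℕ)
    (hl : 0 < l) (n : ℕ) (hn : l ≤ 6 * (n + 1)) {t : ℝ} (ht : 0 ≤ t) :
    ∃ τ : Fin 3 → Fin l, ∑ i, ∑ j, kern (bump a n t) (x i) (x j) ≤
      ∑ i, ∑ j, cutKern (bigCell l τ) (wLP a l (125 * t)) (x i) (x j) := by
  obtain ⟨τ, hτ⟩ := grid_average ha x l hl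
  refine ⟨τ, ?_⟩
  have h1 := near_count_big x (6 * (n + 1)) l hl hn τ
  rw [← rad_eq_cast] at h1
  have hr := rad_pos n
  have hl' : (0 : ℝ) < l := by exact_mod_cast hl
  have h2 : ∑ i, ∑ j, kern (bump a n t) (x i) (x j) =
      ∑ i, ∑ j, kern a (x i) (x j) + t / 2 * ((rad n) ^ 3)⁻¹ *
        ∑ i, ∑ j, (if dist (x i) (x j) < rad n then (1 : ℝ) else 0) := by
    simp_rw [kern_bump ha, Finset.sum_add_distrib, Finset.mul_sum]
  have h3 : ∑ i, ∑ j, cutKern (bigCell l τ) (wLP a l (125 * t)) (x i) (x j) =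
      ∑ i, ∑ j, (if bigCell l τ (x i) = bigCell l τ (x j) then kern a (x i) (x j) else 0) +
      eta a l * ∑ i, ∑ j, sameCell (x i) (x j) + 125 * t / 2 / (l : ℝ) ^ 3 *
        ∑ i, ∑ j, (if bigCell l τ (x i) = bigCell l τ (x j) then (1 : ℝ) else 0) := by
    simp_rw [Finset.mul_sum, ← Finset.sum_add_distrib]
    refine Finset.sum_congr rfl fun i _ => Finset.sum_congr rfl fun j _ => ?_
    unfold cutKern wLP
    by_cases hij : bigCell l τ (x i) = bigCell l τ (x j)
    · simp only [if_pos hij]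
      ring
    · simp only [if_neg hij]
      have : sameCell (x i) (x j) = 0 := by
        unfold sameCell
        rw [if_neg fun h => hij (bigCell_of_sameCell h)]
      rw [this]
      ring
  rw [h2, h3]
  have h4 : t / 2 * ((rad n) ^ 3)⁻¹ *
        ∑ i, ∑ j, (if dist (x i) (x j) < rad n then (1 : ℝ) else 0) ≤
      125 * t / 2 / (l : ℝ) ^ 3 *
        ∑ i, ∑ j, (if bigCell l τ (x i) = bigCell l τ (x j) then (1 : ℝ) else 0) := by
    calc _ ≤ t / 2 * ((rad n) ^ 3)⁻¹ * (125 * (rad n) ^ 3 / (l : ℝ) ^ 3 *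
        ∑ i, ∑ j, (if bigCell l τ (x i) = bigCell l τ (x j) then (1 : ℝ) else 0)) :=
          mul_le_mul_of_nonneg_left h1 (by positivity)
      _ = _ := by field_simp
  linarith

/-! ### Big cubes -/

/-- the half-open cube `[0,l)^3` -/
def cube0 (l : ℕ) : Set E3 := {x | ∀ k, x k ∈ Set.Ico (0 : ℝ) l}

lemma measurableSet_cube0 (l : ℕ) : MeasurableSet (cube0 l) :=
  measurableSet_pi_set fun _ => measurableSet_Ico

lemma volume_cube0 (l : ℕ) : volume (cube0 l) = ENNReal.ofReal ((l : ℝ) ^ 3) := by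
  unfold cube0
  rw [volume_pi_set fun _ => Set.Ico (0 : ℝ) l]
  simp [Real.volume_Ico]

/-- a cell of the shifted grid -/
def bigCube (l : ℕ) (τ : Fin 3 → Fin l) (v : Fin 3 → ℤ) : Set E3 := {x | bigCell l τ x = v}

lemma measurable_cellZ : Measurable cellZ := by
  refine measurable_pi_lambda _ fun k => ?_
  exact Int.measurable_floor.comp (measurable_coord k)

lemma measurable_bigCell (l : ℕ) (τ : Fin 3 → Fin l) : Measurable (bigCell l τ) := by
  refine measurable_pi_lambda _ fun k => ?_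
  have : Measurable fun m : ℤ => (m + ((τ k : ℕ) : ℤ)) / (l : ℤ) := measurable_from_top
  exact this.comp ((measurable_pi_apply k).comp measurable_cellZ)

lemma measurableSet_bigCube (l : ℕ) (τ : Fin 3 → Fin l) (v : Fin 3 → ℤ) :
    MeasurableSet (bigCube l τ v) := by
  have : bigCube l τ v = bigCell l τ ⁻¹' {v} := rfl
  rw [this]
  exact measurable_bigCell l τ (measurableSet_singleton v)

lemma measurable_sameCell : Measurable (Function.uncurry sameCell) := by
  unfold sameCell Function.uncurry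
  refine Measurable.ite ?_ measurable_const measurable_const
  exact measurableSet_eq_fun (measurable_cellZ.comp measurable_fst)
    (measurable_cellZ.comp measurable_snd)

lemma measurable_wLP {a : ℕ → ℝ} (ha : Adm a) (l : ℕ) (u : ℝ) :
    Measurable (Function.uncurry (wLP a l u)) := by
  unfold wLP
  exact ((measurable_kern ha).add (measurable_sameCell.const_mul _)).add_const _

/-- the translation that carries the cell `v` of the shifted grid to `[0,l)^3` -/
noncomputable def shiftVec (l : ℕ) (τ : Fin 3 → Fin l) (v : Fin 3 → ℤ) : E3 :=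
  vecOf fun k => ((((τ k : ℕ) : ℤ) - (l : ℤ) * v k : ℤ) : ℝ)

lemma cellZ_shift (l : ℕ) (τ : Fin 3 → Fin l) (v : Fin 3 → ℤ) (x : E3) :
    cellZ (x + shiftVec l τ v) = fun k => cellZ x k + (((τ k : ℕ) : ℤ) - (l : ℤ) * v k) := by
  funext k
  unfold cellZ shiftVec
  rw [PiLp.add_apply, vecOf_apply, Int.floor_add_intCast]

lemma wLP_translate (a : ℕ → ℝ) (l : ℕ) (u : ℝ) (τ : Fin 3 → Fin l) (v : Fin 3 → ℤ) (x y : E3) :
    wLP a l u (x + shiftVec l τ v) (y + shiftVec l τ v) = wLP a l u x y := by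
  unfold wLP sameCell
  rw [kern_translate, cellZ_shift, cellZ_shift]
  congr 3
  by_cases h : cellZ x = cellZ y
  · rw [if_pos h, if_pos (by rw [h])]
  · rw [if_neg h, if_neg]
    intro h'
    apply h
    funext k
    have := congrFun h' k
    simpa using this

lemma bigCube_eq {l : ℕ} (hl : 0 < l) (τ : Fin 3 → Fin l) (v : Fin 3 → ℤ) :
    bigCube l τ v = {x | x + shiftVec l τ v ∈ cube0 l} := by
  ext x
  unfold bigCube cube0
  simp only [Set.mem_ofPred_eq, funext_iff]
  refine forall_congr' fun k => ?_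
  unfold bigCell
  rw [PiLp.add_apply]
  unfold shiftVec
  rw [vecOf_apply]
  have hl' : (0 : ℤ) < l := by exact_mod_cast hl
  have e1 : (x k + ((((τ k : ℕ) : ℤ) - (l : ℤ) * v k : ℤ) : ℝ) ∈ Set.Ico (0 : ℝ) l) ↔
      (0 ≤ ⌊x k⌋ + (((τ k : ℕ) : ℤ) - (l : ℤ) * v k) ∧
        ⌊x k⌋ + (((τ k : ℕ) : ℤ) - (l : ℤ) * v k) < l) := by
    rw [← Int.floor_add_intCast, Set.mem_Ico, Int.floor_nonneg, Int.floor_lt]
    simp
  rw [e1]
  unfold cellZ
  constructor
  · intro h
    have h1 := Int.emod_add_mul_ediv (⌊x k⌋ + ((τ k : ℕ) : ℤ)) (l : ℤ)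
    have h2 := Int.emod_nonneg (⌊x k⌋ + ((τ k : ℕ) : ℤ)) hl'.ne'
    have h3 := Int.emod_lt_of_pos (⌊x k⌋ + ((τ k : ℕ) : ℤ)) hl'
    rw [h] at h1
    constructor <;> linarith
  · rintro ⟨h1, h2⟩
    apply le_antisymm
    · rw [← Int.lt_add_one_iff]
      apply Int.ediv_lt_of_lt_mul hl'
      linarith
    · apply Int.le_ediv_of_mul_le hl'
      linarith

lemma gG_bigCube {a : ℕ → ℝ} (ha : Adm a) {l : ℕ} (hl : 0 < l) (u : ℝ) (τ : Fin 3 → Fin l)
    (v : Fin 3 → ℤ) (z : ℝ≥0∞) :
    gG volume (bigCube l τ v) z (cutKern (bigCell l τ) (wLP a l u)) =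
      gG volume (cube0 l) z (wLP a l u) := by
  rw [gG_congr_kern volume (measurableSet_bigCube l τ v) z (w' := wLP a l u), bigCube_eq hl τ v]
  · exact gG_translate _ (measurableSet_cube0 l) z (measurable_wLP ha l u)
      (wLP_translate a l u τ v)
  · intro x hx y hy
    unfold cutKern
    rw [if_pos]
    exact (show bigCell l τ x = v from hx).trans (show bigCell l τ y = v from hy).symm

lemma gG_box_le {a : ℕ → ℝ} (ha : Adm a) {l : ℕ} (hl : 0 < l) (u : ℝ) (τ : Fin 3 → Fin l)
    (z : ℝ≥0∞) (k : ℕ) :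
    gG volume (box (k * l)) z (cutKern (bigCell l τ) (wLP a l u)) ≤
      gG volume (cube0 l) z (wLP a l u) ^ ((k + 1) ^ 3) := by
  classical
  set J : Finset (Fin 3 → ℤ) :=
    Fintype.piFinset fun _ => (Finset.range (k + 1)).map Nat.castEmbedding with hJ
  have hJcard : J.card = (k + 1) ^ 3 := by
    rw [hJ, Fintype.card_piFinset]
    simp
  have hprod := gG_biUnion volume J (bigCube l τ) (measurableSet_bigCube l τ) (by
      intro v v' hv
      rw [Set.disjoint_left]
      intro x hx hx'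
      exact hv ((show bigCell l τ x = v from hx).symm.trans hx')) z
    (measurable_cutKern (measurable_bigCell l τ) (measurable_wLP ha l u)) (by
      intro v v' hv x hx y hy
      unfold cutKern
      rw [if_neg]
      intro h
      exact hv ((show bigCell l τ x = v from hx).symm.trans (h.trans hy)))
  rw [Finset.prod_congr rfl fun v _ => gG_bigCube ha hl u τ v z, Finset.prod_const, hJcard] at hprod
  rw [← hprod]
  refine gG_mono_set volume ?_ _ _
  intro x hx
  simp only [Set.mem_iUnion]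
  refine ⟨bigCell l τ x, ?_, rfl⟩
  rw [hJ, Fintype.mem_piFinset]
  intro i
  have hl' : (0 : ℤ) < l := by exact_mod_cast hl
  have h1 : 0 ≤ ⌊x i⌋ := Int.floor_nonneg.2 (hx i).1
  have h2 : ⌊x i⌋ ≤ (k : ℤ) * l := by
    have : (⌊x i⌋ : ℝ) ≤ (((k : ℤ) * l : ℤ) : ℝ) := by
      push_cast
      exact (Int.floor_le _).trans (hx i).2
    exact_mod_cast this
  have h3 : 0 ≤ bigCell l τ x i := by
    unfold bigCell cellZ
    exact Int.ediv_nonneg (by positivity) hl'.le
  have h4 : bigCell l τ x i < k + 1 := by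
    unfold bigCell cellZ
    apply Int.ediv_lt_of_lt_mul hl'
    have : ((τ i : ℕ) : ℤ) < l := by exact_mod_cast (τ i).2
    linarith
  simp only [Finset.mem_map, Finset.mem_range, Nat.castEmbedding_apply]
  exact ⟨(bigCell l τ x i).toNat, by omega, by omega⟩

lemma Xi_bump_le {a : ℕ → ℝ} (ha : Adm a) (μ : ℝ) {l : ℕ} (hl : 0 < l) (n : ℕ)
    (hn : l ≤ 6 * (n + 1)) {t : ℝ} (ht : 0 ≤ t) (k : ℕ) :
    Xi (bump a n t) μ (k * l) ≤
      (l : ℝ≥0∞) ^ 3 * gG volume (cube0 l) (act μ) (wLP a l (125 * t)) ^ ((k + 1) ^ 3) := by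
  have h1 : Xi (bump a n t) μ (k * l) ≤
      ∑ τ : Fin 3 → Fin l, gG volume (box (k * l)) (act μ)
        (cutKern (bigCell l τ) (wLP a l (125 * t))) := by
    unfold Xi gG
    rw [← Summable.tsum_finsetSum (fun _ _ => ENNReal.summable)]
    refine ENNReal.tsum_le_tsum fun N => ?_
    rw [← Finset.mul_sum]
    refine mul_le_mul_right ?_ _
    unfold cI
    rw [← lintegral_finsetSum _ (fun τ _ => measurable_bw
      (measurable_cutKern (measurable_bigCell l τ) (measurable_wLP ha l _)))]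
    refine setLIntegral_mono' (measurableSet_allIn (measurableSet_box _)) fun x _ => ?_
    obtain ⟨τ, hτ⟩ := decouple ha x l hl n hn ht
    refine le_trans ?_ (Finset.single_le_sum
      (f := fun τ => bw (cutKern (bigCell l τ) (wLP a l (125 * t))) x)
      (fun _ _ => bot_le) (Finset.mem_univ τ))
    unfold bw
    exact ENNReal.ofReal_le_ofReal (Real.exp_le_exp.2 hτ)
  refine h1.trans ?_
  calc ∑ τ : Fin 3 → Fin l, gG volume (box (k * l)) (act μ)
        (cutKern (bigCell l τ) (wLP a l (125 * t)))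
      ≤ ∑ τ : Fin 3 → Fin l, gG volume (cube0 l) (act μ) (wLP a l (125 * t)) ^ ((k + 1) ^ 3) :=
        Finset.sum_le_sum fun τ _ => gG_box_le ha hl _ τ _ k
    _ = _ := by
        rw [Finset.sum_const, Finset.card_univ, Fintype.card_fun]
        simp

end Vale.Agent.P171
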