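import Vale.Agent.P171.Cell

open MeasureTheory Filter Topology
open scoped ENNReal

namespace Vale.Agent.P171

/-- A bound of `Xi b μ (k l)` by `l^3 Y^((k+1)^3)` for all `k` bounds the pressure. -/
lemma press_le_of_cells {b : ℕ → ℝ} (hb : Adm b) (μ : ℝ) {l : ℕ} (hl : 0 < l) {Y : ℝ} (hY : 1 ≤ Y)
    (h : ∀ k : ℕ, Xi b μ (k * l) ≤ (l : ℝ≥0∞) ^ 3 * ENNReal.ofReal Y ^ ((k + 1) ^ 3)) :
    press b μ ≤ ((l : ℝ) ^ 3)⁻¹ * Real.log Y := by
  have hl' : (0 : ℝ) < l := by exact_mod_cast hl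
  have ht1 : Tendsto (fun k : ℕ => (k : ℝ) * l) atTop atTop :=
    Tendsto.atTop_mul_const hl' tendsto_natCast_atTop_atTop
  have ht2 := (tendsto_press hb μ).comp ht1
  have ht3 : Tendsto (fun k : ℕ => ((l : ℝ) ^ 3)⁻¹ * (3 * Real.log l) * ((k : ℝ)⁻¹) ^ 3 +
      ((l : ℝ) ^ 3)⁻¹ * Real.log Y * (1 + (k : ℝ)⁻¹) ^ 3) atTop
      (𝓝 (((l : ℝ) ^ 3)⁻¹ * (3 * Real.log l) * 0 ^ 3 + ((l : ℝ) ^ 3)⁻¹ * Real.log Y * (1 + 0) ^ 3)) := by
    have h0 : Tendsto (fun k : ℕ => (k : ℝ)⁻¹) atTop (𝓝 0) :=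
      tendsto_inv_atTop_zero.comp tendsto_natCast_atTop_atTop
    exact ((h0.pow 3).const_mul _).add (((tendsto_const_nhds.add h0).pow 3).const_mul _)
  have hlim : ((l : ℝ) ^ 3)⁻¹ * (3 * Real.log l) * 0 ^ 3 +
      ((l : ℝ) ^ 3)⁻¹ * Real.log Y * (1 + 0) ^ 3 = ((l : ℝ) ^ 3)⁻¹ * Real.log Y := by ring
  rw [hlim] at ht3
  refine le_of_tendsto_of_tendsto ht2 ht3 ?_
  filter_upwards [eventually_gt_atTop 0] with k hk
  have hk' : (0 : ℝ) < k := by exact_mod_cast hk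
  have h1 := ENNReal.toReal_mono (by
    refine ENNReal.mul_ne_top (ENNReal.pow_ne_top (ENNReal.natCast_ne_top _))
      (ENNReal.pow_ne_top ENNReal.ofReal_ne_top)) (h k)
  rw [ENNReal.toReal_mul, ENNReal.toReal_pow, ENNReal.toReal_pow, ENNReal.toReal_natCast,
    ENNReal.toReal_ofReal (by linarith)] at h1
  have h2 : Real.log (Xi b μ (k * l)).toReal ≤ Real.log ((l : ℝ) ^ 3 * Y ^ ((k + 1) ^ 3)) :=
    Real.log_le_log (by linarith [one_le_Xi_toReal hb μ (k * l)]) h1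
  rw [Real.log_mul (by positivity) (by positivity), Real.log_pow, Real.log_pow] at h2
  push_cast at h2
  show (((k : ℝ) * l) ^ 3)⁻¹ * Real.log (Xi b μ (k * l)).toReal ≤ _
  calc (((k : ℝ) * l) ^ 3)⁻¹ * Real.log (Xi b μ (k * l)).toReal
      ≤ (((k : ℝ) * l) ^ 3)⁻¹ * (3 * Real.log l + ((k : ℝ) + 1) ^ 3 * Real.log Y) :=
        mul_le_mul_of_nonneg_left h2 (by positivity)
    _ = _ := by field_simp

theorem LP_bound {a : ℕ → ℝ} (ha : Adm a) {μ ρ h₀ t : ℝ} (hρ : 0 ≤ ρ) (hh₀ : 0 < h₀) (ht : 0 < t)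
    (hpress : ∀ h, 0 ≤ h → h ≤ h₀ → press a (μ + h) ≤ press a μ + ρ * h)
    (hu : 125 * t ≤ 1 / 2) (hKu : 125 * t * √(2 * Real.exp (μ + ampA / 2)) ≤ h₀)
    (hb : ∀ n, Adm (bump a n t)) {θ : ℝ} (hθ : 0 < θ) :
    ∀ᶠ n in atTop, press (bump a n t) μ ≤ press a μ + 125 * t / 2 * ρ ^ 2 + θ := by
  set K := 2 * Real.exp (μ + ampA / 2) with hK
  have hK0 : 0 ≤ K := by rw [hK]; positivity
  set u := 125 * t with hudef
  have hu0 : 0 < u := by rw [hudef]; positivity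
  set P := press a μ with hP
  have hP0 : 0 ≤ P := press_nonneg ha μ
  -- the error terms tend to zero
  have hinv : Tendsto (fun l : ℕ => (l : ℝ)⁻¹) atTop (𝓝 0) :=
    tendsto_inv_atTop_zero.comp tendsto_natCast_atTop_atTop
  have hlog : Tendsto (fun l : ℕ => ((l : ℝ) ^ 3)⁻¹ * Real.log (√K * (l : ℝ) ^ 3 + 2)) atTop
      (𝓝 0) := by
    have h1 : Tendsto (fun x : ℝ => Real.log x / x) atTop (𝓝 0) := by
      simpa using Real.tendsto_pow_log_div_mul_add_atTop 1 0 1 one_ne_zero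
    have h2 : Tendsto (fun l : ℕ => √K * (l : ℝ) ^ 3 + 2) atTop atTop := by
      refine tendsto_atTop_add_const_right _ _ ?_
      refine Tendsto.const_mul_atTop ?_ ?_
      · rw [Real.sqrt_pos, hK]; positivity
      · exact (tendsto_pow_atTop (by norm_num)).comp tendsto_natCast_atTop_atTop
    have h3 := h1.comp h2
    have h4 : Tendsto (fun l : ℕ => √K + 2 * ((l : ℝ)⁻¹) ^ 3) atTop (𝓝 (√K + 2 * 0 ^ 3)) :=
      tendsto_const_nhds.add ((hinv.pow 3).const_mul 2)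
    have h5 := h3.mul h4
    rw [zero_mul] at h5
    refine h5.congr' ?_
    filter_upwards [eventually_gt_atTop 0] with l hl
    have hl' : (0 : ℝ) < l := by exact_mod_cast hl
    have hpos : 0 < √K * (l : ℝ) ^ 3 + 2 := by positivity
    simp only [Function.comp]
    field_simp
  have hg : Tendsto (fun l : ℕ => ((l : ℝ) ^ 3)⁻¹ * Real.log (√K * (l : ℝ) ^ 3 + 2) +
      (eta a l * K + u / 2 * ρ ^ 2 + P) + ((1 + 2 * (l : ℝ)⁻¹) ^ 3 - 1) * (P + ρ * h₀)) atTop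
      (𝓝 (0 + (0 * K + u / 2 * ρ ^ 2 + P) + ((1 + 2 * 0) ^ 3 - 1) * (P + ρ * h₀))) := by
    refine (hlog.add ?_).add ?_
    · exact (((eta_tendsto ha).mul_const K).add_const _).add_const _
    · exact ((((hinv.const_mul 2).const_add 1).pow 3).sub_const 1).mul_const _
  have hlim : 0 + (0 * K + u / 2 * ρ ^ 2 + P) + ((1 + 2 * 0) ^ 3 - 1) * (P + ρ * h₀) <
      P + u / 2 * ρ ^ 2 + θ := by linarith
  have hev1 := (tendsto_order.1 hg).2 _ hlim
  have hev2 := (tendsto_order.1 (eta_tendsto ha)).2 (1 / 4) (by norm_num)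
  obtain ⟨l, ⟨hl1, hl2⟩, hl3⟩ := ((hev1.and hev2).and (eventually_gt_atTop 0)).exists
  have hl' : (0 : ℝ) < l := by exact_mod_cast hl3
  filter_upwards [eventually_ge_atTop l] with n hn
  have hsmall : eta a l + u / 2 ≤ 1 / 2 := by linarith
  have hcell := cell_estimate ha hρ hu0 hK hh₀.le hpress hKu hl3 hsmall
  have hQ0 : 0 ≤ Qexp (eta a l) K u ρ P h₀ l := by
    unfold Qexp
    have h1 := eta_nonneg ha l
    have h3 : (0 : ℝ) ≤ ((l : ℝ) + 2) ^ 3 - (l : ℝ) ^ 3 := by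
      have : (l : ℝ) ^ 3 ≤ ((l : ℝ) + 2) ^ 3 := by gcongr; linarith
      linarith
    positivity
  have hY : 1 ≤ (√K * (l : ℝ) ^ 3 + 2) * Real.exp (Qexp (eta a l) K u ρ P h₀ l) := by
    have h1 : 1 ≤ Real.exp (Qexp (eta a l) K u ρ P h₀ l) := Real.one_le_exp hQ0
    have h2 : (1 : ℝ) ≤ √K * (l : ℝ) ^ 3 + 2 := by
      have : 0 ≤ √K * (l : ℝ) ^ 3 := by positivity
      linarith
    nlinarith
  have hfin := press_le_of_cells (hb n) μ hl3 hY (fun k => by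
    refine (Xi_bump_le ha μ hl3 n (by omega) ht.le k).trans ?_
    gcongr)
  refine hfin.trans ?_
  rw [Real.log_mul (by positivity) (Real.exp_ne_zero _), Real.log_exp]
  refine le_of_eq_of_le ?_ hl1.le
  unfold Qexp
  field_simp
  ring

end Vale.Agent.P171
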