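import Vale.Agent.P171.Thermo

open MeasureTheory Filter Topology
open scoped ENNReal

namespace Vale.Agent.P171

lemma press_bdd {a : ℕ → ℝ} (ha : Adm a) (μ : ℝ) :
    BddAbove (Set.range fun l : ℕ => Real.log (Xi a μ l).toReal / ((l : ℝ) + 2) ^ 3) := by
  refine ⟨Real.exp (μ + ampA / 2), ?_⟩
  rintro _ ⟨l, rfl⟩
  have hl : (0 : ℝ) ≤ l := l.cast_nonneg
  have h1 := logXi_le ha μ hl
  show Real.log (Xi a μ l).toReal / ((l : ℝ) + 2) ^ 3 ≤ _
  rw [div_le_iff₀ (by positivity)]
  refine h1.trans ?_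
  refine mul_le_mul_of_nonneg_left ?_ (Real.exp_nonneg _)
  gcongr
  linarith

lemma logXi_le_press {a : ℕ → ℝ} (ha : Adm a) (μ : ℝ) (l : ℕ) :
    Real.log (Xi a μ l).toReal ≤ ((l : ℝ) + 2) ^ 3 * press a μ := by
  have h := le_ciSup (press_bdd ha μ) l
  have hl : (0 : ℝ) ≤ l := l.cast_nonneg
  rw [div_le_iff₀ (by positivity)] at h
  rw [mul_comm]
  exact h

lemma press_nonneg {a : ℕ → ℝ} (ha : Adm a) (μ : ℝ) : 0 ≤ press a μ := by
  have h := le_ciSup (press_bdd ha μ) 0
  refine le_trans ?_ h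
  have := logXi_nonneg ha μ (0 : ℕ)
  positivity

lemma logXi_superadd {a : ℕ → ℝ} (ha : Adm a) (μ : ℝ) (l k : ℕ) {L : ℝ}
    (hL : (k : ℝ) * ((l : ℝ) + 2) ≤ L) :
    (k : ℝ) ^ 3 * Real.log (Xi a μ l).toReal ≤ Real.log (Xi a μ L).toReal := by
  have h1 := superadditive ha μ (l := (l : ℝ)) l.cast_nonneg k
  have h2 := ENNReal.toReal_mono (Xi_ne_top ha μ _) h1
  rw [ENNReal.toReal_pow] at h2
  have h3 := one_le_Xi_toReal ha μ (l : ℝ)
  have h4 : Real.log ((Xi a μ l).toReal ^ (k ^ 3)) ≤ Real.log (Xi a μ (k * ((l : ℝ) + 2))).toReal :=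
    Real.log_le_log (by positivity) h2
  rw [Real.log_pow] at h4
  push_cast at h4
  exact h4.trans (logXi_mono ha μ hL)

/-- The thermodynamic limit exists. -/
theorem tendsto_press {a : ℕ → ℝ} (ha : Adm a) (μ : ℝ) :
    Tendsto (fun L : ℝ => (L ^ 3)⁻¹ * Real.log (Xi a μ L).toReal) atTop (𝓝 (press a μ)) := by
  rw [tendsto_order]
  constructor
  · intro c hc
    obtain ⟨l, hl⟩ := exists_lt_of_lt_ciSup hc
    have hl2 : (0 : ℝ) < (l : ℝ) + 2 := by positivity
    have ht : Tendsto (fun L : ℝ => ((⌊((l : ℝ) + 2)⁻¹ * L⌋₊ : ℝ) / L) ^ 3 *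
        Real.log (Xi a μ l).toReal) atTop
        (𝓝 ((((l : ℝ) + 2)⁻¹) ^ 3 * Real.log (Xi a μ l).toReal)) :=
      ((tendsto_nat_floor_mul_div_atTop (inv_nonneg.2 hl2.le)).pow 3).mul_const _
    have hlim : c < (((l : ℝ) + 2)⁻¹) ^ 3 * Real.log (Xi a μ l).toReal := by
      rw [inv_pow, inv_mul_eq_div]
      exact hl
    filter_upwards [(tendsto_order.1 ht).1 c hlim, eventually_gt_atTop 0] with L hL hL0
    refine hL.trans_le ?_
    have h5 : (⌊((l : ℝ) + 2)⁻¹ * L⌋₊ : ℝ) * ((l : ℝ) + 2) ≤ L := by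
      have := Nat.floor_le (a := ((l : ℝ) + 2)⁻¹ * L) (by positivity)
      calc (⌊((l : ℝ) + 2)⁻¹ * L⌋₊ : ℝ) * ((l : ℝ) + 2) ≤ (((l : ℝ) + 2)⁻¹ * L) * ((l : ℝ) + 2) :=
            mul_le_mul_of_nonneg_right this hl2.le
        _ = L := by field_simp
    have h6 := logXi_superadd ha μ l _ h5
    rw [div_pow, div_mul_eq_mul_div, div_eq_inv_mul]
    exact mul_le_mul_of_nonneg_left h6 (by positivity)
  · intro c hc
    have ht : Tendsto (fun L : ℝ => (1 + 3 / L) ^ 3 * press a μ) atTop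
        (𝓝 ((1 + 0) ^ 3 * press a μ)) :=
      ((tendsto_const_nhds.add (tendsto_const_nhds.div_atTop tendsto_id)).pow 3).mul_const _
    have hlim : (1 + 0) ^ 3 * press a μ < c := by simpa using hc
    filter_upwards [(tendsto_order.1 ht).2 c hlim, eventually_gt_atTop 0] with L hL hL0
    refine lt_of_le_of_lt ?_ hL
    have h1 : Real.log (Xi a μ L).toReal ≤ Real.log (Xi a μ (⌈L⌉₊ : ℕ)).toReal :=
      logXi_mono ha μ (Nat.le_ceil L)
    have h2 := logXi_le_press ha μ ⌈L⌉₊
    have h3 : (⌈L⌉₊ : ℝ) + 2 ≤ L + 3 := by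
      have := Nat.ceil_lt_add_one hL0.le
      linarith
    have h4 : ((⌈L⌉₊ : ℝ) + 2) ^ 3 ≤ (L + 3) ^ 3 := by gcongr
    have h5 : (1 + 3 / L) ^ 3 = (L ^ 3)⁻¹ * (L + 3) ^ 3 := by
      field_simp
    rw [h5, mul_assoc]
    refine mul_le_mul_of_nonneg_left ?_ (by positivity)
    exact (h1.trans h2).trans (mul_le_mul_of_nonneg_right h4 (press_nonneg ha μ))

lemma adm_zero : Adm (fun _ => 0) where
  nonneg := fun _ => le_refl _
  summable := summable_zero
  le := by simp [aStar]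

/-- At zero attraction and chemical potential `0` the pressure is at most one. -/
lemma press_zero_le : press (fun _ => 0) 0 ≤ 1 := by
  refine ciSup_le fun l => ?_
  have hl : (0 : ℝ) ≤ l := l.cast_nonneg
  rw [div_le_one (by positivity)]
  have hXi : Xi (fun _ => 0) 0 l ≤ ENNReal.ofReal (Real.exp ((l : ℝ) ^ 3)) := by
    unfold Xi gG
    rw [← tsum_exp ((l : ℝ) ^ 3) (by positivity)]
    refine ENNReal.tsum_le_tsum fun N => ?_
    have h1 : cI volume (Fin N) (box l) (kern fun _ => 0) ≤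
        ENNReal.ofReal (Real.exp (-(N * (ampA / 2)))) * ENNReal.ofReal ((l : ℝ) ^ 3) ^ N := by
      have := cI_le volume (Fin N) (measurableSet_box l) (w := kern fun _ => 0)
        (c := -(N * (ampA / 2))) ?_
      · rw [volume_box hl] at this
        simpa using this
      · intro x _
        have hA : 0 < ampA := by unfold ampA aStar; norm_num
        have hk : ∀ x y : E3, kern (fun _ => 0) x y = -(ampA / 2) * (if dist x y < 2 then 1 else 0) := by
          intro x y
          unfold kern pot attr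
          split_ifs <;> simp <;> ring
        simp_rw [hk]
        calc ∑ i, ∑ j, -(ampA / 2) * (if dist (x i) (x j) < 2 then (1 : ℝ) else 0)
            ≤ ∑ i : Fin N, -(ampA / 2) := by
              refine Finset.sum_le_sum fun i _ => ?_
              rw [← Finset.mul_sum]
              have : (1 : ℝ) ≤ ∑ j, (if dist (x i) (x j) < 2 then (1 : ℝ) else 0) := by
                refine le_trans ?_ (Finset.single_le_sum (f := fun j =>
                  (if dist (x i) (x j) < 2 then (1 : ℝ) else 0)) (fun j _ => by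
                    split_ifs <;> norm_num) (Finset.mem_univ i))
                simp
              nlinarith
          _ = _ := by simp
    have h2 : act 0 ^ N = ENNReal.ofReal (Real.exp (N * (ampA / 2))) := by
      unfold act
      rw [← ENNReal.ofReal_pow (Real.exp_nonneg _), ← Real.exp_nat_mul]
      congr 2
      ring
    calc act 0 ^ N * (N.factorial : ℝ≥0∞)⁻¹ * cI volume (Fin N) (box l) (kern fun _ => 0)
        ≤ act 0 ^ N * (N.factorial : ℝ≥0∞)⁻¹ *
          (ENNReal.ofReal (Real.exp (-(N * (ampA / 2)))) * ENNReal.ofReal ((l : ℝ) ^ 3) ^ N) := by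
          gcongr
      _ = (ENNReal.ofReal (Real.exp (N * (ampA / 2))) *
            ENNReal.ofReal (Real.exp (-(N * (ampA / 2))))) *
          (ENNReal.ofReal ((l : ℝ) ^ 3) ^ N * (N.factorial : ℝ≥0∞)⁻¹) := by
          rw [h2]; ring
      _ = _ := by
          rw [← ENNReal.ofReal_mul (Real.exp_nonneg _), ← Real.exp_add]
          simp
  have h3 := ENNReal.toReal_mono ENNReal.ofReal_ne_top hXi
  rw [ENNReal.toReal_ofReal (Real.exp_nonneg _)] at h3
  have h4 : Real.log (Xi (fun _ => 0) 0 l).toReal ≤ (l : ℝ) ^ 3 := by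
    rw [← Real.log_exp ((l : ℝ) ^ 3)]
    exact Real.log_le_log (by linarith [one_le_Xi_toReal adm_zero 0 (l : ℝ)]) h3
  refine h4.trans ?_
  gcongr
  linarith

end Vale.Agent.P171
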