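import Vale.Agent.P171.Statement
import Vale.Agent.P171.Factor

open MeasureTheory Filter Topology
open scoped ENNReal

namespace Vale.Agent.P171

/-! The model: `pot a r = ampA * 1[r<2] - ∑_n a_n (rad n)^{-3} 1[r < rad n]`,
`kern a x y = -(1/2) * pot a |x-y|`. -/

/-- range of the `n`-th attractive term -/
noncomputable def rad (n : ℕ) : ℝ := 6 * ((n : ℝ) + 1)

/-- the small density `10^{-6}` -/
noncomputable def rhoB : ℝ := 1 / 1000000

/-- bound on the total attraction, `1728 / rhoB` -/
noncomputable def aStar : ℝ := 1728000000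

/-- strength of the repulsion -/
noncomputable def ampA : ℝ := 27 * aStar + 2

/-- the attractive part of the potential -/
noncomputable def attr (a : ℕ → ℝ) (d : ℝ) : ℝ :=
  ∑' n : ℕ, a n * ((rad n) ^ 3)⁻¹ * (if d < rad n then 1 else 0)

/-- the pair potential -/
noncomputable def pot (a : ℕ → ℝ) (d : ℝ) : ℝ :=
  ampA * (if d < 2 then 1 else 0) - attr a d

/-- the kernel in the exponent -/
noncomputable def kern (a : ℕ → ℝ) (x y : E3) : ℝ := -(1 / 2) * pot a (dist x y)

/-- admissible coefficient sequences -/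
structure Adm (a : ℕ → ℝ) : Prop where
  nonneg : ∀ n, 0 ≤ a n
  summable : Summable a
  le : ∑' n, a n ≤ aStar

/-- unit cell of a point -/
noncomputable def cellZ (x : E3) : Fin 3 → ℤ := fun k => ⌊x k⌋

/-- indicator of lying in the same unit cell -/
noncomputable def sameCell (x y : E3) : ℝ := if cellZ x = cellZ y then 1 else 0

/-- index of the cube of side `l` containing `x`, for the grid shifted by `τ` -/
noncomputable def bigCell (l : ℕ) (τ : Fin 3 → Fin l) (x : E3) : Fin 3 → ℤ :=
  fun k => (cellZ x k + ((τ k : ℕ) : ℤ)) / (l : ℤ)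

/-- error of the grid averaging -/
noncomputable def eta (a : ℕ → ℝ) (l : ℕ) : ℝ :=
  27 / 2 * ∑' n : ℕ, a n * min 1 (3 * rad n / (l : ℝ))

/-- activity -/
noncomputable def act (μ : ℝ) : ℝ≥0∞ := ENNReal.ofReal (Real.exp (μ + ampA / 2))

/-- grand canonical partition function in the cube `[0,L]^3` -/
noncomputable def Xi (a : ℕ → ℝ) (μ L : ℝ) : ℝ≥0∞ := gG volume (box L) (act μ) (kern a)

/-- the pressure -/
noncomputable def press (a : ℕ → ℝ) (μ : ℝ) : ℝ :=
  ⨆ l : ℕ, Real.log (Xi a μ l).toReal / ((l : ℝ) + 2) ^ 3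

end Vale.Agent.P171
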