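import Mathlib

open MeasureTheory Filter Topology

namespace Vale.Agent.P171

/-- Three-dimensional Euclidean space (with the Euclidean norm). -/
abbrev E3 : Type := EuclideanSpace ℝ (Fin 3)

/-- `U_N(x_1,…,x_N) = ∑_{i<j} φ(|x_i - x_j|)`. -/
noncomputable def pairEnergy (φ : ℝ → ℝ) {N : ℕ} (x : Fin N → E3) : ℝ :=
  ∑ i : Fin N, ∑ j ∈ Finset.Ioi i, φ (dist (x i) (x j))

/-- Borel measurable and locally bounded on `(0,∞)`. -/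
def IsPairPotential (φ : ℝ → ℝ) : Prop :=
  Measurable φ ∧ ∀ a b : ℝ, 0 < a → ∃ M : ℝ, ∀ r ∈ Set.Icc a b, |φ r| ≤ M

/-- Stability: `U_N ≥ -B N` for all `N` and all configurations of distinct points. -/
def IsStable (φ : ℝ → ℝ) : Prop :=
  ∃ B : ℝ, ∀ (N : ℕ) (x : Fin N → E3), Function.Injective x → -(B * N) ≤ pairEnergy φ x

/-- Temperedness: `φ(r) ≤ C r^{-3-ε}` for all `r ≥ R₀`. -/
def IsTempered (φ : ℝ → ℝ) : Prop :=
  ∃ C ε R₀ : ℝ, 0 < C ∧ 0 < ε ∧ 0 < R₀ ∧ ∀ r : ℝ, R₀ ≤ r → φ r ≤ C * r ^ (-3 - ε)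

/-- The cube `Λ_L = [0,L]^3`. -/
def box (L : ℝ) : Set E3 := {x | ∀ k, x k ∈ Set.Icc 0 L}

/-- `Z_{L,N}(β) = (1/N!) ∫_{Λ_L^N} exp(-β U_N)`. -/
noncomputable def canonicalZ (φ : ℝ → ℝ) (β L : ℝ) (N : ℕ) : ℝ :=
  (N.factorial : ℝ)⁻¹ *
    ∫ x in {x : Fin N → E3 | ∀ i, x i ∈ box L}, Real.exp (-β * pairEnergy φ x)

/-- `∑_{N ≥ 0} z^N Z_{L,N}(β)`. -/
noncomputable def grandZ (φ : ℝ → ℝ) (β z L : ℝ) : ℝ :=
  ∑' N : ℕ, z ^ N * canonicalZ φ β L N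

/-- All the integrals and the series defining the grand canonical partition function converge. -/
def PartitionFunctionsConverge (φ : ℝ → ℝ) (β : ℝ) : Prop :=
  ∀ L : ℝ, 0 < L →
    (∀ N : ℕ, IntegrableOn (fun x : Fin N → E3 => Real.exp (-β * pairEnergy φ x))
      {x | ∀ i, x i ∈ box L}) ∧
    ∀ z : ℝ, 0 < z → Summable fun N : ℕ => z ^ N * canonicalZ φ β L N

/-- `P z = lim_{L → ∞} L^{-3} log ∑_N z^N Z_{L,N}(β)` for every `z > 0`. -/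
def IsPressure (φ : ℝ → ℝ) (β : ℝ) (P : ℝ → ℝ) : Prop :=
  ∀ z : ℝ, 0 < z →
    Tendsto (fun L : ℝ => (L ^ 3)⁻¹ * Real.log (grandZ φ β z L)) atTop (𝓝 (P z))

/-- The statement handed in (clause (a) of the definition of a phase transition). -/
def MainStatement : Prop :=
  ∃ φ : ℝ → ℝ, IsPairPotential φ ∧ IsStable φ ∧ IsTempered φ ∧
    ∃ β : ℝ, 0 < β ∧ PartitionFunctionsConverge φ β ∧
      ∃ P : ℝ → ℝ, IsPressure φ β P ∧ ∃ z₀ : ℝ, 0 < z₀ ∧ ¬ DifferentiableAt ℝ P z₀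

end Vale.Agent.P171
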