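import Vale.Agent.P171.Convert

open MeasureTheory Filter Topology
open scoped ENNReal

namespace Vale.Agent.P171

lemma lintegral_attr_lt_top {a : ℕ → ℝ} (ha : Adm a) :
    ∫⁻ x : E3, ENNReal.ofReal (attr a ‖x‖) < ⊤ := by
  have h1 : ∀ x : E3, ENNReal.ofReal (attr a ‖x‖) =
      ∑' n, ENNReal.ofReal (a n * ((rad n) ^ 3)⁻¹) * (Metric.ball (0 : E3) (rad n)).indicator 1 x := by
    intro x
    unfold attr
    rw [ENNReal.ofReal_tsum_of_nonneg (attr_term_nonneg ha ‖x‖) (attr_summable ha ‖x‖)]
    refine tsum_congr fun n => ?_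
    by_cases h : ‖x‖ < rad n
    · rw [if_pos h, Set.indicator_of_mem (by simpa using h)]
      simp
    · rw [if_neg h, Set.indicator_of_notMem (by simpa using h)]
      simp
  simp_rw [h1]
  rw [lintegral_tsum (f := fun n (x : E3) => ENNReal.ofReal (a n * ((rad n) ^ 3)⁻¹) *
    (Metric.ball (0 : E3) (rad n)).indicator 1 x) (fun n =>
      ((measurable_one.indicator Metric.isOpen_ball.measurableSet).const_mul _).aemeasurable)]
  have h2 : ∀ n, ∫⁻ x : E3, ENNReal.ofReal (a n * ((rad n) ^ 3)⁻¹) *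
      (Metric.ball (0 : E3) (rad n)).indicator 1 x ≤
      ENNReal.ofReal (a n) * volume (Metric.ball (0 : E3) 1) := by
    intro n
    have hr := rad_pos n
    rw [lintegral_const_mul _ (measurable_one.indicator Metric.isOpen_ball.measurableSet),
      lintegral_indicator_one Metric.isOpen_ball.measurableSet,
      Measure.addHaar_ball volume (0 : E3) hr.le, ← mul_assoc,
      ← ENNReal.ofReal_mul (by have := ha.nonneg n; positivity)]
    refine mul_le_mul_left ?_ _
    refine ENNReal.ofReal_le_ofReal (le_of_eq ?_)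
    rw [show Module.finrank ℝ E3 = 3 by simp [E3]]
    field_simp
  refine lt_of_le_of_lt (ENNReal.tsum_le_tsum h2) ?_
  rw [ENNReal.tsum_mul_right, ← ENNReal.ofReal_tsum_of_nonneg ha.nonneg ha.summable]
  exact ENNReal.mul_lt_top ENNReal.ofReal_lt_top measure_ball_lt_top

lemma integrable_attr {a : ℕ → ℝ} (ha : Adm a) : Integrable fun x : E3 => attr a ‖x‖ := by
  refine ⟨((attr_antitone ha).measurable.comp measurable_norm).aestronglyMeasurable, ?_⟩
  rw [hasFiniteIntegral_iff_ofReal (Eventually.of_forall fun x => attr_nonneg ha _)]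
  exact lintegral_attr_lt_top ha

lemma integrable_pot {a : ℕ → ℝ} (ha : Adm a) : Integrable fun x : E3 => pot a ‖x‖ := by
  unfold pot
  refine Integrable.sub (Integrable.const_mul ?_ _) (integrable_attr ha)
  have h : (fun x : E3 => if ‖x‖ < 2 then (1 : ℝ) else 0) =
      (Metric.ball (0 : E3) 2).indicator fun _ => (1 : ℝ) := by
    funext x
    by_cases h : ‖x‖ < 2
    · rw [if_pos h, Set.indicator_of_mem (by simpa using h)]
    · rw [if_neg h, Set.indicator_of_notMem (by simpa using h)]
  rw [h, integrable_indicator_iff Metric.isOpen_ball.measurableSet]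
  exact integrableOn_const measure_ball_lt_top.ne

theorem mainStrong :
    ∃ φ : ℝ → ℝ, IsPairPotential φ ∧ IsStable φ ∧ IsTempered φ ∧
      (∃ M : ℝ, ∀ r : ℝ, |φ r| ≤ M) ∧ Integrable (fun x : E3 => φ ‖x‖) ∧
      (∀ r : ℝ, 2 ≤ r → φ r ≤ 0) ∧
      ∃ β : ℝ, 0 < β ∧ PartitionFunctionsConverge φ β ∧
        ∃ P : ℝ → ℝ, IsPressure φ β P ∧ ∃ z₀ : ℝ, 0 < z₀ ∧ ¬ DifferentiableAt ℝ P z₀ := by
  obtain ⟨a, μ, ha, hnd⟩ := exists_corner
  refine ⟨pot a, isPairPotential_pot ha, isStable_pot ha, isTempered_pot ha,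
    ⟨ampA + aStar, pot_bounded ha⟩, integrable_pot ha, fun r hr => ?_, 1, one_pos, ?_, ?_⟩
  · have h1 := attr_nonneg ha r
    unfold pot
    rw [if_neg (not_lt.2 hr)]
    linarith
  · intro L hL
    exact ⟨fun N => integrable_boltzmann ha hL.le N, fun z hz => grandZ_summable ha hL.le hz⟩
  · refine ⟨fun z => press a (Real.log z - attr a 0 / 2), ?_, Real.exp (μ + attr a 0 / 2),
      Real.exp_pos _, ?_⟩
    · intro z hz
      refine (tendsto_press ha (Real.log z - attr a 0 / 2)).congr' ?_
      filter_upwards [eventually_ge_atTop 0] with L hL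
      rw [grandZ_eq ha hL hz]
    · intro hd
      apply hnd
      have h1 : press a = (fun z => press a (Real.log z - attr a 0 / 2)) ∘
          fun ν => Real.exp (ν + attr a 0 / 2) := by
        funext ν
        simp
      rw [h1]
      refine DifferentiableAt.comp μ hd ?_
      fun_prop

end Vale.Agent.P171
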