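import Vale.Agent.P171.Basic
import Vale.Agent.P171.Count

open MeasureTheory Filter Topology
open scoped ENNReal

namespace Vale.Agent.P171

lemma rad_pos (n : ℕ) : 0 < rad n := by unfold rad; positivity

lemma attr_term_nonneg {a : ℕ → ℝ} (ha : Adm a) (d : ℝ) (n : ℕ) :
    0 ≤ a n * ((rad n) ^ 3)⁻¹ * (if d < rad n then 1 else 0) := by
  have := ha.nonneg n
  have := rad_pos n
  split_ifs <;> positivity

lemma one_le_rad (n : ℕ) : 1 ≤ rad n := by
  unfold rad
  have : (0 : ℝ) ≤ n := n.cast_nonneg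
  linarith

lemma inv_rad_le_one (n : ℕ) : ((rad n) ^ 3)⁻¹ ≤ 1 :=
  inv_le_one_of_one_le₀ (one_le_pow₀ (one_le_rad n))

lemma attr_term_le {a : ℕ → ℝ} (ha : Adm a) (d : ℝ) (n : ℕ) :
    a n * ((rad n) ^ 3)⁻¹ * (if d < rad n then 1 else 0) ≤ a n := by
  have h1 := ha.nonneg n
  have h2 := inv_rad_le_one n
  have h3 : 0 ≤ ((rad n) ^ 3)⁻¹ := by have := rad_pos n; positivity
  split_ifs
  · nlinarith
  · simpa using h1

lemma attr_summable {a : ℕ → ℝ} (ha : Adm a) (d : ℝ) :
    Summable fun n => a n * ((rad n) ^ 3)⁻¹ * (if d < rad n then 1 else 0) :=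
  Summable.of_nonneg_of_le (attr_term_nonneg ha d) (attr_term_le ha d) ha.summable

lemma attr_nonneg {a : ℕ → ℝ} (ha : Adm a) (d : ℝ) : 0 ≤ attr a d :=
  tsum_nonneg (attr_term_nonneg ha d)

lemma attr_le {a : ℕ → ℝ} (ha : Adm a) (d : ℝ) : attr a d ≤ aStar :=
  ((attr_summable ha d).tsum_le_tsum (attr_term_le ha d) ha.summable).trans ha.le

lemma attr_antitone {a : ℕ → ℝ} (ha : Adm a) : Antitone (attr a) := by
  intro d d' hd
  refine (attr_summable ha d').tsum_le_tsum (fun n => ?_) (attr_summable ha d)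
  have h1 := ha.nonneg n
  have h3 : 0 ≤ ((rad n) ^ 3)⁻¹ := by have := rad_pos n; positivity
  split_ifs with h4 h5 h5
  · exact le_refl _
  · exact absurd (hd.trans_lt h4) h5
  · simpa using mul_nonneg h1 h3
  · exact le_refl _

lemma measurable_pot {a : ℕ → ℝ} (ha : Adm a) : Measurable (pot a) := by
  unfold pot
  refine Measurable.sub (Measurable.const_mul ?_ _) (attr_antitone ha).measurable
  exact Measurable.ite measurableSet_Iio measurable_const measurable_const

lemma measurable_kern {a : ℕ → ℝ} (ha : Adm a) : Measurable (Function.uncurry (kern a)) := by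
  unfold kern Function.uncurry
  refine Measurable.const_mul ?_ _
  exact (measurable_pot ha).comp measurable_dist

lemma kern_translate (a : ℕ → ℝ) (s x y : E3) : kern a (x + s) (y + s) = kern a x y := by
  unfold kern
  rw [dist_add_right]

lemma kern_nonneg {a : ℕ → ℝ} (ha : Adm a) {x y : E3} (h : 2 ≤ dist x y) : 0 ≤ kern a x y := by
  unfold kern pot
  rw [if_neg (not_lt.2 h)]
  have := attr_nonneg ha (dist x y)
  linarith

lemma Xi_mono (a : ℕ → ℝ) (μ : ℝ) {L L' : ℝ} (h : L ≤ L') : Xi a μ L ≤ Xi a μ L' :=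
  gG_mono_set _ (fun x hx k => ⟨(hx k).1, (hx k).2.trans h⟩) _ _

lemma one_le_Xi (a : ℕ → ℝ) (μ L : ℝ) : 1 ≤ Xi a μ L := one_le_gG _ _ _ _

lemma sameCell_nonneg (x y : E3) : 0 ≤ sameCell x y := by
  unfold sameCell; split_ifs <;> norm_num

lemma kern_sum_nonpos {a : ℕ → ℝ} (ha : Adm a) {ι : Type} [Fintype ι] (x : ι → E3) :
    ∑ i, ∑ j, kern a (x i) (x j) ≤ 0 := by
  refine (superstable ha x).trans ?_
  rw [neg_nonpos]
  exact Finset.sum_nonneg fun i _ => Finset.sum_nonneg fun j _ => sameCell_nonneg _ _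

lemma Xi_le {a : ℕ → ℝ} (ha : Adm a) (μ : ℝ) {L : ℝ} (hL : 0 ≤ L) :
    Xi a μ L ≤ ENNReal.ofReal (Real.exp (Real.exp (μ + ampA / 2) * L ^ 3)) :=
  gG_le_exp _ (measurableSet_box L) (Real.exp_nonneg _) (by positivity) (volume_box hL).le
    (fun _ x _ => kern_sum_nonpos ha x)

lemma Xi_ne_top {a : ℕ → ℝ} (ha : Adm a) (μ L : ℝ) : Xi a μ L ≠ ⊤ := by
  have h1 : Xi a μ L ≤ Xi a μ (max L 0) := Xi_mono a μ (le_max_left _ _)
  exact ne_top_of_le_ne_top (ne_top_of_le_ne_top ENNReal.ofReal_ne_top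
    (Xi_le ha μ (le_max_right L 0))) h1

lemma one_le_Xi_toReal {a : ℕ → ℝ} (ha : Adm a) (μ L : ℝ) : 1 ≤ (Xi a μ L).toReal := by
  have := ENNReal.toReal_mono (Xi_ne_top ha μ L) (one_le_Xi a μ L)
  simpa using this

lemma logXi_nonneg {a : ℕ → ℝ} (ha : Adm a) (μ L : ℝ) : 0 ≤ Real.log (Xi a μ L).toReal :=
  Real.log_nonneg (one_le_Xi_toReal ha μ L)

lemma logXi_mono {a : ℕ → ℝ} (ha : Adm a) (μ : ℝ) {L L' : ℝ} (h : L ≤ L') :
    Real.log (Xi a μ L).toReal ≤ Real.log (Xi a μ L').toReal :=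
  Real.log_le_log (by linarith [one_le_Xi_toReal ha μ L])
    (ENNReal.toReal_mono (Xi_ne_top ha μ L') (Xi_mono a μ h))

lemma logXi_le {a : ℕ → ℝ} (ha : Adm a) (μ : ℝ) {L : ℝ} (hL : 0 ≤ L) :
    Real.log (Xi a μ L).toReal ≤ Real.exp (μ + ampA / 2) * L ^ 3 := by
  have h1 := ENNReal.toReal_mono ENNReal.ofReal_ne_top (Xi_le ha μ hL)
  rw [ENNReal.toReal_ofReal (Real.exp_nonneg _)] at h1
  rw [← Real.log_exp (Real.exp (μ + ampA / 2) * L ^ 3)]
  exact Real.log_le_log (by linarith [one_le_Xi_toReal ha μ L]) h1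

/-! ### Superadditivity -/

/-- separated cubes -/
def sepCube (l : ℝ) (v : Fin 3 → ℤ) : Set E3 :=
  {x | ∀ k, x k ∈ Set.Icc ((l + 2) * v k) ((l + 2) * v k + l)}

/-- index of the separated cube -/
noncomputable def sepIdx (l : ℝ) (x : E3) : Fin 3 → ℤ := fun k => ⌊x k / (l + 2)⌋

lemma sepIdx_of_mem {l : ℝ} (hl : 0 ≤ l) {v : Fin 3 → ℤ} {x : E3} (hx : x ∈ sepCube l v) :
    sepIdx l x = v := by
  funext k
  unfold sepIdx
  rw [Int.floor_eq_iff]
  have h := hx k
  have hl2 : 0 < l + 2 := by linarith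
  constructor
  · rw [le_div_iff₀ hl2]; nlinarith [h.1]
  · rw [div_lt_iff₀ hl2]; nlinarith [h.2]

lemma coord_le_dist (x y : E3) (k : Fin 3) : |x k - y k| ≤ dist x y := by
  rw [EuclideanSpace.dist_eq]
  apply Real.le_sqrt_of_sq_le
  rw [sq_abs]
  calc (x k - y k) ^ 2 = dist (x k) (y k) ^ 2 := by rw [Real.dist_eq, sq_abs]
    _ ≤ ∑ i, dist (x i) (y i) ^ 2 :=
      Finset.single_le_sum (f := fun i => dist (x i) (y i) ^ 2) (fun i _ => by positivity)
        (Finset.mem_univ k)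

lemma two_le_dist_of_sep {l : ℝ} (hl : 0 ≤ l) {v v' : Fin 3 → ℤ} (hv : v ≠ v') {x y : E3}
    (hx : x ∈ sepCube l v) (hy : y ∈ sepCube l v') : 2 ≤ dist x y := by
  obtain ⟨k, hk⟩ := Function.ne_iff.1 hv
  refine le_trans ?_ (coord_le_dist x y k)
  have h1 := hx k
  have h2 := hy k
  have hl2 : 0 < l + 2 := by linarith
  rcases lt_or_gt_of_ne hk with h | h
  · have h3 : (v k : ℝ) + 1 ≤ v' k := by exact_mod_cast h
    have h4 : (l + 2) * ((v k : ℝ) + 1) ≤ (l + 2) * v' k := mul_le_mul_of_nonneg_left h3 hl2.le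
    rw [abs_sub_comm]
    refine le_trans ?_ (le_abs_self _)
    nlinarith [h1.2, h2.1]
  · have h3 : (v' k : ℝ) + 1 ≤ v k := by exact_mod_cast h
    have h4 : (l + 2) * ((v' k : ℝ) + 1) ≤ (l + 2) * v k := mul_le_mul_of_nonneg_left h3 hl2.le
    refine le_trans ?_ (le_abs_self _)
    nlinarith [h1.1, h2.2]

lemma measurable_sepIdx (l : ℝ) : Measurable (sepIdx l) := by
  refine measurable_pi_lambda _ fun k => ?_
  exact Int.measurable_floor.comp ((measurable_coord k).div_const _)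

/-- the kernel cut off between different classes of an index map -/
noncomputable def cutKern {I : Type} [DecidableEq I] (κ : E3 → I) (w : E3 → E3 → ℝ)
    (x y : E3) : ℝ := if κ x = κ y then w x y else 0

lemma measurable_cutKern {κ : E3 → Fin 3 → ℤ} (hκ : Measurable κ) {w : E3 → E3 → ℝ}
    (hw : Measurable (Function.uncurry w)) : Measurable (Function.uncurry (cutKern κ w)) := by
  unfold cutKern Function.uncurry
  refine Measurable.ite ?_ hw measurable_const
  exact measurableSet_eq_fun (hκ.comp measurable_fst) (hκ.comp measurable_snd)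

lemma measurableSet_sepCube (l : ℝ) (v : Fin 3 → ℤ) : MeasurableSet (sepCube l v) :=
  measurableSet_pi_set fun _ => measurableSet_Icc

/-- the translation vector -/
noncomputable def vecOf (s : Fin 3 → ℝ) : E3 := WithLp.toLp 2 s

@[simp] lemma vecOf_apply (s : Fin 3 → ℝ) (k : Fin 3) : vecOf s k = s k := rfl

lemma gG_sepCube {a : ℕ → ℝ} (ha : Adm a) (l : ℝ) (v : Fin 3 → ℤ) (z : ℝ≥0∞) :
    gG volume (sepCube l v) z (kern a) = gG volume (box l) z (kern a) := by
  have h := gG_translate (vecOf fun k => (l + 2) * v k) (measurableSet_sepCube l v) z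
    (measurable_kern ha) (kern_translate a _)
  rw [← h]
  congr 1
  ext x
  simp only [sepCube, box, Set.mem_ofPred_eq, PiLp.add_apply, vecOf_apply, Set.mem_Icc]
  refine forall_congr' fun k => ?_
  constructor
  · rintro ⟨h1, h2⟩; constructor <;> linarith
  · rintro ⟨h1, h2⟩; constructor <;> linarith

lemma superadditive {a : ℕ → ℝ} (ha : Adm a) (μ : ℝ) {l : ℝ} (hl : 0 ≤ l) (k : ℕ) :
    Xi a μ l ^ (k ^ 3) ≤ Xi a μ (k * (l + 2)) := by
  classical
  set J : Finset (Fin 3 → ℤ) := Fintype.piFinset fun _ => (Finset.range k).map Nat.castEmbedding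
    with hJ
  have hJmem : ∀ v ∈ J, ∀ i, 0 ≤ v i ∧ v i + 1 ≤ k := by
    intro v hv i
    rw [hJ, Fintype.mem_piFinset] at hv
    have := hv i
    simp only [Finset.mem_map, Finset.mem_range, Nat.castEmbedding_apply] at this
    obtain ⟨m, hm, hm'⟩ := this
    omega
  have hJcard : J.card = k ^ 3 := by
    rw [hJ, Fintype.card_piFinset]
    simp
  have hcut : gG volume (⋃ v ∈ J, sepCube l v) (act μ) (cutKern (sepIdx l) (kern a)) =
      ∏ v ∈ J, gG volume (sepCube l v) (act μ) (cutKern (sepIdx l) (kern a)) := by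
    refine gG_biUnion volume J (sepCube l) (measurableSet_sepCube l) ?_ (act μ)
      (measurable_cutKern (measurable_sepIdx l) (measurable_kern ha)) ?_
    · intro v v' hv
      rw [Set.disjoint_left]
      intro x hx hx'
      exact hv ((sepIdx_of_mem hl hx).symm.trans (sepIdx_of_mem hl hx'))
    · intro v v' hv x hx y hy
      unfold cutKern
      rw [if_neg]
      rw [sepIdx_of_mem hl hx, sepIdx_of_mem hl hy]
      exact hv
  have hcell : ∀ v ∈ J, gG volume (sepCube l v) (act μ) (cutKern (sepIdx l) (kern a)) =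
      Xi a μ l := by
    intro v _
    rw [gG_congr_kern volume (measurableSet_sepCube l v) (act μ) (w' := kern a), gG_sepCube ha]
    · rfl
    · intro x hx y hy
      unfold cutKern
      rw [if_pos]
      rw [sepIdx_of_mem hl hx, sepIdx_of_mem hl hy]
  rw [Finset.prod_congr rfl hcell, Finset.prod_const, hJcard] at hcut
  rw [← hcut]
  have hsub : (⋃ v ∈ J, sepCube l v) ⊆ box (k * (l + 2)) := by
    intro x hx
    simp only [Set.mem_iUnion] at hx
    obtain ⟨v, hv, hx⟩ := hx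
    intro i
    have h1 := hJmem v hv i
    have h2 : (0 : ℝ) ≤ v i := by exact_mod_cast h1.1
    have h3 : (v i : ℝ) + 1 ≤ k := by exact_mod_cast h1.2
    have h4 := hx i
    have hl2 : 0 < l + 2 := by linarith
    have h5 : (l + 2) * ((v i : ℝ) + 1) ≤ (l + 2) * k := mul_le_mul_of_nonneg_left h3 hl2.le
    have h6 : 0 ≤ (l + 2) * (v i : ℝ) := by positivity
    constructor
    · linarith [h4.1]
    · nlinarith [h4.2]
  refine le_trans ?_ (gG_mono_set volume hsub (act μ) (kern a))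
  refine gG_mono_kern volume (Finset.measurableSet_biUnion _ fun v _ => measurableSet_sepCube l v)
    (act μ) fun N x hx => ?_
  refine Finset.sum_le_sum fun i _ => Finset.sum_le_sum fun j _ => ?_
  unfold cutKern
  split_ifs with h
  · exact le_refl _
  · have hi := hx i
    have hj := hx j
    simp only [Set.mem_iUnion] at hi hj
    obtain ⟨v, hv, hxi⟩ := hi
    obtain ⟨v', hv', hxj⟩ := hj
    refine kern_nonneg ha (two_le_dist_of_sep hl (v := v) (v' := v') ?_ hxi hxj)
    intro hvv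
    apply h
    rw [sepIdx_of_mem hl hxi, sepIdx_of_mem hl hxj, hvv]

end Vale.Agent.P171
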